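import Mathlib

/-!
From a Poincare inequality to a bound on the total variation distance, for a lazy symmetric chain on a
finite set.
-/

namespace Vale.Agent.Lib.P328Q

open Finset

noncomputable section

set_option linter.unusedSectionVars false

variable {α : Type*} [DecidableEq α]

/-- The law of the chain `K` on a finite set. -/
def lazyLaw (Ω : Finset α) (K : α → α → ℝ) (x : α) : ℕ → α → ℝ
  | 0, y => if y = x then 1 else 0
  | t + 1, y => ∑ z ∈ Ω, lazyLaw Ω K x t z * K z y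

section
variable {Ω : Finset α} {K S : α → α → ℝ}

theorem mix_K_sum (hK : ∀ x ∈ Ω, ∀ y ∈ Ω, K x y = 1 / 2 * (if y = x then 1 else 0) + 1 / 2 * S x y)
    (hS1 : ∀ x ∈ Ω, ∑ y ∈ Ω, S x y = 1) {x : α} (hx : x ∈ Ω) : ∑ y ∈ Ω, K x y = 1 := by
  rw [sum_congr rfl (hK x hx), sum_add_distrib, ← mul_sum, ← mul_sum, hS1 x hx, sum_ite_eq' Ω x]
  simp [hx]
  norm_num

theorem mix_K_symm (hK : ∀ x ∈ Ω, ∀ y ∈ Ω, K x y = 1 / 2 * (if y = x then 1 else 0) + 1 / 2 * S x y)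
    (hSsym : ∀ x ∈ Ω, ∀ y ∈ Ω, S x y = S y x) {x y : α} (hx : x ∈ Ω) (hy : y ∈ Ω) :
    K x y = K y x := by
  rw [hK x hx y hy, hK y hy x hx, hSsym x hx y hy]
  by_cases h : x = y
  · subst h; rfl
  · rw [if_neg h, if_neg (Ne.symm h)]

theorem mix_mass (hK : ∀ x ∈ Ω, ∀ y ∈ Ω, K x y = 1 / 2 * (if y = x then 1 else 0) + 1 / 2 * S x y)
    (hS1 : ∀ x ∈ Ω, ∑ y ∈ Ω, S x y = 1) {x : α} (hx : x ∈ Ω) (t : ℕ) :
    ∑ y ∈ Ω, lazyLaw Ω K x t y = 1 := by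
  induction t with
  | zero =>
    simp only [lazyLaw]
    rw [sum_ite_eq' Ω x]
    simp [hx]
  | succ t ih =>
    simp only [lazyLaw]
    rw [sum_comm]
    rw [← ih]
    refine sum_congr rfl fun z hz => ?_
    rw [← mul_sum, mix_K_sum hK hS1 hz, mul_one]

/-- The law minus the uniform law evolves by the chain. -/
theorem mix_step (hK : ∀ x ∈ Ω, ∀ y ∈ Ω, K x y = 1 / 2 * (if y = x then 1 else 0) + 1 / 2 * S x y)
    (hSsym : ∀ x ∈ Ω, ∀ y ∈ Ω, S x y = S y x)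
    (hS1 : ∀ x ∈ Ω, ∑ y ∈ Ω, S x y = 1) {x : α} (t : ℕ) {y : α} (hy : y ∈ Ω) (u : ℝ) :
    lazyLaw Ω K x (t + 1) y - u = ∑ z ∈ Ω, (lazyLaw Ω K x t z - u) * K z y := by
  simp only [lazyLaw, sub_mul, sum_sub_distrib]
  congr 1
  rw [← mul_sum]
  have : ∑ z ∈ Ω, K z y = 1 := by
    rw [← mix_K_sum hK hS1 hy]
    exact sum_congr rfl fun z hz => mix_K_symm hK hSsym hz hy
  rw [this, mul_one]

/-- The chain is a contraction in a strong form. -/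
theorem mix_contraction (hK : ∀ x ∈ Ω, ∀ y ∈ Ω, K x y = 1 / 2 * (if y = x then 1 else 0) + 1 / 2 * S x y)
    (hS0 : ∀ x ∈ Ω, ∀ y ∈ Ω, 0 ≤ S x y) (hSsym : ∀ x ∈ Ω, ∀ y ∈ Ω, S x y = S y x)
    (hS1 : ∀ x ∈ Ω, ∑ y ∈ Ω, S x y = 1) (h : α → ℝ) :
    ∑ y ∈ Ω, (∑ z ∈ Ω, h z * K z y) ^ 2 ≤ ∑ y ∈ Ω, h y * ∑ z ∈ Ω, h z * K z y := by
  set s : α → ℝ := fun y => ∑ z ∈ Ω, h z * S z y with hs
  have hP : ∀ y ∈ Ω, ∑ z ∈ Ω, h z * K z y = 1 / 2 * h y + 1 / 2 * s y := by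
    intro y hy
    have e1 : ∀ z ∈ Ω, h z * K z y = 1 / 2 * (if z = y then h z else 0) + 1 / 2 * (h z * S z y) := by
      intro z hz
      rw [hK z hz y hy]
      by_cases hzy : z = y
      · subst hzy; simp; ring
      · rw [if_neg hzy, if_neg (Ne.symm hzy)]; ring
    rw [sum_congr rfl e1, sum_add_distrib, ← mul_sum, ← mul_sum, sum_ite_eq' Ω y]
    simp [hy, hs]
  have hc : ∀ y ∈ Ω, s y ^ 2 ≤ ∑ z ∈ Ω, S z y * h z ^ 2 := by
    intro y hy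
    have hone : ∑ z ∈ Ω, S z y = 1 := by
      rw [← hS1 y hy]
      exact sum_congr rfl fun z hz => hSsym z hz y hy
    have := sum_sq_le_sum_mul_sum_of_sq_le_mul Ω (r := fun z => h z * S z y)
      (f := fun z => S z y) (g := fun z => S z y * h z ^ 2)
      (fun z hz => hS0 z hz y hy) (fun z hz => mul_nonneg (hS0 z hz y hy) (sq_nonneg _))
      (fun z _ => le_of_eq (by ring))
    rwa [hone, one_mul] at this
  have hs2 : ∑ y ∈ Ω, s y ^ 2 ≤ ∑ y ∈ Ω, h y ^ 2 := by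
    calc ∑ y ∈ Ω, s y ^ 2 ≤ ∑ y ∈ Ω, ∑ z ∈ Ω, S z y * h z ^ 2 := sum_le_sum hc
      _ = ∑ z ∈ Ω, ∑ y ∈ Ω, S z y * h z ^ 2 := sum_comm
      _ = ∑ z ∈ Ω, h z ^ 2 := by
          refine sum_congr rfl fun z hz => ?_
          rw [← sum_mul, hS1 z hz, one_mul]
  have e2 : ∑ y ∈ Ω, (∑ z ∈ Ω, h z * K z y) ^ 2 = ∑ y ∈ Ω, (1 / 2 * h y + 1 / 2 * s y) ^ 2 :=
    sum_congr rfl fun y hy => by rw [hP y hy]
  have e3 : ∑ y ∈ Ω, h y * ∑ z ∈ Ω, h z * K z y = ∑ y ∈ Ω, h y * (1 / 2 * h y + 1 / 2 * s y) :=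
    sum_congr rfl fun y hy => by rw [hP y hy]
  rw [e2, e3]
  have e4 : ∑ y ∈ Ω, h y * (1 / 2 * h y + 1 / 2 * s y) - ∑ y ∈ Ω, (1 / 2 * h y + 1 / 2 * s y) ^ 2 =
      1 / 4 * (∑ y ∈ Ω, h y ^ 2 - ∑ y ∈ Ω, s y ^ 2) := by
    rw [← sum_sub_distrib, ← sum_sub_distrib, mul_sum]
    refine sum_congr rfl fun y _ => ?_
    ring
  linarith

/-- The Dirichlet form identity. -/
theorem mix_dirichlet (hKsym : ∀ x ∈ Ω, ∀ y ∈ Ω, K x y = K y x) (hKsum : ∀ x ∈ Ω, ∑ y ∈ Ω, K x y = 1)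
    (h : α → ℝ) :
    ∑ y ∈ Ω, h y * ∑ z ∈ Ω, h z * K z y =
      ∑ y ∈ Ω, h y ^ 2 - (∑ x ∈ Ω, ∑ y ∈ Ω, K x y * (h x - h y) ^ 2) / 2 := by
  have e1 : ∑ x ∈ Ω, ∑ y ∈ Ω, K x y * h x ^ 2 = ∑ x ∈ Ω, h x ^ 2 := by
    refine sum_congr rfl fun x hx => ?_
    rw [← sum_mul, hKsum x hx, one_mul]
  have e2 : ∑ x ∈ Ω, ∑ y ∈ Ω, K x y * h y ^ 2 = ∑ y ∈ Ω, h y ^ 2 := by
    rw [sum_comm]
    refine sum_congr rfl fun y hy => ?_
    rw [← sum_mul]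
    have : ∑ x ∈ Ω, K x y = 1 := by
      rw [← hKsum y hy]
      exact sum_congr rfl fun z hz => hKsym z hz y hy
    rw [this, one_mul]
  have e3 : ∑ x ∈ Ω, ∑ y ∈ Ω, K x y * (h x * h y) = ∑ y ∈ Ω, h y * ∑ z ∈ Ω, h z * K z y := by
    rw [sum_comm]
    refine sum_congr rfl fun y _ => ?_
    rw [mul_sum]
    refine sum_congr rfl fun z _ => ?_
    ring
  have e4 : ∑ x ∈ Ω, ∑ y ∈ Ω, K x y * (h x - h y) ^ 2 =
      ∑ x ∈ Ω, ∑ y ∈ Ω, K x y * h x ^ 2 + ∑ x ∈ Ω, ∑ y ∈ Ω, K x y * h y ^ 2 -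
        2 * ∑ x ∈ Ω, ∑ y ∈ Ω, K x y * (h x * h y) := by
    rw [← sum_add_distrib, mul_sum, ← sum_sub_distrib]
    refine sum_congr rfl fun x _ => ?_
    rw [← sum_add_distrib, mul_sum, ← sum_sub_distrib]
    refine sum_congr rfl fun y _ => ?_
    ring
  rw [e4, e1, e2, e3]
  ring

end

/-- Abstract L2 mixing: `K = (δ + S) / 2` with `S` symmetric and stochastic on `Ω`, and the Poincare
inequality with constant `Q` for the Dirichlet form of `K`. -/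
theorem abstract_mix (Ω : Finset α) (K S : α → α → ℝ)
    (hK : ∀ x ∈ Ω, ∀ y ∈ Ω, K x y = 1 / 2 * (if y = x then 1 else 0) + 1 / 2 * S x y)
    (hS0 : ∀ x ∈ Ω, ∀ y ∈ Ω, 0 ≤ S x y) (hSsym : ∀ x ∈ Ω, ∀ y ∈ Ω, S x y = S y x)
    (hS1 : ∀ x ∈ Ω, ∑ y ∈ Ω, S x y = 1)
    (Q : ℝ) (hQ : 0 < Q)
    (hP : ∀ g : α → ℝ, (∑ x ∈ Ω, g x ^ 2) / (Ω.card : ℝ) - ((∑ x ∈ Ω, g x) / (Ω.card : ℝ)) ^ 2 ≤
      Q * ((∑ x ∈ Ω, ∑ y ∈ Ω, K x y * (g x - g y) ^ 2) / (2 * (Ω.card : ℝ))))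
    {x : α} (hx : x ∈ Ω) (t : ℕ) {ε : ℝ} (hε : 0 < ε)
    (ht : Q * (Real.log (Ω.card : ℝ) + 2 * Real.log (1 / ε)) ≤ t) :
    (1 / 2) * ∑ y ∈ Ω, |lazyLaw Ω K x t y - 1 / (Ω.card : ℝ)| ≤ ε := by
  have hne : Ω.Nonempty := ⟨x, hx⟩
  have hnpos : (0 : ℝ) < Ω.card := by exact_mod_cast card_pos.2 hne
  set u : ℝ := 1 / (Ω.card : ℝ) with hu
  set hh : ℕ → α → ℝ := fun t y => lazyLaw Ω K x t y - u with hhdef
  set A : ℕ → ℝ := fun t => ∑ y ∈ Ω, hh t y ^ 2 with hA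
  have hKsym : ∀ x ∈ Ω, ∀ y ∈ Ω, K x y = K y x := fun x hx y hy => mix_K_symm hK hSsym hx hy
  have hKsum : ∀ x ∈ Ω, ∑ y ∈ Ω, K x y = 1 := fun x hx => mix_K_sum hK hS1 hx
  -- mean zero
  have hmean : ∀ t, ∑ y ∈ Ω, hh t y = 0 := by
    intro t
    simp only [hhdef, sum_sub_distrib, mix_mass hK hS1 hx t, sum_const, nsmul_eq_mul, hu]
    field_simp
    ring
  -- one step
  have hstep : ∀ t, A (t + 1) ≤ Real.exp (-(1 / Q)) * A t := by
    intro t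
    have hnext : ∀ y ∈ Ω, hh (t + 1) y = ∑ z ∈ Ω, hh t z * K z y := fun y hy =>
      mix_step hK hSsym hS1 t hy u
    have e1 : A (t + 1) = ∑ y ∈ Ω, (∑ z ∈ Ω, hh t z * K z y) ^ 2 :=
      sum_congr rfl fun y hy => by rw [hnext y hy]
    have h2 := mix_contraction hK hS0 hSsym hS1 (hh t)
    have h3 := mix_dirichlet hKsym hKsum (hh t)
    have h4 := hP (hh t)
    rw [hmean t] at h4
    set D := ∑ x ∈ Ω, ∑ y ∈ Ω, K x y * (hh t x - hh t y) ^ 2 with hD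
    have h5 : A t ≤ Q * (D / 2) := by
      have : A t / (Ω.card : ℝ) ≤ Q * (D / 2) / (Ω.card : ℝ) := by
        have e : Q * (D / (2 * (Ω.card : ℝ))) = Q * (D / 2) / (Ω.card : ℝ) := by
          field_simp
        have e' : (∑ x ∈ Ω, hh t x ^ 2) / (Ω.card : ℝ) - (0 / (Ω.card : ℝ)) ^ 2 = A t / (Ω.card : ℝ) := by
          simp [hA]
        rw [e', e] at h4
        exact h4
      exact (div_le_div_iff_of_pos_right hnpos).1 this
    have h6 : A (t + 1) ≤ A t - D / 2 := by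
      rw [e1]
      calc _ ≤ _ := h2
        _ = _ := h3
    have hA0 : 0 ≤ A t := sum_nonneg fun _ _ => sq_nonneg _
    have h7 : A t / Q ≤ D / 2 := by
      rw [div_le_iff₀ hQ]
      linarith
    have h8 : 1 + -(1 / Q) ≤ Real.exp (-(1 / Q)) := by
      have := Real.add_one_le_exp (-(1 / Q))
      linarith
    calc A (t + 1) ≤ A t - A t / Q := by linarith
      _ = (1 + -(1 / Q)) * A t := by ring
      _ ≤ _ := mul_le_mul_of_nonneg_right h8 hA0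
  have hA00 : A 0 ≤ 1 := by
    have e : ∀ y, hh 0 y ^ 2 = (if y = x then 1 - 2 * u else 0) + u ^ 2 := by
      intro y
      simp only [hhdef, lazyLaw]
      by_cases h : y = x
      · rw [if_pos h, if_pos h]; ring
      · rw [if_neg h, if_neg h]; ring
    have e2 : A 0 = (1 - 2 * u) + (Ω.card : ℝ) * u ^ 2 := by
      simp only [hA, e, sum_add_distrib, sum_ite_eq' Ω x, hx, if_true, sum_const, nsmul_eq_mul]
    rw [e2, hu]
    have : (Ω.card : ℝ) * (1 / (Ω.card : ℝ)) ^ 2 = 1 / (Ω.card : ℝ) := by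
      field_simp
    rw [this]
    have : 0 < 1 / (Ω.card : ℝ) := by positivity
    linarith
  have hdecay : ∀ t : ℕ, A t ≤ Real.exp (-((t : ℝ) / Q)) := by
    intro t
    induction t with
    | zero => simpa using hA00
    | succ t ih =>
      refine le_trans (hstep t) ?_
      have : Real.exp (-((((t + 1 : ℕ) : ℝ)) / Q)) = Real.exp (-(1 / Q)) * Real.exp (-((t : ℝ) / Q)) := by
        rw [← Real.exp_add]
        congr 1
        push_cast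
        field_simp
        ring
      rw [this]
      exact mul_le_mul_of_nonneg_left ih (Real.exp_pos _).le
  -- total variation
  have hsq : (∑ y ∈ Ω, |hh t y|) ^ 2 ≤ (Ω.card : ℝ) * A t := by
    have := sq_sum_le_card_mul_sum_sq (s := Ω) (f := fun y => |hh t y|)
    simpa [hA, sq_abs] using this
  have hbound : (Ω.card : ℝ) * Real.exp (-((t : ℝ) / Q)) ≤ ε ^ 2 := by
    have h1 : Real.log (Ω.card : ℝ) + 2 * Real.log (1 / ε) ≤ (t : ℝ) / Q := by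
      rw [le_div_iff₀ hQ]
      linarith
    have h2 : Real.exp (-((t : ℝ) / Q)) ≤
        Real.exp (-(Real.log (Ω.card : ℝ) + 2 * Real.log (1 / ε))) :=
      Real.exp_le_exp.2 (by linarith)
    have h3 : Real.exp (-(Real.log (Ω.card : ℝ) + 2 * Real.log (1 / ε))) =
        ε ^ 2 / (Ω.card : ℝ) := by
      have e : -(Real.log (Ω.card : ℝ) + 2 * Real.log (1 / ε)) =
          Real.log (ε ^ 2 / (Ω.card : ℝ)) := by
        rw [Real.log_div (by positivity) (ne_of_gt hnpos), Real.log_pow, Real.log_div (by norm_num)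
          (ne_of_gt hε), Real.log_one]
        push_cast
        ring
      rw [e, Real.exp_log (by positivity)]
    rw [h3] at h2
    calc (Ω.card : ℝ) * Real.exp (-((t : ℝ) / Q)) ≤ (Ω.card : ℝ) * (ε ^ 2 / (Ω.card : ℝ)) :=
          mul_le_mul_of_nonneg_left h2 hnpos.le
      _ = ε ^ 2 := by field_simp
  have hfinal : (∑ y ∈ Ω, |hh t y|) ≤ ε := by
    have h1 : (∑ y ∈ Ω, |hh t y|) ^ 2 ≤ ε ^ 2 :=
      le_trans hsq (le_trans (mul_le_mul_of_nonneg_left (hdecay t) hnpos.le) hbound)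
    exact abs_le_of_sq_le_sq' h1 hε.le |>.2
  have h0 : 0 ≤ ∑ y ∈ Ω, |hh t y| := sum_nonneg fun _ _ => abs_nonneg _
  simp only [hhdef] at hfinal h0
  linarith

end

end Vale.Agent.Lib.P328Q
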