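import Vale.Agent.Lib.P328Q.ChainDefs
import Vale.Agent.Lib.P328Q.MixAbstract

/-!
The lazy Diaconis-Gangolli chain: symmetry, stochasticity, its Dirichlet form, and total variation
bounds from a Poincare inequality.
-/

namespace Vale.Agent.Lib.P328Q

open Finset
open Vale.Agent.Lib.P328

noncomputable section

variable {m n : ℕ}

theorem mix_mem_Tab {C : Type*} [Fintype C] [DecidableEq C] {r : Fin m → ℕ} {c : C → ℕ} {X : Tb m C} :
    X ∈ Tab r c ↔ (∀ i, rowS X i = r i) ∧ ∀ j, colS X j = c j := by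
  unfold Tab
  refine ⟨fun h => (Finset.mem_filter.1 h).2, fun h => Finset.mem_filter.2 ⟨?_, h⟩⟩
  rw [Fintype.mem_piFinset]
  intro i
  rw [Fintype.mem_piFinset]
  intro j
  rw [mem_range]
  have h1 : X i j ≤ rowS X i := by
    unfold rowS
    exact single_le_sum (f := fun j => X i j) (fun _ _ => Nat.zero_le _) (mem_univ j)
  rw [h.1 i] at h1
  omega

/-- Integer form of a move which applies. -/
theorem mix_move_int {i k : Fin m} {j l : Fin n} {X : Tb m (Fin n)} (hv : dgValid i k j l X)
    (a : Fin m) (b : Fin n) :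
    ((dgMove i k j l X a b : ℕ) : ℤ) = (X a b : ℤ) + (if a = i ∧ b = j then 1 else 0)
      + (if a = k ∧ b = l then 1 else 0) - (if a = i ∧ b = l then 1 else 0)
      - (if a = k ∧ b = j then 1 else 0) := by
  obtain ⟨hik, hjl, h1, h2⟩ := hv
  unfold dgMove
  by_cases ha : a = i
  · subst ha
    have hak : a ≠ k := hik
    by_cases hb : b = j
    · subst hb
      have hbl : b ≠ l := hjl
      simp [hak, hbl]
    · by_cases hbl : b = l
      · subst hbl
        simp [hak, hb]
        omega
      · simp [hak, hb, hbl]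
  · by_cases hak : a = k
    · subst hak
      by_cases hb : b = j
      · subst hb
        have hbl : b ≠ l := hjl
        simp [ha, hbl]
        omega
      · by_cases hbl : b = l
        · subst hbl
          simp [ha, hb]
        · simp [ha, hb, hbl]
    · simp [ha, hak]

theorem mix_sum_right (p : Prop) [Decidable p] (j : Fin n) :
    (∑ b : Fin n, (if p ∧ b = j then (1 : ℤ) else 0)) = if p then 1 else 0 := by
  by_cases hp : p <;> simp [hp]

theorem mix_sum_left (q : Prop) [Decidable q] (i : Fin m) :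
    (∑ a : Fin m, (if a = i ∧ q then (1 : ℤ) else 0)) = if q then 1 else 0 := by
  by_cases hq : q <;> simp [hq]

/-- A move which applies keeps all margins. -/
theorem mix_move_mem {r : Fin m → ℕ} {c : Fin n → ℕ} {i k : Fin m} {j l : Fin n}
    {X : Tb m (Fin n)} (hX : X ∈ Tab r c) (hv : dgValid i k j l X) : dgMove i k j l X ∈ Tab r c := by
  rw [mix_mem_Tab] at hX ⊢
  constructor
  · intro a
    rw [← hX.1 a]
    unfold rowS
    zify
    simp only [mix_move_int hv]
    simp only [sum_add_distrib, sum_sub_distrib, mix_sum_right]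
    ring
  · intro b
    rw [← hX.2 b]
    unfold colS
    zify
    simp only [mix_move_int hv]
    simp only [sum_add_distrib, sum_sub_distrib, mix_sum_left]
    ring

theorem mix_step_mem {r : Fin m → ℕ} {c : Fin n → ℕ} {X : Tb m (Fin n)} (hX : X ∈ Tab r c)
    (i k : Fin m) (j l : Fin n) : dgStep i k j l X ∈ Tab r c := by
  unfold dgStep
  split_ifs with h
  · exact mix_move_mem hX h
  · exact hX

/-- The reverse of a step. -/
theorem mix_step_rev {i k : Fin m} {j l : Fin n} {x y : Tb m (Fin n)} (hxy : x ≠ y)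
    (h : dgStep i k j l x = y) : dgStep i k l j y = x := by
  unfold dgStep at h
  split_ifs at h with hv
  · subst h
    obtain ⟨hik, hjl, h1, h2⟩ := hv
    have hv' : dgValid i k l j (dgMove i k j l x) := by
      refine ⟨hik, hjl.symm, ?_, ?_⟩
      · simp [dgMove, hjl, hik]
      · simp [dgMove, hjl.symm, hik.symm]
    unfold dgStep
    rw [if_pos hv']
    funext a b
    have hc : (a = i ∧ b = l) ∨ (a = k ∧ b = j) → 1 ≤ x a b := by
      rintro (⟨rfl, rfl⟩ | ⟨rfl, rfl⟩)
      · exact h1
      · exact h2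
    unfold dgMove
    split_ifs at hc ⊢ <;> omega
  · exact absurd h hxy

open Classical in
/-- The probability of moving by a uniform quadruple. -/
def dgS (m n : ℕ) (x y : Tb m (Fin n)) : ℝ :=
  1 / ((m : ℝ) ^ 2 * (n : ℝ) ^ 2) *
    ∑ i : Fin m, ∑ k : Fin m, ∑ j : Fin n, ∑ l : Fin n, if dgStep i k j l x = y then 1 else 0

theorem mix_kernel_eq (x y : Tb m (Fin n)) :
    dgKernel x y = 1 / 2 * (if y = x then 1 else 0) + 1 / 2 * dgS m n x y := by
  unfold dgKernel dgS
  ring

theorem mix_S_nonneg (x y : Tb m (Fin n)) : 0 ≤ dgS m n x y := by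
  unfold dgS
  refine mul_nonneg (by positivity) (sum_nonneg fun _ _ => sum_nonneg fun _ _ =>
    sum_nonneg fun _ _ => sum_nonneg fun _ _ => ?_)
  split_ifs <;> norm_num

theorem mix_S_symm (x y : Tb m (Fin n)) : dgS m n x y = dgS m n y x := by
  classical
  by_cases hxy : x = y
  · rw [hxy]
  unfold dgS
  congr 1
  refine sum_congr rfl fun i _ => sum_congr rfl fun k _ => ?_
  rw [sum_comm]
  refine sum_congr rfl fun l _ => sum_congr rfl fun j _ => ?_
  by_cases h : dgStep i k j l x = y
  · rw [if_pos h, if_pos (mix_step_rev hxy h)]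
  · have h2 : ¬ dgStep i k l j y = x := fun h' => by
      have := mix_step_rev (i := i) (k := k) (j := l) (l := j) (Ne.symm hxy) h'
      exact h this
    rw [if_neg h, if_neg h2]

theorem mix_S_sum {r : Fin m → ℕ} {c : Fin n → ℕ} (hm : 1 ≤ m) (hn : 1 ≤ n) {x : Tb m (Fin n)}
    (hx : x ∈ Tab r c) : ∑ y ∈ Tab r c, dgS m n x y = 1 := by
  classical
  unfold dgS
  rw [← mul_sum]
  have h1 : ∑ y ∈ Tab r c, ∑ i : Fin m, ∑ k : Fin m, ∑ j : Fin n, ∑ l : Fin n,
      (if dgStep i k j l x = y then (1 : ℝ) else 0) = (m : ℝ) ^ 2 * (n : ℝ) ^ 2 := by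
    rw [sum_comm]
    have : ∀ i k : Fin m, ∀ j l : Fin n,
        ∑ y ∈ Tab r c, (if dgStep i k j l x = y then (1 : ℝ) else 0) = 1 := by
      intro i k j l
      rw [sum_ite_eq]
      simp [mix_step_mem hx]
    calc _ = ∑ i : Fin m, ∑ k : Fin m, ∑ j : Fin n, ∑ l : Fin n,
          ∑ y ∈ Tab r c, (if dgStep i k j l x = y then (1 : ℝ) else 0) := by
          refine sum_congr rfl fun i _ => ?_
          rw [sum_comm]
          refine sum_congr rfl fun k _ => ?_
          rw [sum_comm]
          refine sum_congr rfl fun j _ => ?_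
          rw [sum_comm]
      _ = _ := by
          simp only [this, sum_const, card_univ, Fintype.card_fin, nsmul_eq_mul, mul_one]
          ring
  rw [h1]
  have hm' : (m : ℝ) ≠ 0 := by
    have : m ≠ 0 := by omega
    exact_mod_cast this
  have hn' : (n : ℝ) ≠ 0 := by
    have : n ≠ 0 := by omega
    exact_mod_cast this
  field_simp

open Classical in
/-- The Dirichlet form of the kernel out of a point. -/
theorem mix_kernel_dir {r : Fin m → ℕ} {c : Fin n → ℕ} {x : Tb m (Fin n)} (hx : x ∈ Tab r c)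
    (g : Tb m (Fin n) → ℝ) :
    ∑ y ∈ Tab r c, dgKernel x y * (g x - g y) ^ 2 =
      1 / (2 * ((m : ℝ) ^ 2 * (n : ℝ) ^ 2)) *
        ∑ i : Fin m, ∑ k : Fin m, ∑ j : Fin n, ∑ l : Fin n,
          if dgValid i k j l x then (g x - g (dgMove i k j l x)) ^ 2 else 0 := by
  have h1 : ∀ y, dgKernel x y * (g x - g y) ^ 2 =
      1 / (2 * ((m : ℝ) ^ 2 * (n : ℝ) ^ 2)) *
        ∑ i : Fin m, ∑ k : Fin m, ∑ j : Fin n, ∑ l : Fin n,
          (if dgStep i k j l x = y then (g x - g y) ^ 2 else 0) := by
    intro y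
    unfold dgKernel
    have h2 : (if y = x then (1 : ℝ) else 0) * (g x - g y) ^ 2 = 0 := by
      by_cases h : y = x
      · rw [h]; simp
      · rw [if_neg h]; simp
    have h3 : ∑ i : Fin m, ∑ k : Fin m, ∑ j : Fin n, ∑ l : Fin n,
        (if dgStep i k j l x = y then (g x - g y) ^ 2 else 0) =
        (∑ i : Fin m, ∑ k : Fin m, ∑ j : Fin n, ∑ l : Fin n,
          (if dgStep i k j l x = y then (1 : ℝ) else 0)) * (g x - g y) ^ 2 := by
      simp only [sum_mul]
      refine sum_congr rfl fun _ _ => sum_congr rfl fun _ _ => sum_congr rfl fun _ _ =>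
        sum_congr rfl fun _ _ => ?_
      split_ifs <;> simp
    rw [h3, add_mul, mul_assoc, h2, mul_zero, zero_add]
    by_cases hm : (m : ℝ) ^ 2 * (n : ℝ) ^ 2 = 0
    · simp [hm]
    · field_simp
  rw [sum_congr rfl fun y _ => h1 y, ← mul_sum]
  congr 1
  rw [sum_comm]
  refine sum_congr rfl fun i _ => ?_
  rw [sum_comm]
  refine sum_congr rfl fun k _ => ?_
  rw [sum_comm]
  refine sum_congr rfl fun j _ => ?_
  rw [sum_comm]
  refine sum_congr rfl fun l _ => ?_
  rw [sum_ite_eq, if_pos (mix_step_mem hx i k j l)]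
  unfold dgStep
  split_ifs with hv
  · rfl
  · simp

/-- The number of tables. -/
theorem mix_card_Tab_le {r : Fin m → ℕ} {c : Fin n → ℕ} {M : ℕ}
    (hcell : ∀ i j, min (r i) (c j) + 1 ≤ M) : (Tab r c).card ≤ M ^ (m * n) := by
  have hsub : Tab r c ⊆ Fintype.piFinset fun _ : Fin m => Fintype.piFinset fun _ : Fin n => range M := by
    intro X hX
    rw [mix_mem_Tab] at hX
    rw [Fintype.mem_piFinset]
    intro i
    rw [Fintype.mem_piFinset]
    intro j
    rw [mem_range]
    have h1 : X i j ≤ rowS X i := by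
      unfold rowS
      exact single_le_sum (f := fun j => X i j) (fun _ _ => Nat.zero_le _) (mem_univ j)
    have h2 : X i j ≤ colS X j := by
      unfold colS
      exact single_le_sum (f := fun i => X i j) (fun _ _ => Nat.zero_le _) (mem_univ i)
    rw [hX.1 i] at h1
    rw [hX.2 j] at h2
    have := hcell i j
    have h3 : X i j ≤ min (r i) (c j) := le_min h1 h2
    omega
  refine le_trans (card_le_card hsub) ?_
  rw [Fintype.card_piFinset]
  simp only [Fintype.card_piFinset, card_range, prod_const, card_univ, Fintype.card_fin]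
  exact le_of_eq (by rw [mul_comm, pow_mul])

open Classical in
theorem mix_law_eq (r : Fin m → ℕ) (c : Fin n → ℕ) (x : Tb m (Fin n)) (t : ℕ) (y : Tb m (Fin n)) :
    dgLaw r c x t y = @lazyLaw _ (Classical.decEq _) (Tab r c) dgKernel x t y := by
  induction t generalizing y with
  | zero =>
    simp only [dgLaw, lazyLaw]
    by_cases h : y = x
    · rw [if_pos h, if_pos h]
    · rw [if_neg h, if_neg h]
  | succ t ih =>
    simp only [dgLaw, lazyLaw]
    refine sum_congr rfl fun z _ => ?_
    rw [ih z]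

/-- Total variation from a Poincare inequality. -/
theorem mix_final {r : Fin m → ℕ} {c : Fin n → ℕ} (hm : 1 ≤ m) (hn : 1 ≤ n) {M : ℕ} (hM : 2 ≤ M)
    (hcell : ∀ i j, min (r i) (c j) + 1 ≤ M) (Q : ℝ) (hQ : 0 < Q)
    (hP : ∀ g : Tb m (Fin n) → ℝ, tabVar r c g ≤ Q * tabDir r c g)
    {x : Tb m (Fin n)} (hx : x ∈ Tab r c) (t : ℕ) {ε : ℝ} (hε : 0 < ε)
    (ht : 4 * (m : ℝ) ^ 2 * (n : ℝ) ^ 2 * Q *
      ((m : ℝ) * n * Real.log M + 2 * Real.log (1 / ε)) ≤ t) :
    tvUnif r c (dgLaw r c x t) ≤ ε := by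
  classical
  have hm' : (0 : ℝ) < m := by exact_mod_cast hm
  have hn' : (0 : ℝ) < n := by exact_mod_cast hn
  have hne : (Tab r c).Nonempty := ⟨x, hx⟩
  have hcardpos : (0 : ℝ) < ((Tab r c).card : ℝ) := by exact_mod_cast card_pos.2 hne
  have hMpos : (0 : ℝ) < M := by
    have : 0 < M := by omega
    exact_mod_cast this
  have hlog : Real.log ((Tab r c).card : ℝ) ≤ (m : ℝ) * n * Real.log M := by
    have h1 : ((Tab r c).card : ℝ) ≤ (M : ℝ) ^ (m * n) := by exact_mod_cast mix_card_Tab_le hcell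
    calc Real.log ((Tab r c).card : ℝ) ≤ Real.log ((M : ℝ) ^ (m * n)) :=
          Real.log_le_log hcardpos h1
      _ = _ := by rw [Real.log_pow]; push_cast; ring
  have hQ' : 0 < 4 * (m : ℝ) ^ 2 * (n : ℝ) ^ 2 * Q := by positivity
  have key := @abstract_mix _ (Classical.decEq _) (Tab r c) dgKernel (dgS m n)
    (fun x _ y _ => by
      rw [mix_kernel_eq]
      by_cases h : y = x
      · rw [if_pos h, if_pos h]
      · rw [if_neg h, if_neg h])
    (fun x _ y _ => mix_S_nonneg x y)
    (fun x _ y _ => mix_S_symm x y) (fun x hx => mix_S_sum hm hn hx)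
    (4 * (m : ℝ) ^ 2 * (n : ℝ) ^ 2 * Q) hQ' ?_ x hx t ε hε ?_
  · unfold tvUnif
    refine le_of_eq_of_le ?_ key
    congr 1
    refine sum_congr rfl fun y _ => ?_
    rw [mix_law_eq]
  · intro g
    have h1 := hP g
    unfold tabVar tabDir at h1
    refine le_trans h1 (le_of_eq ?_)
    rw [sum_congr rfl fun x hx => mix_kernel_dir hx g, ← mul_sum]
    field_simp
    ring
  · refine le_trans ?_ ht
    refine mul_le_mul_of_nonneg_left ?_ hQ'.le
    linarith

end

end Vale.Agent.Lib.P328Q
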