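import Vale.Agent.Lib.P328.Defs

/-!
The Diaconis-Gangolli chain on contingency tables: pick a uniform quadruple `(i, k, j, l)` and add
the pattern `+1` at `(i, j)`, `(k, l)` and `-1` at `(i, l)`, `(k, j)` when this keeps the table nonnegative.
The chain is made lazy: with probability one half it stays.
-/

namespace Vale.Agent.Lib.P328Q

open Finset
open Vale.Agent.Lib.P328

variable {m n : ℕ}

/-- The `2 x 2` move `(i, k, j, l)` applies to `X`. -/
def dgValid (i k : Fin m) (j l : Fin n) (X : Tb m (Fin n)) : Prop :=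
  i ≠ k ∧ j ≠ l ∧ 1 ≤ X i l ∧ 1 ≤ X k j

/-- The `2 x 2` move: `+1` at `(i, j)`, `(k, l)` and `-1` at `(i, l)`, `(k, j)`. -/
def dgMove (i k : Fin m) (j l : Fin n) (X : Tb m (Fin n)) : Tb m (Fin n) := fun a b =>
  X a b + (if (a = i ∧ b = j) ∨ (a = k ∧ b = l) then 1 else 0) -
    (if (a = i ∧ b = l) ∨ (a = k ∧ b = j) then 1 else 0)

open Classical in
/-- One step for a fixed quadruple: apply the move if it applies, otherwise stay. -/
noncomputable def dgStep (i k : Fin m) (j l : Fin n) (X : Tb m (Fin n)) : Tb m (Fin n) :=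
  if dgValid i k j l X then dgMove i k j l X else X

open Classical in
/-- The transition probability of the lazy Diaconis-Gangolli chain. -/
noncomputable def dgKernel (x y : Tb m (Fin n)) : ℝ :=
  1 / 2 * (if y = x then 1 else 0) +
    1 / 2 * (1 / ((m : ℝ) ^ 2 * (n : ℝ) ^ 2)) *
      ∑ i : Fin m, ∑ k : Fin m, ∑ j : Fin n, ∑ l : Fin n, if dgStep i k j l x = y then 1 else 0

open Classical in
/-- The law at time `t` of the lazy Diaconis-Gangolli chain started at `x`. -/
noncomputable def dgLaw (r : Fin m → ℕ) (c : Fin n → ℕ) (x : Tb m (Fin n)) :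
    ℕ → Tb m (Fin n) → ℝ
  | 0, y => if y = x then 1 else 0
  | t + 1, y => ∑ z ∈ Tab r c, dgLaw r c x t z * dgKernel z y

/-- The variance of `g` under the uniform law on the tables. -/
noncomputable def tabVar (r : Fin m → ℕ) (c : Fin n → ℕ) (g : Tb m (Fin n) → ℝ) : ℝ :=
  (∑ x ∈ Tab r c, g x ^ 2) / ((Tab r c).card : ℝ) -
    ((∑ x ∈ Tab r c, g x) / ((Tab r c).card : ℝ)) ^ 2

open Classical in
/-- The mean over the uniform law on the tables of the sum over all quadruples which apply of the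
squared change of `g`. -/
noncomputable def tabDir (r : Fin m → ℕ) (c : Fin n → ℕ) (g : Tb m (Fin n) → ℝ) : ℝ :=
  (∑ x ∈ Tab r c, ∑ i : Fin m, ∑ k : Fin m, ∑ j : Fin n, ∑ l : Fin n,
    if dgValid i k j l x then (g x - g (dgMove i k j l x)) ^ 2 else 0) / ((Tab r c).card : ℝ)

/-- The explicit constant in the Poincare inequality. -/
noncomputable def poinQ (m n M : ℕ) : ℝ :=
  4 * (m : ℝ) * ((m : ℝ) * n + 1) * (M : ℝ) ^ 44400 * ((m : ℝ) * n) ^ (444 * Real.log M)

end Vale.Agent.Lib.P328Q
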