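import Vale.Agent.Lib.P328Q.TopLevel
import Vale.Agent.Lib.P328Q.ChainDefs

namespace Vale.Agent.Lib.P328Q
open Finset
open Vale.Agent.Lib.P328
open scoped Pointwise

noncomputable section

section Bridge
variable {m n : ℕ}

/-- The embedding of natural tables in integer matrices. -/
def brEmb (X : Tb m (Fin n)) : Mat m n := fun i j => (X i j : ℤ)

/-- The inverse of the embedding. -/
def brBack (Y : Mat m n) : Tb m (Fin n) := fun i j => (Y i j).toNat

theorem brBack_emb (X : Tb m (Fin n)) : brBack (brEmb X) = X := by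
  funext i j; simp [brBack, brEmb]

theorem brEmb_inj : Function.Injective (brEmb : Tb m (Fin n) → Mat m n) := by
  intro X Y h
  rw [← brBack_emb X, ← brBack_emb Y, h]

/-- Integer margins of natural margins. -/
def brR (r : Fin m → ℕ) : Fin m → ℤ := fun i => (r i : ℤ)

/-- Integer margins of natural margins. -/
def brC (c : Fin n → ℕ) : Fin n → ℤ := fun j => (c j : ℤ)

theorem br_mem_Tab_iff (r : Fin m → ℕ) (c : Fin n → ℕ) (X : Tb m (Fin n)) :
    X ∈ Tab r c ↔ (∀ i, rowS X i = r i) ∧ ∀ j, colS X j = c j := by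
  unfold Tab
  simp only [mem_filter, Fintype.mem_piFinset, mem_range]
  constructor
  · exact fun h => h.2
  · intro h
    refine ⟨fun i j => ?_, h⟩
    have h1 : X i j ≤ ∑ j', X i j' :=
      Finset.single_le_sum (f := fun j' => X i j') (fun _ _ => Nat.zero_le _) (mem_univ j)
    have h2 : ∑ j', X i j' = r i := h.1 i
    omega

theorem br_image (r : Fin m → ℕ) (c : Fin n → ℕ) :
    Om (brR r) (brC c) = (Tab r c).image brEmb := by
  classical
  ext Y
  constructor
  · intro hY
    have h0 : ∀ i j, 0 ≤ Y i j := fun i j => top_nonneg_of_mem le_rfl hY i j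
    obtain ⟨hrY, hcY⟩ := top_margins_of_mem hY
    have hemb : brEmb (brBack Y) = Y := by
      funext i j
      simp [brBack, brEmb, Int.toNat_of_nonneg (h0 i j)]
    refine mem_image.mpr ⟨brBack Y, ?_, hemb⟩
    rw [br_mem_Tab_iff]
    constructor
    · intro i
      have := congrFun hrY i
      rw [← hemb] at this
      simp only [rowSum, brEmb, brR] at this
      unfold rowS
      exact_mod_cast this
    · intro j
      have := congrFun hcY j
      rw [← hemb] at this
      simp only [colSum, brEmb, brC] at this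
      unfold colS
      exact_mod_cast this
  · intro hY
    obtain ⟨X, hX, rfl⟩ := mem_image.mp hY
    rw [br_mem_Tab_iff] at hX
    refine top_mem_Om (fun i j => by simp [brEmb]) ?_ ?_
    · funext i
      have := hX.1 i
      unfold rowS at this
      simp only [rowSum, brEmb, brR]
      exact_mod_cast this
    · funext j
      have := hX.2 j
      unfold colS at this
      simp only [colSum, brEmb, brC]
      exact_mod_cast this

theorem br_card (r : Fin m → ℕ) (c : Fin n → ℕ) :
    (Om (brR r) (brC c)).card = (Tab r c).card := by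
  rw [br_image, card_image_of_injective _ brEmb_inj]

/-- The embedding of the move. -/
theorem br_move (i k : Fin m) (j l : Fin n) (X : Tb m (Fin n)) (h : dgValid i k j l X) :
    brEmb X - eu i l + eu i j + eu k l - eu k j = brEmb (dgMove i k j l X) := by
  obtain ⟨hik, hjl, h1, h2⟩ := h
  funext a b
  simp only [Pi.add_apply, Pi.sub_apply, eu, brEmb, dgMove]
  by_cases ha1 : a = i
  · subst ha1
    have hak : a ≠ k := hik
    by_cases hb1 : b = j
    · subst hb1
      have hbl : b ≠ l := hjl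
      simp [hak, hbl]
    · by_cases hb2 : b = l
      · subst hb2
        simp [hak, hb1]
        omega
      · simp [hak, hb1, hb2]
  · by_cases ha2 : a = k
    · subst ha2
      by_cases hb1 : b = j
      · subst hb1
        have hbl : b ≠ l := hjl
        simp [ha1, hbl]
        omega
      · by_cases hb2 : b = l
        · subst hb2
          simp [ha1, hb1]
        · simp [ha1, hb1, hb2]
    · simp [ha1, ha2]

open Classical in
theorem br_Dir (r : Fin m → ℕ) (c : Fin n → ℕ) (g : Tb m (Fin n) → ℝ) :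
    Dir (fun Y => g (brBack Y)) (brR r) (brC c) =
      ∑ x ∈ Tab r c, ∑ i : Fin m, ∑ k : Fin m, ∑ j : Fin n, ∑ l : Fin n,
        if dgValid i k j l x then (g x - g (dgMove i k j l x)) ^ 2 else 0 := by
  classical
  unfold Dir
  rw [br_image, Finset.sum_image (fun x _ y _ h => brEmb_inj h)]
  refine Finset.sum_congr rfl fun X _ => Finset.sum_congr rfl fun i _ =>
    Finset.sum_congr rfl fun k _ => ?_
  rw [Finset.sum_comm]
  refine Finset.sum_congr rfl fun j _ => Finset.sum_congr rfl fun l _ => ?_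
  by_cases hv : dgValid i k j l X
  · have hm := br_move i k j l X hv
    obtain ⟨hik, hjl, h1, h2⟩ := hv
    have hc : k ≠ i ∧ j ≠ l ∧ (1 : ℤ) ≤ brEmb X i l ∧ (1 : ℤ) ≤ brEmb X k j := by
      refine ⟨hik.symm, hjl, ?_, ?_⟩
      · simp only [brEmb]; exact_mod_cast h1
      · simp only [brEmb]; exact_mod_cast h2
    have hv' : dgValid i k j l X := ⟨hik, hjl, h1, h2⟩
    rw [if_pos hc, if_pos hv']
    show (g (brBack (brEmb X)) - g (brBack (brEmb X - eu i l + eu i j + eu k l - eu k j))) ^ 2 = _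
    rw [hm, brBack_emb, brBack_emb]
  · have hc : ¬ (k ≠ i ∧ j ≠ l ∧ (1 : ℤ) ≤ brEmb X i l ∧ (1 : ℤ) ≤ brEmb X k j) := by
      rintro ⟨h1, h2, h3, h4⟩
      refine hv ⟨h1.symm, h2, ?_, ?_⟩
      · simp only [brEmb] at h3; exact_mod_cast h3
      · simp only [brEmb] at h4; exact_mod_cast h4
    rw [if_neg hc, if_neg hv]

theorem br_wv (r : Fin m → ℕ) (c : Fin n → ℕ) (g : Tb m (Fin n) → ℝ) :
    wv (Om (brR r) (brC c)) (fun Y => g (brBack Y)) =
      ∑ x ∈ Tab r c, ∑ y ∈ Tab r c, (g x - g y) ^ 2 := by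
  classical
  unfold wv
  rw [br_image, Finset.sum_image (fun x _ y _ h => brEmb_inj h)]
  refine Finset.sum_congr rfl fun x _ => ?_
  rw [Finset.sum_image (fun x _ y _ h => brEmb_inj h)]
  refine Finset.sum_congr rfl fun y _ => ?_
  show (g (brBack (brEmb x)) - g (brBack (brEmb y))) ^ 2 = _
  rw [brBack_emb, brBack_emb]

/-- Variance from the double sum. -/
theorem br_double_sum {α : Type*} (F : Finset α) (g : α → ℝ) :
    ∑ x ∈ F, ∑ y ∈ F, (g x - g y) ^ 2 =
      2 * (F.card : ℝ) * ∑ x ∈ F, g x ^ 2 - 2 * (∑ x ∈ F, g x) ^ 2 := by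
  have h : ∀ x ∈ F, ∑ y ∈ F, (g x - g y) ^ 2 =
      (F.card : ℝ) * g x ^ 2 - 2 * g x * ∑ y ∈ F, g y + ∑ y ∈ F, g y ^ 2 := by
    intro x _
    have : ∀ y ∈ F, (g x - g y) ^ 2 = g x ^ 2 - 2 * g x * g y + g y ^ 2 := fun y _ => by ring
    rw [Finset.sum_congr rfl this, Finset.sum_add_distrib, Finset.sum_sub_distrib,
      Finset.sum_const, nsmul_eq_mul, Finset.mul_sum]
  rw [Finset.sum_congr rfl h, Finset.sum_add_distrib, Finset.sum_sub_distrib, Finset.sum_const,
    nsmul_eq_mul, ← Finset.mul_sum, ← Finset.sum_mul, ← Finset.mul_sum]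
  ring

/-- The Poincare inequality on natural number tables. -/
theorem poincare_nat (r : Fin m → ℕ) (c : Fin n → ℕ) (hm : 1 ≤ m) (hn : 1 ≤ n) (M : ℕ) (hM : 2 ≤ M)
    (hcell : ∀ i j, min (r i) (c j) + 1 ≤ M) (g : Tb m (Fin n) → ℝ) :
    tabVar r c g ≤ poinQ m n M * tabDir r c g := by
  classical
  have hγ0 := gam_pos M hM
  have hγ1 := gam_le_one M hM
  have hcellZ : ∀ i j, min (brR r i) (brC c j) + 1 ≤ (M : ℤ) := by
    intro i j
    have := hcell i j
    simp only [brR, brC]
    exact_mod_cast this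
  have hr0 : (0 : Fin m → ℤ) ≤ brR r := fun i => by simp [brR]
  have hc0 : (0 : Fin n → ℤ) ≤ brC c := fun j => by simp [brC]
  have hS := star_phi M hM (brR r) (brC c) hcellZ
  have hP := poincare_Om (phi (gam M)) (phi_nonneg _ hγ0)
    (fun f f' h => phi_mono _ hγ0 hγ1 h) (phi_two _ hγ0 hγ1) (brR r) (brC c) hr0 hc0 hS
    (fun Y => g (brBack Y))
  rw [br_wv, br_Dir, br_card, br_double_sum] at hP
  set N : ℝ := ((Tab r c).card : ℝ) with hN
  set S1 := ∑ x ∈ Tab r c, g x ^ 2 with hS1
  set S2 := ∑ x ∈ Tab r c, g x with hS2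
  set D := ∑ x ∈ Tab r c, ∑ i : Fin m, ∑ k : Fin m, ∑ j : Fin n, ∑ l : Fin n,
        if dgValid i k j l x then (g x - g (dgMove i k j l x)) ^ 2 else 0 with hD
  have hD0 : 0 ≤ D := by
    refine Finset.sum_nonneg fun x _ => Finset.sum_nonneg fun i _ => Finset.sum_nonneg fun k _ =>
      Finset.sum_nonneg fun j _ => Finset.sum_nonneg fun l _ => ?_
    split_ifs
    · positivity
    · exact le_rfl
  have hvar : tabVar r c g = S1 / N - (S2 / N) ^ 2 := rfl
  have hdir : tabDir r c g = D / N := rfl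
  rw [hvar, hdir]
  rcases Nat.eq_zero_or_pos (Tab r c).card with h0 | hpos
  · have hN0 : N = 0 := by rw [hN, h0]; simp
    rw [hN0]
    simp
  · have hNpos : 0 < N := by rw [hN]; exact_mod_cast hpos
    have hphi := phi_top M (Tab r c).card (m * n) hM (Nat.mul_pos hm hn) (by
      have := card_Om_le (brR r) (brC c) M hcellZ
      rwa [br_card] at this)
    have hm0 : (0 : ℝ) < m := by exact_mod_cast hm
    have hn0 : (0 : ℝ) < n := by exact_mod_cast hn
    set P := phi (gam M) (Tab r c).card with hPdef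
    have hPle : 4 * (M : ℝ) ^ 44400 * (((m * n : ℕ) : ℝ)) ^ (444 * Real.log M) ≥ P := hphi
    push_cast at hPle
    have hQ : (m : ℝ) * ((m : ℝ) * n + 1) * P ≤ poinQ m n M := by
      unfold poinQ
      have hc : 0 ≤ (m : ℝ) * ((m : ℝ) * n + 1) := by positivity
      calc (m : ℝ) * ((m : ℝ) * n + 1) * P
          ≤ (m : ℝ) * ((m : ℝ) * n + 1) *
            (4 * (M : ℝ) ^ 44400 * ((m : ℝ) * n) ^ (444 * Real.log M)) :=
            mul_le_mul_of_nonneg_left hPle hc
        _ = _ := by ring
    have hkey : S1 / N - (S2 / N) ^ 2 = (2 * N * S1 - 2 * S2 ^ 2) / (2 * N ^ 2) := by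
      field_simp
    rw [hkey, div_le_iff₀ (by positivity)]
    have h2 : 2 * N * S1 - 2 * S2 ^ 2 ≤ 2 * (m : ℝ) * ((m : ℝ) * n + 1) * P * N * D := hP
    have h3 : 2 * (m : ℝ) * ((m : ℝ) * n + 1) * P * N * D ≤ poinQ m n M * (D / N) * (2 * N ^ 2) := by
      have h4 : poinQ m n M * (D / N) * (2 * N ^ 2) = poinQ m n M * (2 * N * D) := by
        field_simp
      rw [h4]
      have h5 : 0 ≤ 2 * N * D := by positivity
      calc 2 * (m : ℝ) * ((m : ℝ) * n + 1) * P * N * D
          = ((m : ℝ) * ((m : ℝ) * n + 1) * P) * (2 * N * D) := by ring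
        _ ≤ _ := mul_le_mul_of_nonneg_right hQ h5
    linarith

end Bridge
end
end Vale.Agent.Lib.P328Q
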