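import Vale.Agent.Lib.P328Q.Recursion

namespace Vale.Agent.Lib.P328Q
open Finset
open scoped Pointwise

noncomputable section

section PartT
variable {m n : ℕ}

/-- A nonnegative matrix with margins `r`, `c` is a table. -/
theorem top_mem_Om {r : Fin m → ℤ} {c : Fin n → ℤ} {X : Mat m n} (h0 : ∀ i j, 0 ≤ X i j)
    (hr : rowSum X = r) (hc : colSum X = c) : X ∈ Om r c := by
  unfold Om slc box
  simp only [mem_filter, Fintype.mem_piFinset, mem_Icc]
  refine ⟨fun i j => ⟨h0 i j, ?_⟩, hr, hc⟩
  have h1 : X i j ≤ ∑ j', X i j' :=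
    Finset.single_le_sum (f := fun j' => X i j') (fun j' _ => h0 i j') (mem_univ j)
  have h2 : ∑ j', X i j' = r i := by rw [← hr]; rfl
  have h3 : r i ≤ |r i| := le_abs_self _
  have h4 : |r i| ≤ ∑ i', |r i'| :=
    Finset.single_le_sum (f := fun i' => |r i'|) (fun i' _ => abs_nonneg _) (mem_univ i)
  show X i j ≤ ∑ i', |r i'|
  linarith

theorem top_nonneg_of_mem {lo hi : Mat m n} {r : Fin m → ℤ} {c : Fin n → ℤ} {X : Mat m n}
    (hlo : 0 ≤ lo) (hX : X ∈ slc lo hi r c) (i : Fin m) (j : Fin n) : 0 ≤ X i j := by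
  unfold slc box at hX
  simp only [mem_filter, Fintype.mem_piFinset, mem_Icc] at hX
  exact le_trans (hlo i j) (hX.1 i j).1

theorem top_margins_of_mem {lo hi : Mat m n} {r : Fin m → ℤ} {c : Fin n → ℤ} {X : Mat m n}
    (hX : X ∈ slc lo hi r c) : rowSum X = r ∧ colSum X = c := by
  unfold slc at hX
  exact (mem_filter.mp hX).2

theorem top_rowSum_add (X Y : Mat m n) : rowSum (X + Y) = rowSum X + rowSum Y := by
  funext i; simp [rowSum, Finset.sum_add_distrib]

theorem top_colSum_add (X Y : Mat m n) : colSum (X + Y) = colSum X + colSum Y := by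
  funext j; simp [colSum, Finset.sum_add_distrib]

theorem top_rowSum_sub (X Y : Mat m n) : rowSum (X - Y) = rowSum X - rowSum Y := by
  funext i; simp [rowSum, Finset.sum_sub_distrib]

theorem top_colSum_sub (X Y : Mat m n) : colSum (X - Y) = colSum X - colSum Y := by
  funext j; simp [colSum, Finset.sum_sub_distrib]

theorem top_rowSum_eu (a : Fin m) (b : Fin n) : rowSum (eu a b) = Pi.single a 1 := by
  funext i
  by_cases h : i = a
  · subst h; simp [rowSum, eu, Pi.single_apply]
  · simp [rowSum, eu, Pi.single_apply, h]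

theorem top_colSum_eu (a : Fin m) (b : Fin n) : colSum (eu a b) = Pi.single b 1 := by
  funext j
  by_cases h : j = b
  · subst h; simp [colSum, eu, Pi.single_apply]
  · simp [colSum, eu, Pi.single_apply, h]

/-- Two cell repair. -/
theorem card_nearP_big_le (r : Fin m → ℤ) (c : Fin n → ℤ) (hr : 0 ≤ r) (hc : 0 ≤ c) (a : Fin m) (b : Fin n) :
    (nearP 0 (bigHi r) r c a b).card ≤ (m * n + 1) * (Om r c).card := by
  classical
  let R : Mat m n × Option (Fin m × Fin n) → Mat m n := fun p =>
    match p.2 with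
    | none => p.1 + eu a b
    | some q => p.1 + eu a q.2 + eu q.1 b - eu q.1 q.2
  have hsub : nearP 0 (bigHi r) r c a b ⊆
      ((Om r c) ×ˢ (Finset.univ : Finset (Option (Fin m × Fin n)))).image R := by
    intro E hE
    have h0 : ∀ i j, 0 ≤ E i j := fun i j => top_nonneg_of_mem le_rfl hE i j
    obtain ⟨hrE, hcE⟩ := top_margins_of_mem hE
    by_cases hab : 1 ≤ E a b
    · refine mem_image.mpr ⟨(E - eu a b, none), ?_, by simp [R]⟩
      refine mem_product.mpr ⟨top_mem_Om ?_ ?_ ?_, mem_univ _⟩
      · intro i j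
        by_cases hij : i = a ∧ j = b
        · obtain ⟨rfl, rfl⟩ := hij; simp [eu]; linarith
        · simp [eu, hij, h0 i j]
      · rw [top_rowSum_sub, hrE, top_rowSum_eu]; simp
      · rw [top_colSum_sub, hcE, top_colSum_eu]; simp
    · have hab0 : E a b = 0 := by have := h0 a b; omega
      -- a cell in row a
      have hra : 1 ≤ ∑ j, E a j := by
        have : ∑ j, E a j = r a + 1 := by
          have := congrFun hrE a
          simpa [rowSum] using this
        have h1 : 0 ≤ r a := hr a
        omega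
      have hcb : 1 ≤ ∑ i, E i b := by
        have : ∑ i, E i b = c b + 1 := by
          have := congrFun hcE b
          simpa [colSum] using this
        have h1 : 0 ≤ c b := hc b
        omega
      obtain ⟨j, hj⟩ : ∃ j, 1 ≤ E a j := by
        by_contra hcon
        push Not at hcon
        have : ∑ j, E a j ≤ 0 := Finset.sum_nonpos fun j _ => by have := hcon j; omega
        omega
      obtain ⟨i, hi⟩ : ∃ i, 1 ≤ E i b := by
        by_contra hcon
        push Not at hcon
        have : ∑ i, E i b ≤ 0 := Finset.sum_nonpos fun i _ => by have := hcon i; omega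
        omega
      have hjb : j ≠ b := by rintro rfl; omega
      have hia : i ≠ a := by rintro rfl; omega
      refine mem_image.mpr ⟨(E - eu a j - eu i b + eu i j, some (i, j)), ?_, ?_⟩
      · refine mem_product.mpr ⟨top_mem_Om ?_ ?_ ?_, mem_univ _⟩
        · intro x y
          have hx := h0 x y
          simp only [Pi.add_apply, Pi.sub_apply, eu]
          by_cases h1 : x = a ∧ y = j
          · obtain ⟨rfl, rfl⟩ := h1
            have h2 : ¬ (x = i ∧ y = b) := fun h => hia h.1.symm
            have h3 : ¬ (x = i ∧ y = y) := fun h => hia h.1.symm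
            simp [h2, hia.symm]
            omega
          · by_cases h2 : x = i ∧ y = b
            · obtain ⟨rfl, rfl⟩ := h2
              have h4 : ¬ (y = j) := fun h => hjb h.symm
              simp [h1, h4]
              omega
            · simp only [h1, h2, if_false]
              split_ifs <;> omega
        · rw [top_rowSum_add, top_rowSum_sub, top_rowSum_sub, hrE, top_rowSum_eu, top_rowSum_eu,
            top_rowSum_eu]
          funext x
          simp [Pi.single_apply]
        · rw [top_colSum_add, top_colSum_sub, top_colSum_sub, hcE, top_colSum_eu, top_colSum_eu,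
            top_colSum_eu]
          funext y
          simp [Pi.single_apply]
          split_ifs <;> omega
      · simp only [R]
        abel
  calc (nearP 0 (bigHi r) r c a b).card
      ≤ (((Om r c) ×ˢ (Finset.univ : Finset (Option (Fin m × Fin n)))).image R).card :=
        card_le_card hsub
    _ ≤ ((Om r c) ×ˢ (Finset.univ : Finset (Option (Fin m × Fin n)))).card := card_image_le
    _ = (m * n + 1) * (Om r c).card := by
        rw [card_product, Finset.card_univ, Fintype.card_option, Fintype.card_prod, Fintype.card_fin,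
          Fintype.card_fin, mul_comm]

theorem top_kap_nonneg (g : Mat m n → ℝ) (a : Fin m) (b : Fin n) (V : Mat m n) : 0 ≤ kap g a b V := by
  unfold kap
  refine Finset.sum_nonneg fun i _ => Finset.sum_nonneg fun b' _ => ?_
  split_ifs
  · positivity
  · exact le_rfl

theorem top_DD_nonneg (g : Mat m n → ℝ) (lo hi : Mat m n) (r : Fin m → ℤ) (c : Fin n → ℤ) :
    0 ≤ DD g lo hi r c := by
  unfold DD
  exact Finset.sum_nonneg fun a _ => Finset.sum_nonneg fun b _ => Finset.sum_nonneg fun V _ =>
    top_kap_nonneg g a b V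

/-- Near tables inject into tables. -/
theorem sum_kap_le_Dir (g : Mat m n → ℝ) (r : Fin m → ℤ) (c : Fin n → ℤ) :
    DD g 0 (bigHi r) r c ≤ Dir g r c := by
  classical
  unfold DD Dir
  -- reorder the right side
  have hR : (∑ Y ∈ Om r c, ∑ a, ∑ i, ∑ b, ∑ b',
      if i ≠ a ∧ b' ≠ b ∧ 1 ≤ Y a b ∧ 1 ≤ Y i b' then
        (g Y - g (Y - eu a b + eu a b' + eu i b - eu i b')) ^ 2 else 0) =
      ∑ a, ∑ b, ∑ Y ∈ Om r c, ∑ i, ∑ b',
      if i ≠ a ∧ b' ≠ b ∧ 1 ≤ Y a b ∧ 1 ≤ Y i b' then
        (g Y - g (Y - eu a b + eu a b' + eu i b - eu i b')) ^ 2 else 0 := by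
    rw [Finset.sum_comm]
    refine Finset.sum_congr rfl fun a _ => ?_
    calc _ = ∑ Y ∈ Om r c, ∑ b, ∑ i, ∑ b',
          if i ≠ a ∧ b' ≠ b ∧ 1 ≤ Y a b ∧ 1 ≤ Y i b' then
            (g Y - g (Y - eu a b + eu a b' + eu i b - eu i b')) ^ 2 else 0 :=
          Finset.sum_congr rfl fun Y _ => Finset.sum_comm
      _ = _ := Finset.sum_comm
  rw [hR]
  refine Finset.sum_le_sum fun a _ => Finset.sum_le_sum fun b _ => ?_
  -- the map V -> V + eu a b
  set H : Mat m n → ℝ := fun Y => ∑ i, ∑ b',
      if i ≠ a ∧ b' ≠ b ∧ 1 ≤ Y a b ∧ 1 ≤ Y i b' then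
        (g Y - g (Y - eu a b + eu a b' + eu i b - eu i b')) ^ 2 else 0 with hH
  have hHnn : ∀ Y, 0 ≤ H Y := fun Y =>
    Finset.sum_nonneg fun i _ => Finset.sum_nonneg fun b' _ => by
      split_ifs
      · positivity
      · exact le_rfl
  have hmaps : ∀ V ∈ nearM 0 (bigHi r) r c a b, V + eu a b ∈ Om r c := by
    intro V hV
    have h0 : ∀ i j, 0 ≤ V i j := fun i j => top_nonneg_of_mem le_rfl hV i j
    obtain ⟨hrV, hcV⟩ := top_margins_of_mem hV
    refine top_mem_Om ?_ ?_ ?_
    · intro i j
      have := h0 i j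
      simp only [Pi.add_apply, eu]
      split_ifs <;> omega
    · rw [top_rowSum_add, hrV, top_rowSum_eu]; simp
    · rw [top_colSum_add, hcV, top_colSum_eu]; simp
  have hkap : ∀ V ∈ nearM 0 (bigHi r) r c a b, kap g a b V = H (V + eu a b) := by
    intro V hV
    have h0 : ∀ i j, 0 ≤ V i j := fun i j => top_nonneg_of_mem le_rfl hV i j
    unfold kap
    simp only [hH]
    refine Finset.sum_congr rfl fun i _ => Finset.sum_congr rfl fun b' _ => ?_
    by_cases hia : i ≠ a
    · by_cases hb : b' ≠ b
      · have h1 : (1 : ℤ) ≤ (V + eu a b) a b := by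
          have := h0 a b
          simp [eu]; omega
        have h2 : (V + eu a b) i b' = V i b' := by
          simp [eu, hia]
        have h3 : V + eu a b - eu a b + eu a b' + eu i b - eu i b' =
            V + eu a b' + eu i b - eu i b' := by abel
        simp only [h3, h2, hia, hb, h1, ne_eq, not_false_eq_true, true_and]
      · simp [hb]
    · simp [hia]
  calc ∑ V ∈ nearM 0 (bigHi r) r c a b, kap g a b V
      = ∑ V ∈ nearM 0 (bigHi r) r c a b, H (V + eu a b) := Finset.sum_congr rfl hkap
    _ = ∑ Y ∈ (nearM 0 (bigHi r) r c a b).image (fun V => V + eu a b), H Y := by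
        rw [Finset.sum_image]
        intro x _ y _ h
        exact add_right_cancel h
    _ ≤ ∑ Y ∈ Om r c, H Y := by
        refine Finset.sum_le_sum_of_subset_of_nonneg ?_ (fun Y _ _ => hHnn Y)
        intro Y hY
        obtain ⟨V, hV, rfl⟩ := mem_image.mp hY
        exact hmaps V hV

/-- The number of tables. -/
theorem card_Om_le (r : Fin m → ℤ) (c : Fin n → ℤ) (M : ℕ)
    (hcell : ∀ i j, min (r i) (c j) + 1 ≤ (M : ℤ)) : (Om r c).card ≤ M ^ (m * n) := by
  classical
  have hsub : Om r c ⊆ Fintype.piFinset fun i : Fin m => Fintype.piFinset fun j : Fin n =>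
      Finset.Icc (0 : ℤ) (min (r i) (c j)) := by
    intro X hX
    simp only [Fintype.mem_piFinset, mem_Icc]
    intro i j
    exact entry_bound le_rfl hX i j
  calc (Om r c).card ≤ _ := card_le_card hsub
    _ = ∏ i : Fin m, ∏ j : Fin n, (Finset.Icc (0 : ℤ) (min (r i) (c j))).card := by
        rw [Fintype.card_piFinset]
        refine Finset.prod_congr rfl fun i _ => ?_
        rw [Fintype.card_piFinset]
    _ ≤ ∏ _i : Fin m, ∏ _j : Fin n, M := by
        refine Finset.prod_le_prod' fun i _ => Finset.prod_le_prod' fun j _ => ?_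
        rw [Int.card_Icc]
        have := hcell i j
        omega
    _ = M ^ (m * n) := by
        simp only [Finset.prod_const, Finset.card_univ, Fintype.card_fin]
        rw [← pow_mul, mul_comm]

/-- The closed form of the potential at the top. -/
theorem phi_top (M f m' : ℕ) (hM : 2 ≤ M) (hm' : 1 ≤ m') (hf : f ≤ M ^ m') :
    phi (gam M) f ≤ 4 * (M : ℝ) ^ 44400 * (m' : ℝ) ^ (444 * Real.log M) := by
  have hM1 : (1 : ℝ) < M := by exact_mod_cast (by omega : 1 < M)
  have hlogM : 0 < Real.log M := Real.log_pos hM1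
  have hM0 : (0 : ℝ) < M := by linarith
  have hm1 : (1 : ℝ) ≤ m' := by exact_mod_cast hm'
  have hm0 : (0 : ℝ) < m' := by linarith
  have h4a : Real.log 4 = 2 * Real.log 2 := by
    rw [show (4 : ℝ) = 2 ^ 2 by norm_num, Real.log_pow]; norm_num
  have h4up : Real.log 4 < 1.3863 := by
    have := Real.log_two_lt_d9; rw [h4a]; linarith
  have h4lo : 1.38 < Real.log 4 := by
    have := Real.log_two_gt_d9; rw [h4a]; linarith
  have hγ : 0 < gam M := gam_pos M hM
  have hγ1 : gam M ≤ 1 := gam_le_one M hM
  have hL0 : L0 (gam M) = 320 * Real.log 4 * Real.log M := by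
    unfold L0 gam
    field_simp
    ring
  have h1 : Real.log f ≤ (m' : ℝ) * L0 (gam M) := by
    rw [hL0]
    have hlf : Real.log f ≤ (m' : ℝ) * Real.log M := by
      rcases Nat.eq_zero_or_pos f with rfl | hpos
      · simp; positivity
      · have hf' : (f : ℝ) ≤ (M : ℝ) ^ m' := by exact_mod_cast hf
        have hf0 : (0 : ℝ) < f := by exact_mod_cast hpos
        calc Real.log f ≤ Real.log ((M : ℝ) ^ m') := Real.log_le_log hf0 hf'
          _ = (m' : ℝ) * Real.log M := by rw [Real.log_pow]
    have : (m' : ℝ) * Real.log M ≤ (m' : ℝ) * (320 * Real.log 4 * Real.log M) := by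
      refine mul_le_mul_of_nonneg_left ?_ hm0.le
      nlinarith
    linarith
  have h2 := phi_le (gam M) hγ hγ1 f (m' : ℝ) hm1 h1
  refine h2.trans ?_
  have h3 : Real.exp (100 * L0 (gam M)) ≤ (M : ℝ) ^ 44400 := by
    rw [hL0]
    have : (M : ℝ) ^ 44400 = Real.exp (44400 * Real.log M) := by
      rw [mul_comm, Real.exp_mul, Real.exp_log hM0]
      norm_cast
    rw [this]
    refine Real.exp_le_exp.mpr ?_
    nlinarith
  have h5 : (4 : ℝ) ^ (4 / gam M * Real.log m') ≤ (m' : ℝ) ^ (444 * Real.log M) := by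
    have hlogm : 0 ≤ Real.log m' := Real.log_nonneg hm1
    have h6 : 4 / gam M = 320 * Real.log M := by
      unfold gam
      field_simp
      ring
    rw [h6, Real.rpow_def_of_pos (by norm_num : (0 : ℝ) < 4), Real.rpow_def_of_pos hm0]
    refine Real.exp_le_exp.mpr ?_
    have h7 : 0 ≤ Real.log M * Real.log m' := by positivity
    nlinarith
  have hpos4 : 0 ≤ (4 : ℝ) ^ (4 / gam M * Real.log m') := by positivity
  calc 4 * Real.exp (100 * L0 (gam M)) * (4 : ℝ) ^ (4 / gam M * Real.log m')
      ≤ 4 * (M : ℝ) ^ 44400 * (4 : ℝ) ^ (4 / gam M * Real.log m') := by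
        gcongr
    _ ≤ 4 * (M : ℝ) ^ 44400 * (m' : ℝ) ^ (444 * Real.log M) := by
        gcongr

/-- The Poincare inequality on all tables, with a potential. -/
theorem poincare_Om (φ : ℕ → ℝ) (hpos : ∀ f, 0 ≤ φ f) (hmono : Monotone φ) (h2 : 1 ≤ φ 2)
    (r : Fin m → ℤ) (c : Fin n → ℤ) (hr : 0 ≤ r) (hc : 0 ≤ c) (hS : Star φ r c) (g : Mat m n → ℝ) :
    wv (Om r c) g ≤
      2 * (m : ℝ) * ((m : ℝ) * n + 1) * φ (Om r c).card * ((Om r c).card : ℝ) * Dir g r c := by
  classical
  set F := Om r c with hF
  set lo : Mat m n := 0 with hlo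
  set hi : Mat m n := bigHi r with hhi
  have hFs : F = slc lo hi r c := rfl
  -- the fibre boxes
  have hterm : ∀ U ∈ F + F, wv (fib F U) g / ((fib F U).card : ℝ) ≤
      (m : ℝ) * φ F.card * DD g (loF lo hi U) (hiF lo hi U) r c := by
    intro U hU
    have hmarg : rowSum U = 2 • r ∧ colSum U = 2 • c := margins_of_mem_add hU
    have hfib : fib F U = slc (loF lo hi U) (hiF lo hi U) r c := fib_slc hmarg
    have hlo' : (0 : Mat m n) ≤ loF lo hi U := by
      intro i j
      exact le_max_left _ _
    have hcen : Central (loF lo hi U) (hiF lo hi U) r c := central_fib hmarg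
    have hP := poincare_central φ hpos h2 r c hS g (loF lo hi U) (hiF lo hi U) hlo' hcen
    rw [← hfib] at hP
    have hDD := top_DD_nonneg g (loF lo hi U) (hiF lo hi U) r c
    have hcard : (fib F U).card ≤ F.card := card_le_card (filter_subset _ _)
    have hφ : φ (fib F U).card ≤ φ F.card := hmono hcard
    have hm0 : (0 : ℝ) ≤ m := Nat.cast_nonneg m
    rcases Nat.eq_zero_or_pos (fib F U).card with h0 | hpos'
    · rw [h0]
      simp only [Nat.cast_zero, div_zero]
      have := hpos F.card
      positivity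
    · have hc0 : (0 : ℝ) < (fib F U).card := by exact_mod_cast hpos'
      rw [div_le_iff₀ hc0]
      calc wv (fib F U) g ≤ ((fib F U).card : ℝ) * ((m : ℝ) * φ (fib F U).card) *
            DD g (loF lo hi U) (hiF lo hi U) r c := hP
        _ ≤ ((fib F U).card : ℝ) * ((m : ℝ) * φ F.card) *
            DD g (loF lo hi U) (hiF lo hi U) r c := by gcongr
        _ = _ := by ring
  -- sum of the DD over all U
  have hsum : ∑ U ∈ F + F, DD g (loF lo hi U) (hiF lo hi U) r c ≤
      ((m * n + 1 : ℕ) : ℝ) * (F.card : ℝ) * Dir g r c := by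
    have hK : ∀ a b, ∑ U ∈ F + F, ∑ V ∈ nearM (loF lo hi U) (hiF lo hi U) r c a b, kap g a b V ≤
        ((m * n + 1 : ℕ) : ℝ) * (F.card : ℝ) * ∑ V ∈ nearM lo hi r c a b, kap g a b V := by
      intro a b
      have hU : ∀ U ∈ F + F, ∑ V ∈ nearM (loF lo hi U) (hiF lo hi U) r c a b, kap g a b V =
          ∑ V ∈ nearM lo hi r c a b, if U - V ∈ nearP lo hi r c a b then kap g a b V else 0 := by
        intro U hU
        have hmarg : rowSum U = 2 • r ∧ colSum U = 2 • c := margins_of_mem_add hU
        rw [← Finset.sum_filter]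
        refine Finset.sum_congr ?_ fun _ _ => rfl
        ext V
        rw [mem_nearM_fib hmarg, mem_filter]
      rw [Finset.sum_congr rfl hU, Finset.sum_comm, Finset.mul_sum]
      refine Finset.sum_le_sum fun V _ => ?_
      have hk := top_kap_nonneg g a b V
      -- count the U
      have hcount : ∑ U ∈ F + F, (if U - V ∈ nearP lo hi r c a b then kap g a b V else 0) ≤
          ((nearP lo hi r c a b).card : ℝ) * kap g a b V := by
        rw [← Finset.sum_filter, Finset.sum_const, nsmul_eq_mul]
        refine mul_le_mul_of_nonneg_right ?_ hk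
        have : ((F + F).filter fun U => U - V ∈ nearP lo hi r c a b).card ≤
            (nearP lo hi r c a b).card := by
          refine Finset.card_le_card_of_injOn (fun U => U - V) ?_ ?_
          · intro U hU
            exact (mem_filter.mp hU).2
          · intro x _ y _ h
            exact sub_left_injective h
        exact_mod_cast this
      refine hcount.trans ?_
      refine mul_le_mul_of_nonneg_right ?_ hk
      have := card_nearP_big_le r c hr hc a b
      have h' : ((nearP lo hi r c a b).card : ℝ) ≤ (((m * n + 1) * F.card : ℕ) : ℝ) := by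
        exact_mod_cast this
      push_cast at h' ⊢
      exact h'
    calc ∑ U ∈ F + F, DD g (loF lo hi U) (hiF lo hi U) r c
        = ∑ a, ∑ b, ∑ U ∈ F + F, ∑ V ∈ nearM (loF lo hi U) (hiF lo hi U) r c a b, kap g a b V := by
          unfold DD
          rw [Finset.sum_comm]
          refine Finset.sum_congr rfl fun a _ => ?_
          rw [Finset.sum_comm]
      _ ≤ ∑ a, ∑ b, ((m * n + 1 : ℕ) : ℝ) * (F.card : ℝ) *
            ∑ V ∈ nearM lo hi r c a b, kap g a b V :=
          Finset.sum_le_sum fun a _ => Finset.sum_le_sum fun b _ => hK a b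
      _ = ((m * n + 1 : ℕ) : ℝ) * (F.card : ℝ) * DD g lo hi r c := by
          unfold DD
          simp only [Finset.mul_sum]
      _ ≤ ((m * n + 1 : ℕ) : ℝ) * (F.card : ℝ) * Dir g r c := by
          have := sum_kap_le_Dir g r c
          have h0 : (0 : ℝ) ≤ ((m * n + 1 : ℕ) : ℝ) * (F.card : ℝ) := by positivity
          exact mul_le_mul_of_nonneg_left this h0
  have hm0 : (0 : ℝ) ≤ m := Nat.cast_nonneg m
  have hφ0 := hpos F.card
  calc wv F g ≤ 2 * ∑ U ∈ F + F, wv (fib F U) g / ((fib F U).card : ℝ) := wv_le_fib F g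
    _ ≤ 2 * ∑ U ∈ F + F, (m : ℝ) * φ F.card * DD g (loF lo hi U) (hiF lo hi U) r c := by
        gcongr with U hU
        exact hterm U hU
    _ = 2 * ((m : ℝ) * φ F.card * ∑ U ∈ F + F, DD g (loF lo hi U) (hiF lo hi U) r c) := by
        rw [Finset.mul_sum (a := (m : ℝ) * φ F.card)]
    _ ≤ 2 * ((m : ℝ) * φ F.card * (((m * n + 1 : ℕ) : ℝ) * (F.card : ℝ) * Dir g r c)) := by
        gcongr
    _ = _ := by push_cast; ring


end PartT
end
end Vale.Agent.Lib.P328Q
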