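import Vale.Agent.Lib.P328Q.Basic

/-!
Almost periods: a finite subset of a torsion-free abelian group has few vectors `u` along which it
almost agrees with its own translate.
-/

namespace Vale.Agent.Lib.P328Q

open Finset
open scoped Pointwise

section PartA

variable {G : Type*} [AddCommGroup G] [DecidableEq G]

/-- Overlaps are subadditive in the deficit. -/
theorem ap_ov_add (F : Finset G) (u u' : G) : ov F u + ov F u' ≤ ov F (u + u') + F.card := by
  classical
  set P := F.filter fun x => x + u ∈ F with hP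
  set Q := F.filter fun y => y + u' ∈ F with hQ
  set P' := P.image fun x => x + u with hP'
  have hcardP' : P'.card = ov F u := by
    rw [hP', Finset.card_image_of_injective _ (add_left_injective u)]
    rfl
  have hP'sub : P' ⊆ F := by
    intro y hy
    rw [hP', Finset.mem_image] at hy
    obtain ⟨x, hx, rfl⟩ := hy
    exact (Finset.mem_filter.mp hx).2
  have hQsub : Q ⊆ F := Finset.filter_subset _ _
  have hunion : (P' ∪ Q).card ≤ F.card := Finset.card_le_card (Finset.union_subset hP'sub hQsub)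
  have hinter : (P' ∩ Q).card ≤ ov F (u + u') := by
    have : (P' ∩ Q).image (fun y => y - u) ⊆ F.filter fun x => x + (u + u') ∈ F := by
      intro z hz
      rw [Finset.mem_image] at hz
      obtain ⟨y, hy, rfl⟩ := hz
      rw [Finset.mem_inter] at hy
      obtain ⟨hy1, hy2⟩ := hy
      rw [hP', Finset.mem_image] at hy1
      obtain ⟨x, hx, rfl⟩ := hy1
      have hxF := (Finset.mem_filter.mp hx).1
      have h2 := (Finset.mem_filter.mp hy2).2
      rw [Finset.mem_filter]
      constructor
      · simpa using hxF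
      · have : x + u - u + (u + u') = x + u + u' := by abel
        rw [this]; exact h2
    have hc := Finset.card_le_card this
    rw [Finset.card_image_of_injective _ (sub_left_injective (b := u))] at hc
    exact hc
  have hadd := Finset.card_union_add_card_inter P' Q
  have hQc : Q.card = ov F u' := rfl
  omega

/-- The sum of the overlaps over any set of vectors is at most `f ^ 2`. -/
theorem ap_sum_ov_le (F : Finset G) (W : Finset G) :
    ∑ w ∈ W, ov F w ≤ F.card ^ 2 := by
  classical
  have h1 : ∑ w ∈ W, ov F w = ((W ×ˢ F).filter fun p => p.2 + p.1 ∈ F).card := by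
    rw [Finset.card_filter, Finset.sum_product]
    refine Finset.sum_congr rfl fun w _ => ?_
    rw [ov, Finset.card_filter]
  rw [h1, sq, ← Finset.card_product]
  refine Finset.card_le_card_of_injOn (fun p => (p.2, p.2 + p.1)) ?_ ?_
  · intro p hp
    have hp' := Finset.mem_filter.mp hp
    have h2 := (Finset.mem_product.mp hp'.1).2
    simp only [Finset.coe_product, Set.mem_prod, Finset.mem_coe]
    exact ⟨h2, hp'.2⟩
  · intro p _ q _ h
    simp only [Prod.mk.injEq] at h
    obtain ⟨h1, h2⟩ := h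
    have : p.1 = q.1 := by
      rw [h1] at h2
      exact add_left_cancel h2
    exact Prod.ext this h1

variable [IsAddTorsionFree G]

/-- Iterated sumsets of `A` retain large overlap and grow linearly. -/
theorem ap_iter (F A : Finset G) (hA : A.Nonempty) (ε : ℝ)
    (hAov : ∀ u ∈ A, (1 - ε) * (F.card : ℝ) ≤ (ov F u : ℝ)) (k : ℕ) :
    ∃ W : Finset G, W.Nonempty ∧ (k + 1) * A.card ≤ W.card + k ∧
      ∀ w ∈ W, (1 - ((k : ℝ) + 1) * ε) * (F.card : ℝ) ≤ (ov F w : ℝ) := by
  induction k with
  | zero =>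
    refine ⟨A, hA, by omega, ?_⟩
    intro w hw
    have := hAov w hw
    simpa using this
  | succ k ih =>
    obtain ⟨W, hWne, hWc, hWov⟩ := ih
    refine ⟨W + A, hWne.add hA, ?_, ?_⟩
    · have hcd := cauchy_davenport_of_isAddTorsionFree hWne hA
      have hW1 : 1 ≤ W.card := hWne.card_pos
      have : (k + 1 + 1) * A.card = (k + 1) * A.card + A.card := by ring
      omega
    · intro z hz
      obtain ⟨w, hw, u, hu, rfl⟩ := Finset.mem_add.mp hz
      have h1 := hWov w hw
      have h2 := hAov u hu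
      have h3 : ((ov F w + ov F u : ℕ) : ℝ) ≤ ((ov F (w + u) + F.card : ℕ) : ℝ) := by
        exact_mod_cast ap_ov_add F w u
      push_cast at h3 ⊢
      nlinarith

end PartA

section Main
variable {G : Type*} [AddCommGroup G] [DecidableEq G] [IsAddTorsionFree G]

theorem almost_period (F : Finset G) (hne : F.Nonempty) (ε : ℝ) (h0 : 0 < ε) (h1 : ε ≤ 1 / 2)
    (s : Finset G) (hs : ∀ u ∈ s, u ≠ 0 ∧ (1 - ε) * (F.card : ℝ) ≤ (ov F u : ℝ)) :
    (s.card : ℝ) ≤ 8 * ε * (F.card : ℝ) := by
  classical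
  have hf : (0 : ℝ) < (F.card : ℝ) := by exact_mod_cast hne.card_pos
  set A := insert (0 : G) s with hAdef
  have hA0 : (0 : G) ∉ s := fun h => (hs 0 h).1 rfl
  have hAc : A.card = s.card + 1 := Finset.card_insert_of_notMem hA0
  have hov0 : ov F 0 = F.card := by simp [ov]
  have hAov : ∀ u ∈ A, (1 - ε) * (F.card : ℝ) ≤ (ov F u : ℝ) := by
    intro u hu
    rw [hAdef, Finset.mem_insert] at hu
    rcases hu with rfl | hu
    · rw [hov0]; nlinarith
    · exact (hs u hu).2
  have hAne : A.Nonempty := ⟨0, Finset.mem_insert_self _ _⟩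
  -- the number of summands
  set k : ℕ := ⌊1 / (2 * ε)⌋₊ with hk
  have hx1 : 1 ≤ 1 / (2 * ε) := by
    rw [le_div_iff₀ (by positivity)]; linarith
  have hk1 : 1 ≤ k := by
    rw [hk]; exact Nat.le_floor (by simpa using hx1)
  have hkle : (k : ℝ) ≤ 1 / (2 * ε) := Nat.floor_le (by positivity)
  have hklt : 1 / (2 * ε) < (k : ℝ) + 1 := Nat.lt_floor_add_one _
  have hkε : (k : ℝ) * ε ≤ 1 / 2 := by
    have := mul_le_mul_of_nonneg_right hkle h0.le
    have h2 : 1 / (2 * ε) * ε = 1 / 2 := by field_simp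
    linarith
  have hkinv : 1 ≤ 4 * ε * (k : ℝ) := by
    -- `1 / (2 ε) < k + 1 ≤ 2 k`
    have hk1' : (1 : ℝ) ≤ (k : ℝ) := by exact_mod_cast hk1
    have h2 : 1 / (2 * ε) < 2 * (k : ℝ) := by linarith
    rw [div_lt_iff₀ (by positivity)] at h2
    linarith
  obtain ⟨W, hWne, hWc, hWov⟩ := ap_iter F A hAne ε hAov (k - 1)
  have hk' : ((k - 1 : ℕ) : ℝ) + 1 = (k : ℝ) := by
    have : k - 1 + 1 = k := Nat.sub_add_cancel hk1
    exact_mod_cast this
  rw [hk'] at hWov
  -- each element of `W` has overlap at least `f / 2`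
  have hW2 : ∀ w ∈ W, (F.card : ℝ) / 2 ≤ (ov F w : ℝ) := by
    intro w hw
    have := hWov w hw
    nlinarith
  have hsum : (W.card : ℝ) * ((F.card : ℝ) / 2) ≤ (F.card : ℝ) ^ 2 := by
    have h3 : ∑ _w ∈ W, ((F.card : ℝ) / 2) ≤ ∑ w ∈ W, (ov F w : ℝ) := Finset.sum_le_sum hW2
    rw [Finset.sum_const, nsmul_eq_mul] at h3
    have h4 : ((∑ w ∈ W, ov F w : ℕ) : ℝ) ≤ ((F.card ^ 2 : ℕ) : ℝ) := by
      exact_mod_cast ap_sum_ov_le F W
    push_cast at h4
    linarith
  have hWle : (W.card : ℝ) ≤ 2 * (F.card : ℝ) := by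
    have h5 : (W.card : ℝ) * ((F.card : ℝ) / 2) ≤ (2 * (F.card : ℝ)) * ((F.card : ℝ) / 2) := by
      nlinarith
    exact le_of_mul_le_mul_right h5 (by positivity)
  -- `k |s| ≤ |W| - 1`
  have hcount : (k : ℝ) * (s.card : ℝ) ≤ (W.card : ℝ) := by
    have h6 : (k - 1 + 1) * A.card ≤ W.card + (k - 1) := hWc
    rw [Nat.sub_add_cancel hk1, hAc] at h6
    have h7 : k * s.card + k ≤ W.card + (k - 1) := by
      have : k * (s.card + 1) = k * s.card + k := by ring
      omega
    have h8 : k * s.card ≤ W.card := by omega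
    exact_mod_cast h8
  have hfinal : (s.card : ℝ) ≤ 4 * ε * (k : ℝ) * (s.card : ℝ) := by
    have : (0 : ℝ) ≤ (s.card : ℝ) := Nat.cast_nonneg _
    nlinarith
  have : 4 * ε * ((k : ℝ) * (s.card : ℝ)) ≤ 4 * ε * (2 * (F.card : ℝ)) :=
    mul_le_mul_of_nonneg_left (hcount.trans hWle) (by positivity)
  nlinarith

end Main

end Vale.Agent.Lib.P328Q
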