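import Mathlib

/-!
Integer matrices, central box slices and additive fibres: the common vocabulary of the
additive doubling proof of the Poincare inequality for contingency tables.
-/

namespace Vale.Agent.Lib.P328Q

open Finset
open scoped Pointwise

noncomputable section

/-! ### Abstract finite subsets of an abelian group -/

section Abstract

variable {G : Type*} [AddCommGroup G] [DecidableEq G]

/-- The additive fibre of `F` over `U`: the points `x` of `F` with `U - x` in `F` as well. -/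
def fib (F : Finset G) (U : G) : Finset G := F.filter fun x => U - x ∈ F

/-- The number of points `x` of `F` with `x + u` in `F`. -/
def ov (F : Finset G) (u : G) : ℕ := (F.filter fun x => x + u ∈ F).card

/-- Twice the squared size times the variance of `g` on `F`. -/
def wv (F : Finset G) (g : G → ℝ) : ℝ := ∑ x ∈ F, ∑ y ∈ F, (g x - g y) ^ 2

/-- The additive energy of `F`, in the form of a sum of squares of fibre sizes. -/
def en (F : Finset G) : ℕ := ∑ U ∈ F + F, (fib F U).card ^ 2

end Abstract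

/-! ### Integer matrices -/

/-- Integer matrices. -/
abbrev Mat (m n : ℕ) := Fin m → Fin n → ℤ

variable {m n : ℕ}

/-- Row sums. -/
def rowSum (X : Mat m n) : Fin m → ℤ := fun i => ∑ j, X i j

/-- Column sums. -/
def colSum (X : Mat m n) : Fin n → ℤ := fun j => ∑ i, X i j

/-- The matrix unit at `(a, b)`. -/
def eu (a : Fin m) (b : Fin n) : Mat m n := fun i j => if i = a ∧ j = b then 1 else 0

/-- All integer matrices between `lo` and `hi`. -/
def box (lo hi : Mat m n) : Finset (Mat m n) :=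
  Fintype.piFinset fun i => Fintype.piFinset fun j => Finset.Icc (lo i j) (hi i j)

/-- The matrices of the box `[lo, hi]` with row sums `r` and column sums `c`. -/
def slc (lo hi : Mat m n) (r : Fin m → ℤ) (c : Fin n → ℤ) : Finset (Mat m n) :=
  (box lo hi).filter fun X => rowSum X = r ∧ colSum X = c

/-- A box is central for the margins `(r, c)` when `lo + hi` has margins `(2 r, 2 c)`. -/
def Central (lo hi : Mat m n) (r : Fin m → ℤ) (c : Fin n → ℤ) : Prop :=
  rowSum (lo + hi) = 2 • r ∧ colSum (lo + hi) = 2 • c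

/-- Near tables with deficit at row `a` and column `b`. -/
def nearM (lo hi : Mat m n) (r : Fin m → ℤ) (c : Fin n → ℤ) (a : Fin m) (b : Fin n) :
    Finset (Mat m n) :=
  slc lo hi (r - Pi.single a 1) (c - Pi.single b 1)

/-- Near tables with surplus at row `a` and column `b`. -/
def nearP (lo hi : Mat m n) (r : Fin m → ℤ) (c : Fin n → ℤ) (a : Fin m) (b : Fin n) :
    Finset (Mat m n) :=
  slc lo hi (r + Pi.single a 1) (c + Pi.single b 1)

/-- The lower end of the fibre box. -/
def loF (lo hi U : Mat m n) : Mat m n := fun i j => max (lo i j) (U i j - hi i j)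

/-- The upper end of the fibre box. -/
def hiF (lo hi U : Mat m n) : Mat m n := fun i j => min (hi i j) (U i j - lo i j)

/-- The weighted energy on the integers. -/
def wSum (S : Finset ℤ) (a : ℤ → ℝ) : ℝ :=
  ∑ s₁ ∈ S, ∑ s₂ ∈ S, ∑ s₃ ∈ S, ∑ s₄ ∈ S,
    if s₁ + s₂ = s₃ + s₄ then a s₁ * a s₂ * a s₃ * a s₄ else 0

/-- The exponent `γ M = 1 / (80 log M)`. -/
def gam (M : ℕ) : ℝ := 1 / (80 * Real.log M)

/-- `L0 γ = 4 log 4 / γ`, the boundary of the small regime. -/
def L0 (γ : ℝ) : ℝ := 4 * Real.log 4 / γ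

/-- The level of `f`: the least `k` with `log f * (1 - γ / 4) ^ k ≤ L0`. -/
def lvl (γ : ℝ) (f : ℕ) : ℕ := sInf {k : ℕ | Real.log f * (1 - γ / 4) ^ k ≤ L0 γ}

/-- The potential. -/
def phi (γ : ℝ) (f : ℕ) : ℝ :=
  if Real.log f ≤ L0 γ then (f : ℝ) ^ 100 else Real.exp (100 * L0 γ) * 4 ^ lvl γ f

/-- The energy of the moves out of `V + eu a b`, pivot row `a`. -/
def kap (g : Mat m n → ℝ) (a : Fin m) (b : Fin n) (V : Mat m n) : ℝ :=
  ∑ i, ∑ b', if i ≠ a ∧ b' ≠ b ∧ 1 ≤ V i b' then
    (g (V + eu a b) - g (V + eu a b' + eu i b - eu i b')) ^ 2 else 0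

/-- All near tables of the box. -/
def DD (g : Mat m n → ℝ) (lo hi : Mat m n) (r : Fin m → ℤ) (c : Fin n → ℤ) : ℝ :=
  ∑ a, ∑ b, ∑ V ∈ nearM lo hi r c a b, kap g a b V

/-- The condition on a potential, for fixed margins. -/
def Star (φ : ℕ → ℝ) (r : Fin m → ℤ) (c : Fin n → ℤ) : Prop :=
  ∀ (lo hi : Mat m n), 0 ≤ lo → Central lo hi r c →
    3 ≤ (slc lo hi r c).card →
    ∀ (a : Fin m) (b : Fin n), ∀ V ∈ nearM lo hi r c a b,
      2 / ((slc lo hi r c).card : ℝ) * ∑ E ∈ nearP lo hi r c a b,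
        φ (fib (slc lo hi r c) (V + E)).card ≤ φ (slc lo hi r c).card

/-- A box so large that it holds all tables. -/
def bigHi (r : Fin m → ℤ) : Mat m n := fun _ _ => ∑ i, |r i|

/-- All tables with margins `r, c`. -/
def Om (r : Fin m → ℤ) (c : Fin n → ℤ) : Finset (Mat m n) := slc 0 (bigHi r) r c

/-- The sum of squared differences over all `2 x 2` moves out of all tables. -/
def Dir (g : Mat m n → ℝ) (r : Fin m → ℤ) (c : Fin n → ℤ) : ℝ :=
  ∑ Y ∈ Om r c, ∑ a, ∑ i, ∑ b, ∑ b',
    if i ≠ a ∧ b' ≠ b ∧ 1 ≤ Y a b ∧ 1 ≤ Y i b' then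
      (g Y - g (Y - eu a b + eu a b' + eu i b - eu i b')) ^ 2 else 0

end

end Vale.Agent.Lib.P328Q
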