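import Vale.Agent.Lib.P328Q.Doubling

/-!
Part B of the additive doubling proof: box slices, fibres of box slices, mirror maps, the arc lemma
and the count of near tables.
-/

namespace Vale.Agent.Lib.P328Q

open Finset
open scoped Pointwise

noncomputable section

variable {m n : ℕ} {lo hi U : Mat m n} {r : Fin m → ℤ} {c : Fin n → ℤ}

theorem mem_box {X : Mat m n} : X ∈ box lo hi ↔ ∀ i j, lo i j ≤ X i j ∧ X i j ≤ hi i j := by
  simp [box, Fintype.mem_piFinset, Finset.mem_Icc]

theorem mem_slc {X : Mat m n} :
    X ∈ slc lo hi r c ↔ (∀ i j, lo i j ≤ X i j ∧ X i j ≤ hi i j) ∧ rowSum X = r ∧ colSum X = c := by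
  simp only [slc, Finset.mem_filter, mem_box]

theorem rowSum_add (X Y : Mat m n) : rowSum (X + Y) = rowSum X + rowSum Y := by
  funext i; simp [rowSum, Finset.sum_add_distrib]

theorem colSum_add (X Y : Mat m n) : colSum (X + Y) = colSum X + colSum Y := by
  funext j; simp [colSum, Finset.sum_add_distrib]

theorem rowSum_sub (X Y : Mat m n) : rowSum (X - Y) = rowSum X - rowSum Y := by
  funext i; simp [rowSum, Finset.sum_sub_distrib]

theorem colSum_sub (X Y : Mat m n) : colSum (X - Y) = colSum X - colSum Y := by
  funext j; simp [colSum, Finset.sum_sub_distrib]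

theorem two_nsmul_margin {ι : Type*} (r : ι → ℤ) : 2 • r = r + r := two_nsmul r

theorem loF_add_hiF : loF lo hi U + hiF lo hi U = U := by
  funext i j
  simp only [Pi.add_apply, loF, hiF]
  rcases le_total (lo i j) (U i j - hi i j) with h | h
  · rw [max_eq_right h, min_eq_left (by linarith)]; ring
  · rw [max_eq_left h, min_eq_right (by linarith)]; ring

theorem fib_slc (hU : rowSum U = 2 • r ∧ colSum U = 2 • c) :
    fib (slc lo hi r c) U = slc (loF lo hi U) (hiF lo hi U) r c := by
  ext X
  rw [mem_fib, mem_slc, mem_slc, mem_slc]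
  constructor
  · rintro ⟨⟨hb, hr, hc⟩, hb', -, -⟩
    refine ⟨fun i j => ?_, hr, hc⟩
    have h1 := hb i j
    have h2 := hb' i j
    simp only [Pi.sub_apply] at h2
    simp only [loF, hiF]
    refine ⟨max_le h1.1 (by linarith [h2.2]), le_min h1.2 (by linarith [h2.1])⟩
  · rintro ⟨hb, hr, hc⟩
    have hbox : ∀ i j, (lo i j ≤ X i j ∧ X i j ≤ hi i j) ∧
        (lo i j ≤ U i j - X i j ∧ U i j - X i j ≤ hi i j) := by
      intro i j
      have h := hb i j
      simp only [loF, hiF] at h
      have h1 := le_trans (le_max_left _ _) h.1
      have h2 := le_trans (le_max_right _ _) h.1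
      have h3 := le_trans h.2 (min_le_left _ _)
      have h4 := le_trans h.2 (min_le_right _ _)
      exact ⟨⟨h1, h3⟩, by linarith, by linarith⟩
    refine ⟨⟨fun i j => (hbox i j).1, hr, hc⟩, fun i j => (hbox i j).2, ?_, ?_⟩
    · rw [rowSum_sub, hU.1, hr, two_nsmul]; abel
    · rw [colSum_sub, hU.2, hc, two_nsmul]; abel

theorem central_fib (hU : rowSum U = 2 • r ∧ colSum U = 2 • c) :
    Central (loF lo hi U) (hiF lo hi U) r c := by
  unfold Central
  rw [loF_add_hiF]
  exact hU

theorem margins_of_mem_add {X : Mat m n} (hX : X ∈ slc lo hi r c + slc lo hi r c) :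
    rowSum X = 2 • r ∧ colSum X = 2 • c := by
  obtain ⟨A, hA, B, hB, rfl⟩ := Finset.mem_add.mp hX
  rw [mem_slc] at hA hB
  constructor
  · rw [rowSum_add, hA.2.1, hB.2.1, two_nsmul]
  · rw [colSum_add, hA.2.2, hB.2.2, two_nsmul]

theorem margins_of_near {a : Fin m} {b : Fin n} {V E : Mat m n} (hV : V ∈ nearM lo hi r c a b)
    (hE : E ∈ nearP lo hi r c a b) : rowSum (V + E) = 2 • r ∧ colSum (V + E) = 2 • c := by
  unfold nearM at hV
  unfold nearP at hE
  rw [mem_slc] at hV hE
  constructor
  · rw [rowSum_add, hV.2.1, hE.2.1, two_nsmul]; abel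
  · rw [colSum_add, hV.2.2, hE.2.2, two_nsmul]; abel

theorem mirror_box {X : Mat m n} (hX : ∀ i j, lo i j ≤ X i j ∧ X i j ≤ hi i j) :
    ∀ i j, lo i j ≤ (lo + hi - X) i j ∧ (lo + hi - X) i j ≤ hi i j := by
  intro i j
  have := hX i j
  simp only [Pi.sub_apply, Pi.add_apply]
  constructor <;> linarith [this.1, this.2]

theorem mirror_slc (h : Central lo hi r c) {X : Mat m n} (hX : X ∈ slc lo hi r c) :
    lo + hi - X ∈ slc lo hi r c := by
  rw [mem_slc] at hX ⊢
  refine ⟨mirror_box hX.1, ?_, ?_⟩
  · rw [rowSum_sub, h.1, hX.2.1, two_nsmul]; abel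
  · rw [colSum_sub, h.2, hX.2.2, two_nsmul]; abel

theorem mirror_nearM (h : Central lo hi r c) {a : Fin m} {b : Fin n} {V : Mat m n}
    (hV : V ∈ nearM lo hi r c a b) : lo + hi - V ∈ nearP lo hi r c a b := by
  unfold nearM at hV
  unfold nearP
  rw [mem_slc] at hV ⊢
  refine ⟨mirror_box hV.1, ?_, ?_⟩
  · rw [rowSum_sub, h.1, hV.2.1, two_nsmul]; abel
  · rw [colSum_sub, h.2, hV.2.2, two_nsmul]; abel

theorem mirror_nearP (h : Central lo hi r c) {a : Fin m} {b : Fin n} {E : Mat m n}
    (hE : E ∈ nearP lo hi r c a b) : lo + hi - E ∈ nearM lo hi r c a b := by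
  unfold nearP at hE
  unfold nearM
  rw [mem_slc] at hE ⊢
  refine ⟨mirror_box hE.1, ?_, ?_⟩
  · rw [rowSum_sub, h.1, hE.2.1, two_nsmul]; abel
  · rw [colSum_sub, h.2, hE.2.2, two_nsmul]; abel

/-- Near tables of the fibre box. -/
theorem mem_nearM_fib (hU : rowSum U = 2 • r ∧ colSum U = 2 • c) {a : Fin m} {b : Fin n}
    {V : Mat m n} :
    V ∈ nearM (loF lo hi U) (hiF lo hi U) r c a b ↔
      V ∈ nearM lo hi r c a b ∧ U - V ∈ nearP lo hi r c a b := by
  unfold nearM nearP
  rw [mem_slc, mem_slc, mem_slc]
  constructor
  · rintro ⟨hb, hr, hc⟩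
    have hbox : ∀ i j, (lo i j ≤ V i j ∧ V i j ≤ hi i j) ∧
        (lo i j ≤ U i j - V i j ∧ U i j - V i j ≤ hi i j) := by
      intro i j
      have h := hb i j
      simp only [loF, hiF] at h
      have h1 := le_trans (le_max_left _ _) h.1
      have h2 := le_trans (le_max_right _ _) h.1
      have h3 := le_trans h.2 (min_le_left _ _)
      have h4 := le_trans h.2 (min_le_right _ _)
      exact ⟨⟨h1, h3⟩, by linarith, by linarith⟩
    refine ⟨⟨fun i j => (hbox i j).1, hr, hc⟩, fun i j => (hbox i j).2, ?_, ?_⟩
    · rw [rowSum_sub, hU.1, hr, two_nsmul]; abel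
    · rw [colSum_sub, hU.2, hc, two_nsmul]; abel
  · rintro ⟨⟨hb, hr, hc⟩, hb', -, -⟩
    refine ⟨fun i j => ?_, hr, hc⟩
    have h1 := hb i j
    have h2 := hb' i j
    simp only [Pi.sub_apply] at h2
    simp only [loF, hiF]
    exact ⟨max_le h1.1 (by linarith [h2.2]), le_min h1.2 (by linarith [h2.1])⟩

/-- Entries of tables in a nonnegative box are bounded by both margins. -/
theorem entry_bound (hlo : 0 ≤ lo) {X : Mat m n} (hX : X ∈ slc lo hi r c) (i : Fin m) (j : Fin n) :
    0 ≤ X i j ∧ X i j ≤ min (r i) (c j) := by
  rw [mem_slc] at hX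
  have hnn : ∀ i j, 0 ≤ X i j := fun i j => le_trans (hlo i j) (hX.1 i j).1
  refine ⟨hnn i j, le_min ?_ ?_⟩
  · rw [← hX.2.1]
    exact Finset.single_le_sum (f := fun j => X i j) (fun j _ => hnn i j) (Finset.mem_univ j)
  · rw [← hX.2.2]
    exact Finset.single_le_sum (f := fun i => X i j) (fun i _ => hnn i j) (Finset.mem_univ i)

/-- The entries of a matrix plus two matrix units. -/
theorem eu_apply (a : Fin m) (b : Fin n) (i : Fin m) (j : Fin n) :
    (eu a b : Mat m n) i j = if i = a ∧ j = b then 1 else 0 := rfl

theorem rowSum_eu (a : Fin m) (b : Fin n) :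
    rowSum (eu a b : Mat m n) = Pi.single a 1 := by
  funext i
  unfold rowSum
  by_cases h : i = a
  · subst h
    simp [eu_apply]
  · simp [eu_apply, h]

theorem colSum_eu (a : Fin m) (b : Fin n) :
    colSum (eu a b : Mat m n) = Pi.single b 1 := by
  funext j
  unfold colSum
  by_cases h : j = b
  · subst h
    simp [eu_apply]
  · simp [eu_apply, h]

/-- The walk behind the arc lemma. -/
theorem walk_exists (k : ℕ) {a : Fin m} {W : Mat m n}
    (hWb : ∀ i j, lo i j ≤ W i j ∧ W i j ≤ hi i j)
    (hWr : ∀ i, i ≠ a → rowSum W i = r i) (hWc : ∀ j, c j ≤ colSum W j) :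
    ∀ (V : Mat m n) (b : Fin n), (∑ i, ∑ j, (W i j - V i j).natAbs) = k →
      (∀ i j, lo i j ≤ V i j ∧ V i j ≤ hi i j) →
      rowSum V = r - Pi.single a 1 → colSum V = c - Pi.single b 1 →
      (slc lo hi r c).Nonempty := by
  induction k using Nat.strong_induction_on with
  | _ k ih =>
    intro V b hk hVb hVr hVc
    -- a positive entry of `W - V` in column `b`
    have hcol : colSum V b < colSum W b := by
      have h1 := hWc b
      rw [hVc]
      simp only [Pi.sub_apply, Pi.single_eq_same]
      linarith
    obtain ⟨i, -, hi'⟩ : ∃ i ∈ (Finset.univ : Finset (Fin m)), V i b < W i b := by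
      apply Finset.exists_lt_of_sum_lt
      simpa [colSum] using hcol
    by_cases hia : i = a
    · subst hia
      refine ⟨V + eu i b, ?_⟩
      rw [mem_slc]
      refine ⟨fun i' j' => ?_, ?_, ?_⟩
      · have h1 := hVb i' j'
        have h2 := hWb i b
        simp only [Pi.add_apply, eu_apply]
        split_ifs with h
        · obtain ⟨rfl, rfl⟩ := h
          constructor <;> linarith [h1.1, h1.2, h2.1, h2.2]
        · simpa using h1
      · rw [rowSum_add, rowSum_eu, hVr]; abel
      · rw [colSum_add, colSum_eu, hVc]; abel
    · -- row `i` balances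
      have hrow : rowSum V i = rowSum W i := by
        rw [hWr i hia, hVr]
        simp [hia]
      obtain ⟨j, hj⟩ : ∃ j, W i j < V i j := by
        by_contra hcon
        push Not at hcon
        have hlt : ∑ j, V i j < ∑ j, W i j :=
          Finset.sum_lt_sum (fun j _ => hcon j) ⟨b, Finset.mem_univ _, hi'⟩
        have h1 : ∑ j, V i j = ∑ j, W i j := hrow
        linarith
      have hjb : j ≠ b := by
        rintro rfl
        linarith
      set V' : Mat m n := V + eu i b - eu i j with hV'
      have hV'app : ∀ i' j', V' i' j' = V i' j' + (if i' = i ∧ j' = b then 1 else 0)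
          - (if i' = i ∧ j' = j then 1 else 0) := by
        intro i' j'
        simp [hV', eu_apply]
      have hV'b : ∀ i' j', lo i' j' ≤ V' i' j' ∧ V' i' j' ≤ hi i' j' := by
        intro i' j'
        rw [hV'app]
        have h1 := hVb i' j'
        by_cases h : i' = i ∧ j' = b
        · obtain ⟨rfl, rfl⟩ := h
          have h2 := hWb i' j'
          have hne : ¬ (j' = j) := fun e => hjb e.symm
          simp [hne]
          constructor <;> linarith [h1.1, h1.2, h2.2]
        · by_cases h' : i' = i ∧ j' = j
          · obtain ⟨rfl, rfl⟩ := h'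
            have h2 := hWb i' j'
            simp [hjb]
            constructor <;> linarith [h1.1, h1.2, h2.1]
          · simp [h, h']
            exact h1
      have hV'r : rowSum V' = r - Pi.single a 1 := by
        rw [hV', rowSum_sub, rowSum_add, rowSum_eu, rowSum_eu, hVr]; abel
      have hV'c : colSum V' = c - Pi.single j 1 := by
        rw [hV', colSum_sub, colSum_add, colSum_eu, colSum_eu, hVc]; abel
      have hmeas : (∑ i', ∑ j', (W i' j' - V' i' j').natAbs) < k := by
        rw [← hk]
        have hterm : ∀ i' j', (W i' j' - V' i' j').natAbs ≤ (W i' j' - V i' j').natAbs := by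
          intro i' j'
          rw [hV'app]
          by_cases h : i' = i ∧ j' = b
          · obtain ⟨rfl, rfl⟩ := h
            have hne : ¬ (j' = j) := fun e => hjb e.symm
            simp [hne]
            omega
          · by_cases h' : i' = i ∧ j' = j
            · obtain ⟨rfl, rfl⟩ := h'
              simp [hjb]
              omega
            · simp [h, h']
        refine Finset.sum_lt_sum (fun i' _ => Finset.sum_le_sum fun j' _ => hterm i' j')
          ⟨i, Finset.mem_univ _, Finset.sum_lt_sum (fun j' _ => hterm i j')
            ⟨b, Finset.mem_univ _, ?_⟩⟩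
        rw [hV'app]
        have hne : ¬ (b = j) := fun e => hjb e.symm
        simp [hne]
        omega
      exact ih _ hmeas V' j rfl hV'b hV'r hV'c

/-- Arc lemma: a near table in a central box forces a table in the box. -/
theorem slc_nonempty_of_nearM (h : Central lo hi r c) {a : Fin m} {b : Fin n} {V : Mat m n}
    (hV : V ∈ nearM lo hi r c a b) : (slc lo hi r c).Nonempty := by
  have hE := mirror_nearM h hV
  unfold nearM at hV
  unfold nearP at hE
  rw [mem_slc] at hV hE
  refine walk_exists (a := a) (W := lo + hi - V) _ hE.1 ?_ ?_ V b rfl hV.1 hV.2.1 hV.2.2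
  · intro i hi'
    rw [hE.2.1]
    simp [hi']
  · intro j
    rw [hE.2.2]
    simp only [Pi.add_apply]
    have : (0 : ℤ) ≤ (Pi.single b 1 : Fin n → ℤ) j := by
      by_cases hj : j = b
      · subst hj; simp
      · simp [hj]
    linarith

theorem card_nearM_eq (h : Central lo hi r c) (a : Fin m) (b : Fin n) :
    (nearM lo hi r c a b).card = (nearP lo hi r c a b).card := by
  refine Finset.card_bij' (fun x _ => lo + hi - x) (fun x _ => lo + hi - x)
    (fun x hx => mirror_nearM h hx) (fun x hx => mirror_nearP h hx) ?_ ?_
  · intro x _; simp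
  · intro x _; simp

/-- If the fibre box agrees with the box at its centre. -/
theorem loF_center : loF lo hi (lo + hi) = lo := by
  funext i j; simp [loF]

theorem hiF_center : hiF lo hi (lo + hi) = hi := by
  funext i j; simp [hiF]

/-- The fibre box is strictly smaller than a nonempty box off the centre. -/
theorem box_fib_card_lt {V : Mat m n} (hV : ∀ i j, lo i j ≤ V i j ∧ V i j ≤ hi i j)
    (hne : U ≠ lo + hi) : (box (loF lo hi U) (hiF lo hi U)).card < (box lo hi).card := by
  apply Finset.card_lt_card
  rw [Finset.ssubset_iff_of_subset]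
  · -- a witness
    have hex : ∃ i j, U i j ≠ lo i j + hi i j := by
      by_contra hcon
      push Not at hcon
      exact hne (funext fun i => funext fun j => hcon i j)
    obtain ⟨i, j, hij⟩ := hex
    rcases lt_or_gt_of_ne hij with hlt | hgt
    · refine ⟨Function.update V i (Function.update (V i) j (hi i j)), ?_, ?_⟩
      · rw [mem_box]
        intro i' j'
        by_cases h1 : i' = i
        · subst h1
          by_cases h2 : j' = j
          · subst h2
            have := hV i' j'
            simp
            linarith [this.1, this.2]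
          · simpa [h2] using hV i' j'
        · simpa [h1] using hV i' j'
      · rw [mem_box]
        intro hmem
        have := (hmem i j).2
        simp [hiF] at this
        omega
    · refine ⟨Function.update V i (Function.update (V i) j (lo i j)), ?_, ?_⟩
      · rw [mem_box]
        intro i' j'
        by_cases h1 : i' = i
        · subst h1
          by_cases h2 : j' = j
          · subst h2
            have := hV i' j'
            simp
            linarith [this.1, this.2]
          · simpa [h2] using hV i' j'
        · simpa [h1] using hV i' j'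
      · rw [mem_box]
        intro hmem
        have := (hmem i j).1
        simp [loF] at this
        omega
  · intro X hX
    rw [mem_box] at hX ⊢
    intro i' j'
    have h := hX i' j'
    simp only [loF, hiF] at h
    exact ⟨le_trans (le_max_left _ _) h.1, le_trans h.2 (min_le_left _ _)⟩

/-- At most as many near tables as tables. -/
theorem card_nearP_le (h : Central lo hi r c) (a : Fin m) (b : Fin n) :
    (nearP lo hi r c a b).card ≤ (slc lo hi r c).card := by
  induction hk : (box lo hi).card using Nat.strong_induction_on generalizing lo hi with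
  | _ k ih =>
    set NM := nearM lo hi r c a b with hNM
    set NP := nearP lo hi r c a b with hNP
    set F := slc lo hi r c with hF
    have hcardMP : NM.card = NP.card := card_nearM_eq h a b
    rcases NM.eq_empty_or_nonempty with hemp | ⟨V₀, hV₀⟩
    · rw [← hcardMP, hemp]; simp
    have hFne : F.Nonempty := slc_nonempty_of_nearM h hV₀
    set T := lo + hi with hT
    -- pairs of near tables, fibred by the sum
    have hpairs : ∑ W ∈ NM + NP, (nearM (loF lo hi W) (hiF lo hi W) r c a b).card =
        NM.card * NP.card := by
      have hfib : ∀ W ∈ NM + NP, (nearM (loF lo hi W) (hiF lo hi W) r c a b).card =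
          ((NM ×ˢ NP).filter fun p => p.1 + p.2 = W).card := by
        intro W hW
        obtain ⟨V, hV, E, hE, rfl⟩ := Finset.mem_add.mp hW
        have hmarg := margins_of_near hV hE
        refine Finset.card_bij' (fun x _ => (x, V + E - x)) (fun p _ => p.1) ?_ ?_ ?_ ?_
        · intro x hx
          rw [mem_nearM_fib hmarg] at hx
          simp [hx.1, hx.2, hNM, hNP]
        · intro p hp
          simp only [Finset.mem_filter, Finset.mem_product] at hp
          rw [mem_nearM_fib hmarg]
          refine ⟨hp.1.1, ?_⟩
          have : V + E - p.1 = p.2 := by rw [← hp.2]; abel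
          rw [this]; exact hp.1.2
        · intro x _; rfl
        · intro p hp
          simp only [Finset.mem_filter, Finset.mem_product] at hp
          have : V + E - p.1 = p.2 := by rw [← hp.2]; abel
          ext1 <;> simp [this]
      rw [Finset.sum_congr rfl hfib, ← Finset.card_product]
      exact (Finset.card_eq_sum_card_fiberwise (fun p hp => by
        rw [Finset.mem_coe, Finset.mem_product] at hp
        exact Finset.mem_coe.mpr (Finset.add_mem_add hp.1 hp.2))).symm
    -- term by term
    have hterm : ∀ W ∈ NM + NP, W ≠ T →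
        (nearM (loF lo hi W) (hiF lo hi W) r c a b).card ≤ (fib F W).card := by
      intro W hW hne
      obtain ⟨V, hV, E, hE, rfl⟩ := Finset.mem_add.mp hW
      have hmarg := margins_of_near hV hE
      have hVb : ∀ i j, lo i j ≤ V i j ∧ V i j ≤ hi i j := by
        have := hV; rw [hNM] at this; unfold nearM at this; rw [mem_slc] at this; exact this.1
      have hlt := box_fib_card_lt hVb hne
      have hC := central_fib (lo := lo) (hi := hi) hmarg
      have h1 := ih _ (hk ▸ hlt) hC rfl
      rw [card_nearM_eq hC a b, hF, fib_slc hmarg]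
      exact h1
    have hTmem : T ∈ F + F := center_mem_add F T (fun x hx => mirror_slc h hx) hFne
    have hfibT : fib F T = F := fib_self_central F T (fun x hx => mirror_slc h hx)
    have hsumF : ∑ W ∈ (F + F).erase T, (fib F W).card + F.card = F.card ^ 2 := by
      rw [← sum_card_fib F, ← Finset.sum_erase_add _ _ hTmem, hfibT]
    have hzero : ∀ W, W ∉ F + F → fib F W = ∅ := by
      intro W hW
      rw [Finset.eq_empty_iff_forall_notMem]
      intro x hx
      rw [mem_fib] at hx
      apply hW
      have := Finset.add_mem_add hx.1 hx.2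
      simpa using this
    have hbound : ∑ W ∈ NM + NP, (nearM (loF lo hi W) (hiF lo hi W) r c a b).card ≤
        NM.card + ∑ W ∈ (F + F).erase T, (fib F W).card := by
      calc ∑ W ∈ NM + NP, (nearM (loF lo hi W) (hiF lo hi W) r c a b).card
          = ∑ W ∈ (NM + NP).filter (· = T), (nearM (loF lo hi W) (hiF lo hi W) r c a b).card
            + ∑ W ∈ (NM + NP).filter (· ≠ T), (nearM (loF lo hi W) (hiF lo hi W) r c a b).card := by
            rw [Finset.sum_filter_add_sum_filter_not]
        _ ≤ NM.card + ∑ W ∈ (F + F).erase T, (fib F W).card := by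
            refine add_le_add ?_ ?_
            · have hsub : (NM + NP).filter (· = T) ⊆ {T} := by
                intro W hW
                simp only [Finset.mem_filter] at hW
                simp [hW.2]
              refine (Finset.sum_le_sum_of_subset hsub).trans ?_
              simp only [Finset.sum_singleton]
              rw [hT, loF_center, hiF_center]
            · calc ∑ W ∈ (NM + NP).filter (· ≠ T), (nearM (loF lo hi W) (hiF lo hi W) r c a b).card
                  ≤ ∑ W ∈ (NM + NP).filter (· ≠ T), (fib F W).card := by
                    refine Finset.sum_le_sum fun W hW => ?_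
                    simp only [Finset.mem_filter] at hW
                    exact hterm W hW.1 hW.2
                _ = ∑ W ∈ ((NM + NP).filter (· ≠ T)).filter (· ∈ F + F), (fib F W).card := by
                    refine (Finset.sum_filter_of_ne fun W _ hW => ?_).symm
                    by_contra hcon
                    exact hW (by rw [hzero W hcon]; rfl)
                _ ≤ ∑ W ∈ (F + F).erase T, (fib F W).card := by
                    refine Finset.sum_le_sum_of_subset ?_
                    intro W hW
                    simp only [Finset.mem_filter] at hW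
                    exact Finset.mem_erase.mpr ⟨hW.1.2, hW.2⟩
    rw [hpairs] at hbound
    have hn1 : 1 ≤ NM.card := Finset.card_pos.mpr ⟨V₀, hV₀⟩
    have hf1 : 1 ≤ F.card := Finset.card_pos.mpr hFne
    rw [← hcardMP] at hbound ⊢
    have : NM.card * NM.card + F.card ≤ NM.card + F.card ^ 2 := by omega
    by_contra hlt
    push Not at hlt
    nlinarith

end

end Vale.Agent.Lib.P328Q
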