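import Vale.Agent.Lib.P328Q.Basic

/-!
Part D of the additive doubling proof: the doubling inequality on any finite subset of an abelian
group and elementary facts on additive fibres.
-/

namespace Vale.Agent.Lib.P328Q

open Finset
open scoped Pointwise

noncomputable section

set_option linter.unusedSectionVars false

variable {G : Type*} [AddCommGroup G] [DecidableEq G]

theorem mem_fib {F : Finset G} {U x : G} : x ∈ fib F U ↔ x ∈ F ∧ U - x ∈ F := by
  simp [fib]

/-- Summation over pairs fibred along the sum. -/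
theorem sum_fib_pairs {β : Type*} [AddCommMonoid β] (F : Finset G) (h : G → G → β) :
    ∑ U ∈ F + F, ∑ x ∈ fib F U, h x (U - x) = ∑ x ∈ F, ∑ y ∈ F, h x y := by
  classical
  rw [← Finset.sum_product' F F h]
  have hmaps : ∀ p ∈ F ×ˢ F, p.1 + p.2 ∈ F + F := by
    intro p hp
    rw [Finset.mem_product] at hp
    exact Finset.add_mem_add hp.1 hp.2
  rw [← Finset.sum_fiberwise_of_maps_to hmaps]
  refine Finset.sum_congr rfl fun U _ => ?_
  refine Finset.sum_bij' (fun x _ => (x, U - x)) (fun p _ => p.1) ?_ ?_ ?_ ?_ ?_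
  · intro x hx
    rw [mem_fib] at hx
    simp [hx.1, hx.2]
  · intro p hp
    simp only [Finset.mem_filter, Finset.mem_product] at hp
    rw [mem_fib]
    refine ⟨hp.1.1, ?_⟩
    have : U - p.1 = p.2 := by rw [← hp.2]; abel
    rw [this]; exact hp.1.2
  · intro x _; rfl
  · intro p hp
    simp only [Finset.mem_filter, Finset.mem_product] at hp
    have : U - p.1 = p.2 := by rw [← hp.2]; abel
    ext <;> simp [this]
  · intro x _; rfl

theorem sum_card_fib (F : Finset G) : ∑ U ∈ F + F, (fib F U).card = F.card ^ 2 := by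
  have h := sum_fib_pairs (β := ℕ) F (fun _ _ => 1)
  simp only [Finset.sum_const, smul_eq_mul, mul_one] at h
  rw [h, sq]

/-- The involution of a fibre. -/
theorem sum_fib_symm {β : Type*} [AddCommMonoid β] (F : Finset G) (U : G) (h : G → β) :
    ∑ x ∈ fib F U, h (U - x) = ∑ x ∈ fib F U, h x := by
  refine Finset.sum_bij' (fun x _ => U - x) (fun x _ => U - x) ?_ ?_ ?_ ?_ ?_
  · intro x hx
    rw [mem_fib] at hx ⊢
    refine ⟨hx.2, ?_⟩
    simpa using hx.1
  · intro x hx
    rw [mem_fib] at hx ⊢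
    refine ⟨hx.2, ?_⟩
    simpa using hx.1
  · intro x _; simp
  · intro x _; simp
  · intro x _; rfl

/-- `wv` in closed form. -/
theorem wv_eq (F : Finset G) (g : G → ℝ) :
    wv F g = 2 * (F.card : ℝ) * ∑ x ∈ F, g x ^ 2 - 2 * (∑ x ∈ F, g x) ^ 2 := by
  unfold wv
  have h1 : ∀ x ∈ F, ∑ y ∈ F, (g x - g y) ^ 2 =
      (F.card : ℝ) * g x ^ 2 - 2 * g x * (∑ y ∈ F, g y) + ∑ y ∈ F, g y ^ 2 := by
    intro x _
    have : ∀ y ∈ F, (g x - g y) ^ 2 = g x ^ 2 - 2 * g x * g y + g y ^ 2 := by
      intro y _; ring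
    rw [Finset.sum_congr rfl this, Finset.sum_add_distrib, Finset.sum_sub_distrib,
      Finset.sum_const, nsmul_eq_mul, ← Finset.mul_sum]
  rw [Finset.sum_congr rfl h1, Finset.sum_add_distrib, Finset.sum_sub_distrib,
    Finset.sum_const, nsmul_eq_mul, ← Finset.mul_sum, ← Finset.sum_mul, ← Finset.mul_sum]
  ring

theorem wv_nonneg (F : Finset G) (g : G → ℝ) : 0 ≤ wv F g :=
  Finset.sum_nonneg fun _ _ => Finset.sum_nonneg fun _ _ => sq_nonneg _

/-- The key inequality on one fibre. -/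
theorem fib_term_le (F : Finset G) (U : G) (g : G → ℝ) :
    ∑ x ∈ fib F U, (g x - g (U - x)) ^ 2 ≤ 2 * (wv (fib F U) g / ((fib F U).card : ℝ)) := by
  set Φ := fib F U with hΦ
  rcases Φ.eq_empty_or_nonempty with h0 | hne
  · rw [h0]; simp [wv]
  have hk : (0 : ℝ) < (Φ.card : ℝ) := by exact_mod_cast Finset.card_pos.mpr hne
  have hs1 : ∑ x ∈ Φ, g (U - x) = ∑ x ∈ Φ, g x := sum_fib_symm F U g
  have hs2 : ∑ x ∈ Φ, g (U - x) ^ 2 = ∑ x ∈ Φ, g x ^ 2 := sum_fib_symm F U (fun x => g x ^ 2)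
  have hcs : (∑ x ∈ Φ, (g x + g (U - x))) ^ 2 ≤ (Φ.card : ℝ) * ∑ x ∈ Φ, (g x + g (U - x)) ^ 2 :=
    sq_sum_le_card_mul_sum_sq
  have hsum : ∑ x ∈ Φ, (g x + g (U - x)) = 2 * ∑ x ∈ Φ, g x := by
    rw [Finset.sum_add_distrib, hs1]; ring
  have hexp : ∑ x ∈ Φ, (g x + g (U - x)) ^ 2 + ∑ x ∈ Φ, (g x - g (U - x)) ^ 2 =
      4 * ∑ x ∈ Φ, g x ^ 2 := by
    rw [← Finset.sum_add_distrib]
    have : ∀ x ∈ Φ, (g x + g (U - x)) ^ 2 + (g x - g (U - x)) ^ 2 =
        2 * g x ^ 2 + 2 * g (U - x) ^ 2 := by intro x _; ring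
    rw [Finset.sum_congr rfl this, Finset.sum_add_distrib, ← Finset.mul_sum, ← Finset.mul_sum, hs2]
    ring
  rw [wv_eq]
  rw [hsum] at hcs
  have key : ∑ x ∈ Φ, (g x - g (U - x)) ^ 2 * (Φ.card : ℝ) ≤
      2 * (2 * (Φ.card : ℝ) * ∑ x ∈ Φ, g x ^ 2 - 2 * (∑ x ∈ Φ, g x) ^ 2) := by
    rw [← Finset.sum_mul]
    nlinarith
  rw [mul_div_assoc', le_div_iff₀ hk]
  rw [← Finset.sum_mul] at key
  linarith

theorem wv_le_fib (F : Finset G) (g : G → ℝ) :
    wv F g ≤ 2 * ∑ U ∈ F + F, wv (fib F U) g / ((fib F U).card : ℝ) := by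
  have h := sum_fib_pairs (β := ℝ) F (fun x y => (g x - g y) ^ 2)
  unfold wv at *
  rw [← h, Finset.mul_sum]
  exact Finset.sum_le_sum fun U _ => fib_term_le F U g

theorem fib_self_central (F : Finset G) (T : G) (hT : ∀ x ∈ F, T - x ∈ F) : fib F T = F := by
  ext x
  rw [mem_fib]
  exact ⟨fun h => h.1, fun h => ⟨h, hT x h⟩⟩

theorem center_mem_add (F : Finset G) (T : G) (hT : ∀ x ∈ F, T - x ∈ F) (hne : F.Nonempty) :
    T ∈ F + F := by
  obtain ⟨x, hx⟩ := hne
  have := Finset.add_mem_add hx (hT x hx)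
  simpa using this

/-- Central form: the stay term is moved to the left. -/
theorem wv_le_fib_central (F : Finset G) (T : G) (hT : ∀ x ∈ F, T - x ∈ F) (g : G → ℝ) :
    wv F g * (1 - 2 / (F.card : ℝ)) ≤
      2 * ∑ U ∈ (F + F).erase T, wv (fib F U) g / ((fib F U).card : ℝ) := by
  rcases F.eq_empty_or_nonempty with h0 | hne
  · subst h0; simp [wv]
  have hk : (0 : ℝ) < (F.card : ℝ) := by exact_mod_cast Finset.card_pos.mpr hne
  have hmem := center_mem_add F T hT hne
  have h := wv_le_fib F g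
  rw [← Finset.add_sum_erase _ _ hmem, fib_self_central F T hT] at h
  have : wv F g * (2 / (F.card : ℝ)) = 2 * (wv F g / (F.card : ℝ)) := by ring
  nlinarith

/-- `fib F (T + u)` has size `ov F u` when `F` is central about `T`. -/
theorem card_fib_eq_ov (F : Finset G) (T : G) (hT : ∀ x ∈ F, T - x ∈ F) (u : G) :
    (fib F (T + u)).card = ov F u := by
  unfold ov
  refine Finset.card_bij' (fun x _ => T - x) (fun x _ => T - x) ?_ ?_ ?_ ?_
  · intro x hx
    rw [mem_fib] at hx
    rw [Finset.mem_filter]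
    refine ⟨hT x hx.1, ?_⟩
    have : T - x + u = T + u - x := by abel
    rw [this]; exact hx.2
  · intro x hx
    rw [Finset.mem_filter] at hx
    rw [mem_fib]
    refine ⟨by simpa using hT x hx.1, ?_⟩
    have : T + u - (T - x) = x + u := by abel
    rw [this]; exact hx.2
  · intro x _; simp
  · intro x _; simp

/-- If `F` is central and nonempty, a fibre of full size only occurs at the centre. -/
theorem fib_card_eq (F : Finset G) (T : G) (hT : ∀ x ∈ F, T - x ∈ F) (hne : F.Nonempty)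
    [IsAddTorsionFree G] (U : G) (h : (fib F U).card = F.card) : U = T := by
  have hsub : fib F U ⊆ F := Finset.filter_subset _ _
  have heq : fib F U = F := Finset.eq_of_subset_of_card_le hsub (le_of_eq h.symm)
  have hU : ∀ x ∈ F, U - x ∈ F := by
    intro x hx
    rw [← heq] at hx
    exact (mem_fib.mp hx).2
  by_contra hne'
  have hu : U - T ≠ 0 := sub_ne_zero.mpr hne'
  obtain ⟨x, hx⟩ := hne
  have hstep : ∀ y ∈ F, y + (U - T) ∈ F := by
    intro y hy
    have := hU _ (hT y hy)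
    have e : U - (T - y) = y + (U - T) := by abel
    rwa [e] at this
  have hall : ∀ k : ℕ, x + k • (U - T) ∈ F := by
    intro k
    induction k with
    | zero => simpa using hx
    | succ k ih =>
      have := hstep _ ih
      rwa [add_assoc, ← succ_nsmul] at this
  have hinj : Function.Injective fun k : ℕ => x + k • (U - T) := by
    intro k l hkl
    have hkl' : k • (U - T) = l • (U - T) := add_left_cancel hkl
    have key : ∀ p q : ℕ, p < q → p • (U - T) ≠ q • (U - T) := by
      intro p q hpq he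
      obtain ⟨d, rfl⟩ := Nat.exists_eq_add_of_lt hpq
      rw [show p + d + 1 = p + (d + 1) by ring, add_nsmul] at he
      have h0 : (d + 1) • (U - T) = 0 := by
        have := he.symm
        simpa using this
      exact Nat.succ_ne_zero d ((nsmul_eq_zero_iff_left hu).mp h0)
    rcases lt_trichotomy k l with h | h | h
    · exact absurd hkl' (key k l h)
    · exact h
    · exact absurd hkl'.symm (key l k h)
  exact (Set.infinite_of_injective_forall_mem hinj hall) F.finite_toSet

/-- Cauchy-Schwarz with a fixed first summand: the bound uniform in `V`. -/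
theorem sum_fib_le (F : Finset G) (V : G) (Es : Finset G) :
    (∑ E ∈ Es, ((fib F (V + E)).card : ℝ)) ≤ Real.sqrt ((Es.card : ℝ) * (en F : ℝ)) := by
  apply Real.le_sqrt_of_sq_le
  have hcs : (∑ E ∈ Es, ((fib F (V + E)).card : ℝ)) ^ 2 ≤
      (Es.card : ℝ) * ∑ E ∈ Es, ((fib F (V + E)).card : ℝ) ^ 2 := sq_sum_le_card_mul_sum_sq
  refine hcs.trans (mul_le_mul_of_nonneg_left ?_ (Nat.cast_nonneg _))
  have hin : ∀ U, U ∉ F + F → fib F U = ∅ := by
    intro U hU
    rw [Finset.eq_empty_iff_forall_notMem]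
    intro x hx
    rw [mem_fib] at hx
    apply hU
    have := Finset.add_mem_add hx.1 hx.2
    simpa using this
  have hen : (en F : ℝ) = ∑ U ∈ F + F, ((fib F U).card : ℝ) ^ 2 := by
    unfold en; push_cast; rfl
  rw [hen]
  have himg : ∑ E ∈ Es, ((fib F (V + E)).card : ℝ) ^ 2 =
      ∑ U ∈ Es.image (fun E => V + E), ((fib F U).card : ℝ) ^ 2 := by
    rw [Finset.sum_image]
    intro x _ y _ hxy
    exact add_left_cancel hxy
  rw [himg]
  calc ∑ U ∈ Es.image (fun E => V + E), ((fib F U).card : ℝ) ^ 2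
      = ∑ U ∈ (Es.image (fun E => V + E)).filter (fun U => U ∈ F + F),
          ((fib F U).card : ℝ) ^ 2 := by
        rw [Finset.sum_filter]
        refine Finset.sum_congr rfl fun U _ => ?_
        by_cases hU : U ∈ F + F
        · simp [hU]
        · simp [hU, hin U hU]
    _ ≤ ∑ U ∈ F + F, ((fib F U).card : ℝ) ^ 2 := by
        refine Finset.sum_le_sum_of_subset_of_nonneg ?_ (fun _ _ _ => sq_nonneg _)
        intro U hU
        exact (Finset.mem_filter.mp hU).2

end

end Vale.Agent.Lib.P328Q
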