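import Vale.Agent.Lib.P328Q.WLemma

/-!
The energy theorem: a finite set all of whose coordinates take at most `M` values
has additive energy at most `f ^ (3 - γ)`, with `γ = 1 / (80 log M)`.
-/

namespace Vale.Agent.Lib.P328Q

open Finset
open scoped Pointwise

noncomputable section

section General

variable {G : Type*} [AddCommGroup G] [DecidableEq G]

/-- The mixed energy of four finite sets. -/
def eng_Q (A B C D : Finset G) : ℕ :=
  ∑ a ∈ A, ∑ b ∈ B, ∑ c ∈ C, ∑ d ∈ D, if a + b = c + d then 1 else 0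

omit [AddCommGroup G] in
lemma eng_fiber {α β : Type*} (I : Finset α) (J : Finset β) (u : α → G) (v : β → G)
    (T : Finset G) (hu : ∀ i ∈ I, u i ∈ T) :
    (∑ i ∈ I, ∑ j ∈ J, if u i = v j then (1 : ℕ) else 0) =
      ∑ U ∈ T, (∑ i ∈ I, if u i = U then (1 : ℕ) else 0) *
        (∑ j ∈ J, if v j = U then (1 : ℕ) else 0) := by
  simp only [Finset.sum_mul_sum]
  symm
  calc ∑ U ∈ T, ∑ i ∈ I, ∑ j ∈ J,
        (if u i = U then (1 : ℕ) else 0) * (if v j = U then (1 : ℕ) else 0)
      = ∑ i ∈ I, ∑ U ∈ T, ∑ j ∈ J,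
        (if u i = U then (1 : ℕ) else 0) * (if v j = U then (1 : ℕ) else 0) := Finset.sum_comm
    _ = ∑ i ∈ I, ∑ j ∈ J, ∑ U ∈ T,
        (if u i = U then (1 : ℕ) else 0) * (if v j = U then (1 : ℕ) else 0) :=
        Finset.sum_congr rfl fun _ _ => Finset.sum_comm
    _ = _ := by
        refine Finset.sum_congr rfl fun i hi => Finset.sum_congr rfl fun j _ => ?_
        rw [Finset.sum_eq_single (u i)]
        · simp [eq_comm]
        · intro U _ hU
          simp [Ne.symm hU]
        · intro h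
          exact absurd (hu i hi) h

/-- Cauchy-Schwarz for coincidence counts. -/
lemma eng_cs {α β : Type*} (I : Finset α) (J : Finset β) (u : α → G) (v : β → G) :
    (∑ i ∈ I, ∑ j ∈ J, if u i = v j then (1 : ℕ) else 0) ^ 2 ≤
      (∑ i ∈ I, ∑ i' ∈ I, if u i = u i' then (1 : ℕ) else 0) *
        (∑ j ∈ J, ∑ j' ∈ J, if v j = v j' then (1 : ℕ) else 0) := by
  classical
  set T := I.image u ∪ J.image v with hT
  have hu : ∀ i ∈ I, u i ∈ T := fun i hi =>
    Finset.mem_union_left _ (Finset.mem_image_of_mem _ hi)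
  have hv : ∀ j ∈ J, v j ∈ T := fun j hj =>
    Finset.mem_union_right _ (Finset.mem_image_of_mem _ hj)
  rw [eng_fiber I J u v T hu, eng_fiber I I u u T hu, eng_fiber J J v v T hv]
  have := Finset.sum_mul_sq_le_sq_mul_sq (R := ℕ) T
    (fun U => ∑ i ∈ I, if u i = U then (1 : ℕ) else 0)
    (fun U => ∑ j ∈ J, if v j = U then (1 : ℕ) else 0)
  simpa only [pow_two] using this

lemma eng_Q_cs1 (A B C D : Finset G) :
    eng_Q A B C D ^ 2 ≤ eng_Q A B A B * eng_Q C D C D := by
  have h := eng_cs (A ×ˢ B) (C ×ˢ D) (fun p => p.1 + p.2) (fun p => p.1 + p.2)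
  simpa only [Finset.sum_product, eng_Q] using h

lemma eng_diff (A B : Finset G) :
    (∑ a ∈ A, ∑ a' ∈ A, ∑ b ∈ B, ∑ b' ∈ B, if a - a' = b - b' then (1 : ℕ) else 0)
      = eng_Q A B A B := by
  unfold eng_Q
  refine Finset.sum_congr rfl fun a _ => ?_
  calc ∑ a' ∈ A, ∑ b ∈ B, ∑ b' ∈ B, (if a - a' = b - b' then (1 : ℕ) else 0)
      = ∑ a' ∈ A, ∑ b' ∈ B, ∑ b ∈ B, (if a - a' = b - b' then (1 : ℕ) else 0) :=
        Finset.sum_congr rfl fun a' _ => Finset.sum_comm
    _ = ∑ b' ∈ B, ∑ a' ∈ A, ∑ b ∈ B, (if a - a' = b - b' then (1 : ℕ) else 0) :=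
        Finset.sum_comm
    _ = _ := by
        refine Finset.sum_congr rfl fun b' _ => Finset.sum_congr rfl fun a' _ =>
          Finset.sum_congr rfl fun b _ => ?_
        have : (a - a' = b - b') ↔ (a + b' = a' + b) := by
          rw [sub_eq_sub_iff_add_eq_add, add_comm b a']
        simp only [this]

lemma eng_Q_cs2 (A B : Finset G) :
    eng_Q A B A B ^ 2 ≤ eng_Q A A A A * eng_Q B B B B := by
  have h := eng_cs (A ×ˢ A) (B ×ˢ B) (fun p => p.1 - p.2) (fun p => p.1 - p.2)
  simp only [Finset.sum_product] at h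
  rwa [eng_diff A B, eng_diff A A, eng_diff B B] at h

/-- The energy is the diagonal of the mixed energy. -/
lemma eng_en_eq (F : Finset G) : en F = eng_Q F F F F := by
  classical
  have hfib : ∀ U, (fib F U).card = ∑ x ∈ F, ∑ y ∈ F, if x + y = U then (1 : ℕ) else 0 := by
    intro U
    unfold fib
    rw [Finset.card_filter]
    refine Finset.sum_congr rfl fun x _ => ?_
    by_cases h : U - x ∈ F
    · rw [if_pos h, Finset.sum_eq_single (U - x)]
      · simp
      · intro y _ hy
        rw [if_neg]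
        intro e
        exact hy (by rw [← e]; abel)
      · intro h'
        exact absurd h h'
    · rw [if_neg h]
      symm
      refine Finset.sum_eq_zero fun y hy => ?_
      rw [if_neg]
      intro e
      exact h (by
        have : U - x = y := by rw [← e]; abel
        rw [this]; exact hy)
  unfold en eng_Q
  simp only [pow_two]
  have hstep : ∀ U, (fib F U).card * (fib F U).card
      = ∑ x ∈ F, ∑ y ∈ F, if x + y = U then (fib F (x + y)).card else 0 := by
    intro U
    nth_rewrite 1 [hfib U]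
    rw [Finset.sum_mul]
    refine Finset.sum_congr rfl fun x _ => ?_
    rw [Finset.sum_mul]
    refine Finset.sum_congr rfl fun y _ => ?_
    split_ifs with h
    · rw [h, one_mul]
    · rw [zero_mul]
  simp only [hstep]
  rw [Finset.sum_comm]
  refine Finset.sum_congr rfl fun x hx => ?_
  rw [Finset.sum_comm]
  refine Finset.sum_congr rfl fun y hy => ?_
  rw [Finset.sum_eq_single (x + y)]
  · rw [if_pos rfl, hfib (x + y)]
    refine Finset.sum_congr rfl fun c _ => Finset.sum_congr rfl fun d _ => ?_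
    simp only [eq_comm]
  · intro U _ hU
    rw [if_neg (Ne.symm hU)]
  · intro h
    exact absurd (Finset.add_mem_add hx hy) h

/-- The four-fold Cauchy-Schwarz bound for mixed energies. -/
lemma eng_Q_le (A B C D : Finset G) :
    (eng_Q A B C D : ℝ) ≤ (en A : ℝ) ^ ((1 : ℝ) / 4) * (en B : ℝ) ^ ((1 : ℝ) / 4) *
      (en C : ℝ) ^ ((1 : ℝ) / 4) * (en D : ℝ) ^ ((1 : ℝ) / 4) := by
  have h1 := eng_Q_cs1 A B C D
  have h2 := eng_Q_cs2 A B
  have h3 := eng_Q_cs2 C D
  have h4 : eng_Q A B C D ^ 4 ≤ en A * en B * en C * en D := by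
    rw [eng_en_eq A, eng_en_eq B, eng_en_eq C, eng_en_eq D]
    calc eng_Q A B C D ^ 4 = (eng_Q A B C D ^ 2) ^ 2 := by ring
      _ ≤ (eng_Q A B A B * eng_Q C D C D) ^ 2 := Nat.pow_le_pow_left h1 2
      _ = eng_Q A B A B ^ 2 * eng_Q C D C D ^ 2 := by ring
      _ ≤ (eng_Q A A A A * eng_Q B B B B) * (eng_Q C C C C * eng_Q D D D D) :=
          Nat.mul_le_mul h2 h3
      _ = _ := by ring
  have h5 : ((eng_Q A B C D : ℝ)) ^ 4 ≤ (en A : ℝ) * en B * en C * en D := by exact_mod_cast h4
  have hA : (0 : ℝ) ≤ en A := by positivity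
  have hB : (0 : ℝ) ≤ en B := by positivity
  have hC : (0 : ℝ) ≤ en C := by positivity
  have hD : (0 : ℝ) ≤ en D := by positivity
  have h6 : (en A : ℝ) ^ ((1 : ℝ) / 4) * (en B : ℝ) ^ ((1 : ℝ) / 4) *
      (en C : ℝ) ^ ((1 : ℝ) / 4) * (en D : ℝ) ^ ((1 : ℝ) / 4)
      = ((en A : ℝ) * en B * en C * en D) ^ ((1 : ℝ) / 4) := by
    rw [Real.mul_rpow (by positivity) hD, Real.mul_rpow (by positivity) hC,
      Real.mul_rpow hA hB]
  rw [h6]
  have h7 : (0 : ℝ) ≤ eng_Q A B C D := by positivity
  calc (eng_Q A B C D : ℝ) = ((eng_Q A B C D : ℝ) ^ 4) ^ ((1 : ℝ) / 4) := by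
        rw [← Real.rpow_natCast, ← Real.rpow_mul h7]
        norm_num
    _ ≤ _ := Real.rpow_le_rpow (by positivity) h5 (by norm_num)

/-- Slicing a mixed energy along a map into `T`. -/
lemma eng_Q_slice (F : Finset G) (T : Finset ℤ) (π : G →+ ℤ) (hT : ∀ x ∈ F, π x ∈ T) :
    eng_Q F F F F = ∑ s₁ ∈ T, ∑ s₂ ∈ T, ∑ s₃ ∈ T, ∑ s₄ ∈ T,
      eng_Q (F.filter fun x => π x = s₁) (F.filter fun x => π x = s₂)
        (F.filter fun x => π x = s₃) (F.filter fun x => π x = s₄) := by
  have hfw : ∀ g : G → ℕ, ∑ x ∈ F, g x = ∑ s ∈ T, ∑ x ∈ F.filter (fun x => π x = s), g x :=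
    fun g => (Finset.sum_fiberwise_of_maps_to hT g).symm
  unfold eng_Q
  rw [hfw]
  refine Finset.sum_congr rfl fun s₁ _ => ?_
  have h2 : ∀ a, ∑ b ∈ F, ∑ c ∈ F, ∑ d ∈ F, (if a + b = c + d then (1 : ℕ) else 0)
      = ∑ s₂ ∈ T, ∑ b ∈ F.filter (fun x => π x = s₂), ∑ c ∈ F, ∑ d ∈ F,
        (if a + b = c + d then (1 : ℕ) else 0) := fun a => hfw _
  simp only [h2]
  rw [Finset.sum_comm]
  refine Finset.sum_congr rfl fun s₂ _ => ?_
  have h3 : ∀ a b, ∑ c ∈ F, ∑ d ∈ F, (if a + b = c + d then (1 : ℕ) else 0)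
      = ∑ s₃ ∈ T, ∑ c ∈ F.filter (fun x => π x = s₃), ∑ d ∈ F,
        (if a + b = c + d then (1 : ℕ) else 0) := fun a b => hfw _
  simp only [h3]
  calc _ = ∑ a ∈ F.filter (fun x => π x = s₁), ∑ s₃ ∈ T,
        ∑ b ∈ F.filter (fun x => π x = s₂), ∑ c ∈ F.filter (fun x => π x = s₃), ∑ d ∈ F,
          (if a + b = c + d then (1 : ℕ) else 0) :=
        Finset.sum_congr rfl fun a _ => Finset.sum_comm
    _ = _ := Finset.sum_comm
    _ = _ := by
        refine Finset.sum_congr rfl fun s₃ _ => ?_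
        have h4 : ∀ a b c, ∑ d ∈ F, (if a + b = c + d then (1 : ℕ) else 0)
            = ∑ s₄ ∈ T, ∑ d ∈ F.filter (fun x => π x = s₄),
              (if a + b = c + d then (1 : ℕ) else 0) := fun a b c => hfw _
        simp only [h4]
        calc _ = ∑ a ∈ F.filter (fun x => π x = s₁), ∑ b ∈ F.filter (fun x => π x = s₂),
              ∑ s₄ ∈ T, ∑ c ∈ F.filter (fun x => π x = s₃),
                ∑ d ∈ F.filter (fun x => π x = s₄),
                (if a + b = c + d then (1 : ℕ) else 0) :=
              Finset.sum_congr rfl fun a _ => Finset.sum_congr rfl fun b _ => Finset.sum_comm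
          _ = ∑ a ∈ F.filter (fun x => π x = s₁), ∑ s₄ ∈ T,
                ∑ b ∈ F.filter (fun x => π x = s₂), ∑ c ∈ F.filter (fun x => π x = s₃),
                ∑ d ∈ F.filter (fun x => π x = s₄),
                (if a + b = c + d then (1 : ℕ) else 0) :=
              Finset.sum_congr rfl fun a _ => Finset.sum_comm
          _ = _ := Finset.sum_comm

lemma eng_Q_slice_zero (F : Finset G) (π : G →+ ℤ) (s₁ s₂ s₃ s₄ : ℤ)
    (h : s₁ + s₂ ≠ s₃ + s₄) :
    eng_Q (F.filter fun x => π x = s₁) (F.filter fun x => π x = s₂)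
      (F.filter fun x => π x = s₃) (F.filter fun x => π x = s₄) = 0 := by
  unfold eng_Q
  refine Finset.sum_eq_zero fun a ha => Finset.sum_eq_zero fun b hb =>
    Finset.sum_eq_zero fun c hc => Finset.sum_eq_zero fun d hd => ?_
  rw [if_neg]
  intro e
  apply h
  have := congrArg π e
  rw [map_add, map_add, (Finset.mem_filter.1 ha).2, (Finset.mem_filter.1 hb).2,
    (Finset.mem_filter.1 hc).2, (Finset.mem_filter.1 hd).2] at this
  exact this

/-- The sliced energy bound. -/
lemma eng_en_le_wSum (F : Finset G) (π : G →+ ℤ) :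
    (en F : ℝ) ≤ wSum (F.image π)
      (fun s => (en (F.filter fun x => π x = s) : ℝ) ^ ((1 : ℝ) / 4)) := by
  classical
  set T := F.image π with hT
  have hmem : ∀ x ∈ F, π x ∈ T := fun x hx => Finset.mem_image_of_mem _ hx
  rw [eng_en_eq, eng_Q_slice F T π hmem]
  unfold wSum
  push_cast
  refine Finset.sum_le_sum fun s₁ _ => Finset.sum_le_sum fun s₂ _ =>
    Finset.sum_le_sum fun s₃ _ => Finset.sum_le_sum fun s₄ _ => ?_
  split_ifs with h
  · exact eng_Q_le _ _ _ _
  · rw [eng_Q_slice_zero F π s₁ s₂ s₃ s₄ h]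
    simp

end General

section Main

variable {G : Type*} [AddCommGroup G] [DecidableEq G] {ι : Type*}

/-- The energy theorem. -/
theorem energy_le (S : Finset ι) (π : ι → G →+ ℤ) (F : Finset G) (M : ℕ) (hM : 2 ≤ M)
    (hinj : ∀ x ∈ F, ∀ y ∈ F, (∀ c ∈ S, π c x = π c y) → x = y)
    (hrange : ∀ c ∈ S, (F.image (π c)).card ≤ M) :
    (en F : ℝ) ≤ (F.card : ℝ) ^ (3 - gam M) := by
  classical
  obtain ⟨g0, g1, g2⟩ := yw_gam M hM
  set γ := gam M with hγ
  have h3 : 0 < 3 - γ := by linarith
  induction S using Finset.induction_on generalizing F with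
  | empty =>
    have hF : ∀ x ∈ F, ∀ y ∈ F, x = y := fun x hx y hy => hinj x hx y hy (by simp)
    rcases F.eq_empty_or_nonempty with rfl | ⟨x, hx⟩
    · simp only [en, Finset.add_empty, Finset.sum_empty, Nat.cast_zero, Finset.card_empty]
      exact Real.rpow_nonneg le_rfl _
    · have hFx : F = {x} := by
        ext y
        simp only [Finset.mem_singleton]
        exact ⟨fun hy => hF y hy x hx, fun hy => hy ▸ hx⟩
      subst hFx
      have : en ({x} : Finset G) = 1 := by
        have hfib : fib ({x} : Finset G) (x + x) = {x} := by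
          ext y
          simp only [fib, Finset.mem_filter, Finset.mem_singleton]
          constructor
          · exact fun h => h.1
          · intro h
            subst h
            simp
        simp [en, hfib]
      rw [this]
      simp
  | insert c S' hc ih =>
    set T := F.image (π c) with hT
    have hTM : T.card ≤ M := hrange c (Finset.mem_insert_self _ _)
    set a : ℤ → ℝ := fun s => (en (F.filter fun x => π c x = s) : ℝ) ^ ((1 : ℝ) / 4) with ha
    have ha0 : ∀ s, 0 ≤ a s := fun s => Real.rpow_nonneg (by positivity) _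
    have hslice := eng_en_le_wSum F (π c)
    have hW := lemmaW T M hM hTM a ha0
    refine hslice.trans (hW.trans ?_)
    have hIH : ∀ s, a s ^ (4 / (3 - γ)) ≤ ((F.filter fun x => π c x = s).card : ℝ) := by
      intro s
      set Fs := F.filter fun x => π c x = s with hFs
      have hsub : Fs ⊆ F := Finset.filter_subset _ _
      have h5 := ih Fs
        (fun x hx y hy hxy => hinj x (hsub hx) y (hsub hy) (by
          intro d hd
          rcases Finset.mem_insert.1 hd with rfl | hd'
          · rw [(Finset.mem_filter.1 hx).2, (Finset.mem_filter.1 hy).2]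
          · exact hxy d hd'))
        (fun d hd => (Finset.card_le_card (Finset.image_subset_image hsub)).trans
          (hrange d (Finset.mem_insert_of_mem hd)))
      have h6 : (0 : ℝ) ≤ en Fs := by positivity
      have h7 : (0 : ℝ) ≤ Fs.card := by positivity
      simp only [ha]
      rw [← Real.rpow_mul h6]
      have e : (1 : ℝ) / 4 * (4 / (3 - γ)) = 1 / (3 - γ) := by field_simp
      rw [e]
      calc (en Fs : ℝ) ^ (1 / (3 - γ))
          ≤ ((Fs.card : ℝ) ^ (3 - γ)) ^ (1 / (3 - γ)) :=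
            Real.rpow_le_rpow h6 h5 (by positivity)
        _ = Fs.card := by
            rw [← Real.rpow_mul h7]
            have : (3 - γ) * (1 / (3 - γ)) = 1 := by field_simp
            rw [this, Real.rpow_one]
    have hsum : ∑ s ∈ T, a s ^ (4 / (3 - γ)) ≤ (F.card : ℝ) := by
      have hc2 : (F.card : ℝ) = ∑ s ∈ T, ((F.filter fun x => π c x = s).card : ℝ) := by
        have := Finset.card_eq_sum_card_fiberwise (s := F) (t := T) (f := π c)
          (fun x hx => Finset.mem_image_of_mem _ hx)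
        exact_mod_cast this
      rw [hc2]
      exact Finset.sum_le_sum fun s _ => hIH s
    exact Real.rpow_le_rpow (Finset.sum_nonneg fun s _ => Real.rpow_nonneg (ha0 s) _) hsum h3.le

end Main

end

end Vale.Agent.Lib.P328Q
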