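import Vale.Agent.Lib.P328Q.Basic

/-!
The potential `phi`: monotonicity, the closed form bound and the one step inequality of the recursion.
-/

namespace Vale.Agent.Lib.P328Q

open Finset

noncomputable section

section PartP

variable {γ : ℝ}

theorem pot_log_four_pos : 0 < Real.log 4 := Real.log_pos (by norm_num)

theorem pot_L0_pos (h0 : 0 < γ) : 0 < L0 γ := by
  unfold L0
  have := pot_log_four_pos
  positivity

theorem pot_L0_ge (h0 : 0 < γ) (h1 : γ ≤ 1) : 4 * Real.log 4 ≤ L0 γ := by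
  unfold L0
  have := pot_log_four_pos
  rw [le_div_iff₀ h0]
  nlinarith

theorem pot_gamma_L0 (h0 : 0 < γ) : γ * L0 γ / 4 = Real.log 4 := by
  unfold L0
  field_simp

theorem pot_rho_pos (h1 : γ ≤ 1) : 0 < 1 - γ / 4 := by linarith

theorem pot_rho_lt (h0 : 0 < γ) : 1 - γ / 4 < 1 := by linarith

theorem pot_lvl_nonempty (h0 : 0 < γ) (h1 : γ ≤ 1) (f : ℕ) :
    {k : ℕ | Real.log f * (1 - γ / 4) ^ k ≤ L0 γ}.Nonempty := by
  have hL := pot_L0_pos h0
  by_cases hx : Real.log f ≤ 0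
  · refine ⟨0, ?_⟩
    simp only [Set.mem_ofPred_eq, pow_zero, mul_one]
    linarith
  · push Not at hx
    obtain ⟨n, hn⟩ := exists_pow_lt_of_lt_one (div_pos hL hx) (pot_rho_lt h0)
    refine ⟨n, ?_⟩
    simp only [Set.mem_ofPred_eq]
    rw [lt_div_iff₀ hx] at hn
    nlinarith

theorem pot_lvl_mem (h0 : 0 < γ) (h1 : γ ≤ 1) (f : ℕ) :
    Real.log f * (1 - γ / 4) ^ lvl γ f ≤ L0 γ :=
  Nat.sInf_mem (pot_lvl_nonempty h0 h1 f)

theorem pot_lvl_le (f k : ℕ) (h : Real.log f * (1 - γ / 4) ^ k ≤ L0 γ) : lvl γ f ≤ k :=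
  Nat.sInf_le h

theorem pot_not_of_lt (f k : ℕ) (h : k < lvl γ f) : ¬ (Real.log f * (1 - γ / 4) ^ k ≤ L0 γ) :=
  fun h' => absurd (pot_lvl_le f k h') (by omega)

theorem pot_lvl_pos (h0 : 0 < γ) (h1 : γ ≤ 1) (f : ℕ) (h : L0 γ < Real.log f) : 1 ≤ lvl γ f := by
  by_contra hk
  have h0' : lvl γ f = 0 := by omega
  have := pot_lvl_mem h0 h1 f
  rw [h0', pow_zero, mul_one] at this
  linarith

theorem pot_phi_small {f : ℕ} (h : Real.log f ≤ L0 γ) : phi γ f = (f : ℝ) ^ 100 := by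
  unfold phi; rw [if_pos h]

theorem pot_phi_large {f : ℕ} (h : L0 γ < Real.log f) :
    phi γ f = Real.exp (100 * L0 γ) * 4 ^ lvl γ f := by
  unfold phi; rw [if_neg (not_le.mpr h)]

theorem pot_small_le (h0 : 0 < γ) {f : ℕ} (h : Real.log f ≤ L0 γ) :
    (f : ℝ) ^ 100 ≤ Real.exp (100 * L0 γ) := by
  rcases Nat.eq_zero_or_pos f with rfl | hf
  · simp [Real.exp_pos, le_of_lt]
  · have hf' : (0 : ℝ) < (f : ℝ) := by exact_mod_cast hf
    have h1 : (f : ℝ) ≤ Real.exp (L0 γ) := by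
      rw [← Real.exp_log hf']
      exact Real.exp_le_exp.mpr h
    have h2 : Real.exp (100 * L0 γ) = Real.exp (L0 γ) ^ 100 := by
      rw [← Real.exp_nat_mul]; norm_num
    rw [h2]
    exact pow_le_pow_left₀ hf'.le h1 100

theorem pot_log_mono {f f' : ℕ} (h : f ≤ f') (h' : 1 ≤ f) : Real.log f ≤ Real.log f' := by
  apply Real.log_le_log
  · exact_mod_cast h'
  · exact_mod_cast h

theorem pot_log_nat_nonneg (f : ℕ) : 0 ≤ Real.log f := Real.log_natCast_nonneg f

theorem phi_nonneg (γ : ℝ) (_h0 : 0 < γ) (f : ℕ) : 0 ≤ phi γ f := by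
  unfold phi
  split_ifs
  · positivity
  · positivity

theorem phi_mono (γ : ℝ) (h0 : 0 < γ) (h1 : γ ≤ 1) {f f' : ℕ} (h : f ≤ f') :
    phi γ f ≤ phi γ f' := by
  rcases Nat.eq_zero_or_pos f with rfl | hf
  · have hL := pot_L0_pos h0
    have : phi γ 0 = 0 := by
      rw [pot_phi_small (by simpa using hL.le)]
      norm_num
    rw [this]
    exact phi_nonneg γ h0 f'
  · have hlog := pot_log_mono h hf
    by_cases h2 : Real.log f' ≤ L0 γ
    · rw [pot_phi_small (hlog.trans h2), pot_phi_small h2]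
      have : (f : ℝ) ≤ (f' : ℝ) := by exact_mod_cast h
      exact pow_le_pow_left₀ (by positivity) this 100
    · push Not at h2
      rw [pot_phi_large h2]
      by_cases h3 : Real.log f ≤ L0 γ
      · rw [pot_phi_small h3]
        have h4 := pot_small_le h0 h3
        have h5 : (1 : ℝ) ≤ 4 ^ lvl γ f' := one_le_pow₀ (by norm_num)
        have h6 := Real.exp_pos (100 * L0 γ)
        nlinarith
      · push Not at h3
        rw [pot_phi_large h3]
        have hk : lvl γ f ≤ lvl γ f' := by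
          apply pot_lvl_le
          have h7 := pot_lvl_mem h0 h1 f'
          have h8 : 0 ≤ (1 - γ / 4) ^ lvl γ f' := pow_nonneg (pot_rho_pos h1).le _
          nlinarith
        have h9 : (4 : ℝ) ^ lvl γ f ≤ 4 ^ lvl γ f' := pow_le_pow_right₀ (by norm_num) hk
        exact mul_le_mul_of_nonneg_left h9 (Real.exp_pos _).le

theorem phi_two (γ : ℝ) (h0 : 0 < γ) (h1 : γ ≤ 1) : 1 ≤ phi γ 2 := by
  have hL := pot_L0_ge h0 h1
  have hl4 := pot_log_four_pos
  have h2 : Real.log ((2 : ℕ) : ℝ) ≤ L0 γ := by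
    have h3 : Real.log ((2 : ℕ) : ℝ) ≤ Real.log 4 := by
      apply Real.log_le_log <;> norm_num
    linarith
  rw [pot_phi_small h2]
  norm_num

/-- The small regime of the step. -/
theorem pot_step_small (hs0 : 0 < γ) (h1 : γ ≤ 1) (f : ℕ) (hf : 3 ≤ f) (hsmall : Real.log f ≤ L0 γ)
    {ι : Type*} (s : Finset ι)
    (gv : ι → ℕ) (hcard : s.card ≤ f) (hle : ∀ i ∈ s, gv i ≤ f)
    (htop : (s.filter fun i => gv i = f).card ≤ 1)
    (hap : ((s.filter fun i => gv i ≠ f ∧ 31 / 32 * (f : ℝ) ≤ (gv i : ℝ)).card : ℝ) ≤ (f : ℝ) / 4) :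
    2 / (f : ℝ) * ∑ i ∈ s, phi γ (gv i) ≤ phi γ f := by
  classical
  have hfpos : (0 : ℝ) < (f : ℝ) := by exact_mod_cast (by omega : 0 < f)
  have hf3 : (3 : ℝ) ≤ (f : ℝ) := by exact_mod_cast hf
  have hP : (0 : ℝ) < (f : ℝ) ^ 100 := by positivity
  rw [pot_phi_small hsmall]
  have hval : ∀ i ∈ s, phi γ (gv i) = (gv i : ℝ) ^ 100 := by
    intro i hi
    apply pot_phi_small
    rcases Nat.eq_zero_or_pos (gv i) with h | h
    · rw [h]; simpa using (pot_L0_pos hs0).le
    · exact (pot_log_mono (hle i hi) h).trans hsmall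
  rw [Finset.sum_congr rfl hval]
  have htopR : ((s.filter fun i => gv i = f).card : ℝ) ≤ 1 := by exact_mod_cast htop
  have hsR : (s.card : ℝ) ≤ (f : ℝ) := by exact_mod_cast hcard
  have hs0' : (0 : ℝ) ≤ (s.card : ℝ) := Nat.cast_nonneg _
  -- the two sharp low cases
  by_cases hlow : f = 3 ∨ f = 4
  · have hbound : ∀ i ∈ s, (gv i : ℝ) ^ 100 ≤
        (if gv i = f then (f : ℝ) ^ 100 else 0) + ((f : ℝ) - 1) ^ 100 := by
      intro i hi
      have hQ : (0 : ℝ) ≤ ((f : ℝ) - 1) ^ 100 := by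
        apply pow_nonneg; linarith
      by_cases h : gv i = f
      · rw [if_pos h, h]; linarith
      · rw [if_neg h, zero_add]
        have hlt : gv i + 1 ≤ f := by
          have := hle i hi
          omega
        have hlt' : (gv i : ℝ) ≤ (f : ℝ) - 1 := by
          have : ((gv i + 1 : ℕ) : ℝ) ≤ (f : ℝ) := by exact_mod_cast hlt
          push_cast at this
          linarith
        exact pow_le_pow_left₀ (Nat.cast_nonneg _) hlt' 100
    have hsum := Finset.sum_le_sum hbound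
    rw [Finset.sum_add_distrib, Finset.sum_ite, Finset.sum_const_zero, add_zero,
      Finset.sum_const, Finset.sum_const, nsmul_eq_mul, nsmul_eq_mul] at hsum
    have hQ : (0 : ℝ) ≤ ((f : ℝ) - 1) ^ 100 := by
      apply pow_nonneg; linarith
    have hsum2 : ∑ i ∈ s, (gv i : ℝ) ^ 100 ≤ (f : ℝ) ^ 100 + (f : ℝ) * ((f : ℝ) - 1) ^ 100 := by
      have e1 : ((s.filter fun i => gv i = f).card : ℝ) * (f : ℝ) ^ 100 ≤ 1 * (f : ℝ) ^ 100 :=
        mul_le_mul_of_nonneg_right htopR hP.le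
      have e2 : (s.card : ℝ) * ((f : ℝ) - 1) ^ 100 ≤ (f : ℝ) * ((f : ℝ) - 1) ^ 100 :=
        mul_le_mul_of_nonneg_right hsR hQ
      linarith
    have h2f : (0 : ℝ) ≤ 2 / (f : ℝ) := by positivity
    have hmul := mul_le_mul_of_nonneg_left hsum2 h2f
    refine hmul.trans ?_
    rcases hlow with rfl | rfl
    · norm_num
    · norm_num
  · have hf5 : 5 ≤ f := by omega
    have hf5R : (5 : ℝ) ≤ (f : ℝ) := by exact_mod_cast hf5
    set c : ℝ := (31 / 32 : ℝ) ^ 100 with hc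
    have hc0 : 0 ≤ c := by positivity
    have hc1 : c ≤ 1 / 20 := by rw [hc]; norm_num
    have hbound : ∀ i ∈ s, (gv i : ℝ) ^ 100 ≤
        (if gv i = f then (f : ℝ) ^ 100 else 0) +
        ((if gv i ≠ f ∧ 31 / 32 * (f : ℝ) ≤ (gv i : ℝ) then (f : ℝ) ^ 100 else 0) +
          c * (f : ℝ) ^ 100) := by
      intro i hi
      have hcP : 0 ≤ c * (f : ℝ) ^ 100 := by positivity
      have hleR : (gv i : ℝ) ≤ (f : ℝ) := by exact_mod_cast hle i hi
      have hleP : (gv i : ℝ) ^ 100 ≤ (f : ℝ) ^ 100 := pow_le_pow_left₀ (Nat.cast_nonneg _) hleR 100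
      by_cases h : gv i = f
      · rw [if_pos h, if_neg (by simp [h])]; linarith
      · rw [if_neg h]
        by_cases h' : 31 / 32 * (f : ℝ) ≤ (gv i : ℝ)
        · rw [if_pos ⟨h, h'⟩]; linarith
        · rw [if_neg (fun hh => h' hh.2)]
          push Not at h'
          have : (gv i : ℝ) ^ 100 ≤ (31 / 32 * (f : ℝ)) ^ 100 :=
            pow_le_pow_left₀ (Nat.cast_nonneg _) h'.le 100
          rw [mul_pow, ← hc] at this
          linarith
    have hsum := Finset.sum_le_sum hbound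
    rw [Finset.sum_add_distrib, Finset.sum_add_distrib, Finset.sum_ite, Finset.sum_ite,
      Finset.sum_const_zero, Finset.sum_const_zero, add_zero, add_zero,
      Finset.sum_const, Finset.sum_const, Finset.sum_const, nsmul_eq_mul, nsmul_eq_mul,
      nsmul_eq_mul] at hsum
    have e1 : ((s.filter fun i => gv i = f).card : ℝ) * (f : ℝ) ^ 100 ≤ 1 * (f : ℝ) ^ 100 :=
      mul_le_mul_of_nonneg_right htopR hP.le
    have e2 := mul_le_mul_of_nonneg_right hap hP.le
    have e3 : (s.card : ℝ) * (c * (f : ℝ) ^ 100) ≤ (f : ℝ) * (c * (f : ℝ) ^ 100) :=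
      mul_le_mul_of_nonneg_right hsR (by positivity)
    have hsum2 : ∑ i ∈ s, (gv i : ℝ) ^ 100 ≤
        (1 + (f : ℝ) / 4 + (f : ℝ) * c) * (f : ℝ) ^ 100 := by
      nlinarith
    have hcoef : 2 / (f : ℝ) * ((1 + (f : ℝ) / 4 + (f : ℝ) * c)) ≤ 1 := by
      have : 2 / (f : ℝ) * ((1 + (f : ℝ) / 4 + (f : ℝ) * c)) = 2 / (f : ℝ) + 1 / 2 + 2 * c := by
        field_simp
        ring
      rw [this]
      have h25 : 2 / (f : ℝ) ≤ 2 / 5 := by
        apply div_le_div_of_nonneg_left (by norm_num) (by norm_num) hf5R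
      linarith
    have h2f : (0 : ℝ) ≤ 2 / (f : ℝ) := by positivity
    calc 2 / (f : ℝ) * ∑ i ∈ s, (gv i : ℝ) ^ 100
        ≤ 2 / (f : ℝ) * ((1 + (f : ℝ) / 4 + (f : ℝ) * c) * (f : ℝ) ^ 100) :=
          mul_le_mul_of_nonneg_left hsum2 h2f
      _ = (2 / (f : ℝ) * ((1 + (f : ℝ) / 4 + (f : ℝ) * c))) * (f : ℝ) ^ 100 := by ring
      _ ≤ 1 * (f : ℝ) ^ 100 := mul_le_mul_of_nonneg_right hcoef hP.le
      _ = (f : ℝ) ^ 100 := one_mul _

/-- The large regime of the step. -/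
theorem pot_step_large (h0 : 0 < γ) (h1 : γ ≤ 1) (f : ℕ) (hlarge : L0 γ < Real.log f)
    {ι : Type*} (s : Finset ι)
    (gv : ι → ℕ) (hcard : s.card ≤ f) (hle : ∀ i ∈ s, gv i ≤ f)
    (hen : ∀ τ : ℝ, 0 ≤ τ → ((s.filter fun i => Real.exp (-τ) * (f : ℝ) ≤ (gv i : ℝ)).card : ℝ) ≤
      Real.exp τ * (f : ℝ) ^ (1 - γ / 2)) :
    2 / (f : ℝ) * ∑ i ∈ s, phi γ (gv i) ≤ phi γ f := by
  classical
  have hL0 := pot_L0_pos h0
  have hLpos : 0 < Real.log f := hL0.trans hlarge
  have hfpos : (0 : ℝ) < (f : ℝ) := by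
    rcases Nat.eq_zero_or_pos f with rfl | hf
    · simp at hLpos
    · exact_mod_cast hf
  set L := Real.log f with hL
  set k := lvl γ f with hk
  have hk1 : 1 ≤ k := pot_lvl_pos h0 h1 f hlarge
  set A := Real.exp (100 * L0 γ) with hA
  have hApos : 0 < A := Real.exp_pos _
  set P : ℝ := (4 : ℝ) ^ (k - 1) with hP
  have hPpos : 0 < P := by positivity
  have hP1 : (1 : ℝ) ≤ P := one_le_pow₀ (by norm_num)
  have h4k : (4 : ℝ) ^ k = 4 * P := by
    rw [hP, ← pow_succ']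
    congr 1
    omega
  have hphif : phi γ f = A * (4 * P) := by
    rw [pot_phi_large hlarge, h4k]
  set τ := γ * L / 4 with hτ
  have hτ0 : 0 ≤ τ := by positivity
  -- the bad set
  set Bad := s.filter fun i => Real.exp (-τ) * (f : ℝ) ≤ (gv i : ℝ) with hBad
  have hBadc : (Bad.card : ℝ) ≤ (f : ℝ) / 4 := by
    have h2 := hen τ hτ0
    refine h2.trans ?_
    have h3 : (f : ℝ) ^ (1 - γ / 2) = Real.exp (L * (1 - γ / 2)) := by
      rw [Real.rpow_def_of_pos hfpos]
    rw [h3, ← Real.exp_add]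
    have h4 : τ + L * (1 - γ / 2) = L + (-τ) := by
      rw [hτ]; ring
    rw [h4, Real.exp_add, Real.exp_log hfpos]
    have h5 : Real.exp (-τ) ≤ 1 / 4 := by
      have h6 : Real.log 4 ≤ τ := by
        have h7 := pot_gamma_L0 h0
        rw [← h7, hτ]
        have : γ * L0 γ ≤ γ * L := mul_le_mul_of_nonneg_left hlarge.le h0.le
        linarith
      have h8 : Real.exp (-τ) ≤ Real.exp (-Real.log 4) := Real.exp_le_exp.mpr (by linarith)
      rw [Real.exp_neg (Real.log 4), Real.exp_log (by norm_num : (0 : ℝ) < 4)] at h8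
      simpa using h8
    nlinarith
  -- the bound on each term
  have hbound : ∀ i ∈ s, phi γ (gv i) ≤
      (if Real.exp (-τ) * (f : ℝ) ≤ (gv i : ℝ) then A * (4 * P) else 0) + A * P := by
    intro i hi
    have hAP : 0 < A * P := by positivity
    by_cases hb : Real.exp (-τ) * (f : ℝ) ≤ (gv i : ℝ)
    · rw [if_pos hb]
      have := phi_mono γ h0 h1 (hle i hi)
      rw [hphif] at this
      linarith
    · rw [if_neg hb, zero_add]
      push Not at hb
      by_cases hs : Real.log (gv i) ≤ L0 γ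
      · rw [pot_phi_small hs]
        have h2 := pot_small_le h0 hs
        have : A ≤ A * P := le_mul_of_one_le_right hApos.le hP1
        linarith
      · push Not at hs
        rw [pot_phi_large hs]
        have hgpos : (0 : ℝ) < (gv i : ℝ) := by
          rcases Nat.eq_zero_or_pos (gv i) with h | h
          · rw [h] at hs
            simp at hs
            linarith
          · exact_mod_cast h
        have hlogg : Real.log (gv i) ≤ L * (1 - γ / 4) := by
          have h3 : Real.log (gv i) ≤ Real.log (Real.exp (-τ) * (f : ℝ)) :=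
            Real.log_le_log hgpos hb.le
          rw [Real.log_mul (Real.exp_pos _).ne' hfpos.ne', Real.log_exp] at h3
          have : L * (1 - γ / 4) = -τ + L := by rw [hτ]; ring
          rw [this]
          exact h3
        have hlv : lvl γ (gv i) ≤ k - 1 := by
          apply pot_lvl_le
          have hmem := pot_lvl_mem h0 h1 f
          have hρ : 0 ≤ (1 - γ / 4) ^ (k - 1) := pow_nonneg (pot_rho_pos h1).le _
          have h5 : (1 - γ / 4) ^ k = (1 - γ / 4) * (1 - γ / 4) ^ (k - 1) := by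
            rw [← pow_succ']
            congr 1
            omega
          have h6 : Real.log (gv i) * (1 - γ / 4) ^ (k - 1) ≤
              L * (1 - γ / 4) * (1 - γ / 4) ^ (k - 1) := mul_le_mul_of_nonneg_right hlogg hρ
          have h7 : L * (1 - γ / 4) * (1 - γ / 4) ^ (k - 1) = L * (1 - γ / 4) ^ k := by
            rw [h5]; ring
          rw [h7] at h6
          exact h6.trans hmem
        have h9 : (4 : ℝ) ^ lvl γ (gv i) ≤ P := pow_le_pow_right₀ (by norm_num) hlv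
        exact mul_le_mul_of_nonneg_left h9 hApos.le
  have hsum := Finset.sum_le_sum hbound
  rw [Finset.sum_add_distrib, Finset.sum_ite, Finset.sum_const_zero, add_zero,
    Finset.sum_const, Finset.sum_const, nsmul_eq_mul, nsmul_eq_mul] at hsum
  have hsR : (s.card : ℝ) ≤ (f : ℝ) := by exact_mod_cast hcard
  have e1 : (s.card : ℝ) * (A * P) ≤ (f : ℝ) * (A * P) :=
    mul_le_mul_of_nonneg_right hsR (by positivity)
  have e2 : (Bad.card : ℝ) * (A * (4 * P)) ≤ (f : ℝ) / 4 * (A * (4 * P)) :=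
    mul_le_mul_of_nonneg_right hBadc (by positivity)
  have hsum2 : ∑ i ∈ s, phi γ (gv i) ≤ (f : ℝ) * (2 * (A * P)) := by
    have e3 : (f : ℝ) / 4 * (A * (4 * P)) = (f : ℝ) * (A * P) := by ring
    have e4 : (f : ℝ) * (2 * (A * P)) = (f : ℝ) * (A * P) + (f : ℝ) * (A * P) := by ring
    rw [e4]
    linarith
  rw [hphif]
  have h2f : (0 : ℝ) ≤ 2 / (f : ℝ) := by positivity
  calc 2 / (f : ℝ) * ∑ i ∈ s, phi γ (gv i)
      ≤ 2 / (f : ℝ) * ((f : ℝ) * (2 * (A * P))) := mul_le_mul_of_nonneg_left hsum2 h2f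
    _ = A * (4 * P) := by field_simp; ring

theorem phi_step (γ : ℝ) (h0 : 0 < γ) (h1 : γ ≤ 1) (f : ℕ) (hf : 3 ≤ f) {ι : Type*} (s : Finset ι)
    (gv : ι → ℕ) (hcard : s.card ≤ f) (hle : ∀ i ∈ s, gv i ≤ f)
    (htop : (s.filter fun i => gv i = f).card ≤ 1)
    (hap : ((s.filter fun i => gv i ≠ f ∧ 31 / 32 * (f : ℝ) ≤ (gv i : ℝ)).card : ℝ) ≤ (f : ℝ) / 4)
    (hen : ∀ τ : ℝ, 0 ≤ τ → ((s.filter fun i => Real.exp (-τ) * (f : ℝ) ≤ (gv i : ℝ)).card : ℝ) ≤
      Real.exp τ * (f : ℝ) ^ (1 - γ / 2)) :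
    2 / (f : ℝ) * ∑ i ∈ s, phi γ (gv i) ≤ phi γ f := by
  by_cases hs : Real.log f ≤ L0 γ
  · exact pot_step_small h0 h1 f hf hs s gv hcard hle htop hap
  · exact pot_step_large h0 h1 f (not_le.mp hs) s gv hcard hle hen

/-- Closed form bound, before inserting `γ = gam M`. -/
theorem phi_le (γ : ℝ) (h0 : 0 < γ) (h1 : γ ≤ 1) (f : ℕ) (L : ℝ) (hL : 1 ≤ L)
    (hfL : Real.log f ≤ L * L0 γ) :
    phi γ f ≤ 4 * Real.exp (100 * L0 γ) * 4 ^ (4 / γ * Real.log L) := by
  have hL0 := pot_L0_pos h0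
  have hlogL : 0 ≤ Real.log L := Real.log_nonneg hL
  have hLpos : 0 < L := by linarith
  have hexp := Real.exp_pos (100 * L0 γ)
  by_cases hs : Real.log f ≤ L0 γ
  · rw [pot_phi_small hs]
    have h2 := pot_small_le h0 hs
    have h3 : (1 : ℝ) ≤ 4 ^ (4 / γ * Real.log L) :=
      Real.one_le_rpow (by norm_num) (by positivity)
    nlinarith
  · push Not at hs
    rw [pot_phi_large hs]
    set k := lvl γ f with hk
    have hk1 : 1 ≤ k := pot_lvl_pos h0 h1 f hs
    have hnot := pot_not_of_lt (γ := γ) f (k - 1) (by omega)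
    push Not at hnot
    have hρ := pot_rho_pos h1
    set ρ := 1 - γ / 4 with hρdef
    have hρk : 0 < ρ ^ (k - 1) := pow_pos hρ _
    have h2 : L0 γ < L * L0 γ * ρ ^ (k - 1) := by
      refine hnot.trans_le ?_
      exact mul_le_mul_of_nonneg_right hfL hρk.le
    have h3 : 1 < L * ρ ^ (k - 1) := by
      have h4 : L0 γ * 1 < L0 γ * (L * ρ ^ (k - 1)) := by
        rw [mul_one]
        have : L0 γ * (L * ρ ^ (k - 1)) = L * L0 γ * ρ ^ (k - 1) := by ring
        rw [this]; exact h2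
      exact lt_of_mul_lt_mul_left h4 hL0.le
    have h5 : 0 < Real.log (L * ρ ^ (k - 1)) := Real.log_pos h3
    rw [Real.log_mul hLpos.ne' hρk.ne', Real.log_pow] at h5
    have h6 : Real.log ρ ≤ -(γ / 4) := by
      have := Real.log_le_sub_one_of_pos hρ
      rw [hρdef] at this ⊢
      linarith
    have hk' : (0 : ℝ) ≤ ((k - 1 : ℕ) : ℝ) := Nat.cast_nonneg _
    have h7 : ((k - 1 : ℕ) : ℝ) * Real.log ρ ≤ ((k - 1 : ℕ) : ℝ) * (-(γ / 4)) :=
      mul_le_mul_of_nonneg_left h6 hk'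
    have h8 : ((k - 1 : ℕ) : ℝ) ≤ 4 / γ * Real.log L := by
      have h9 : ((k - 1 : ℕ) : ℝ) * (γ / 4) ≤ Real.log L := by linarith
      rw [div_mul_eq_mul_div, le_div_iff₀ h0]
      linarith
    have h10 : (4 : ℝ) ^ (k - 1) ≤ 4 ^ (4 / γ * Real.log L) := by
      rw [← Real.rpow_natCast]
      exact Real.rpow_le_rpow_of_exponent_le (by norm_num) h8
    have h11 : (4 : ℝ) ^ k = 4 * 4 ^ (k - 1) := by
      rw [← pow_succ']
      congr 1
      omega
    rw [h11]
    have h12 : Real.exp (100 * L0 γ) * (4 * 4 ^ (k - 1)) =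
        4 * Real.exp (100 * L0 γ) * 4 ^ (k - 1) := by ring
    rw [h12]
    exact mul_le_mul_of_nonneg_left h10 (by positivity)

end PartP

end

end Vale.Agent.Lib.P328Q
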