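import Vale.Agent.Lib.P328U.Ivt

/-!
Two-point central slices: the two tables differ by one simple cycle, which is flipped by `2 x 2` moves
through near tables with a fixed pivot row.
-/

namespace Vale.Agent.Lib.P328Q

open Finset

noncomputable section

variable {m n : ℕ}

/-- The partial flip: columns `b s` with `k < s` are flipped, column `b k` has lost the entry `-1`. -/
def tpP (l : ℕ) (a : ℕ → Fin m) (b : ℕ → Fin n) (k : ℕ) : Mat m n := fun i j =>
  ∑ s ∈ range l, if j = b s then
    ((if k < s ∧ i = a s then (1 : ℤ) else 0) - (if k ≤ s ∧ i = a (s + 1) then (1 : ℤ) else 0)) else 0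

section Seq
variable {l : ℕ} {a : ℕ → Fin m} {b : ℕ → Fin n}

theorem tpP_col (hb : ∀ s < l, ∀ t < l, b s = b t → s = t) (k s : ℕ) (hs : s < l) (i : Fin m) :
    tpP l a b k i (b s) =
      (if k < s ∧ i = a s then (1 : ℤ) else 0) - (if k ≤ s ∧ i = a (s + 1) then (1 : ℤ) else 0) := by
  unfold tpP
  rw [sum_eq_single s]
  · simp
  · intro t ht hts
    rw [if_neg]
    intro h
    exact hts (hb t (mem_range.1 ht) s hs h.symm)
  · intro h
    exact absurd (mem_range.2 hs) h

theorem tpP_off (k : ℕ) (i : Fin m) (j : Fin n) (hj : ∀ s < l, j ≠ b s) : tpP l a b k i j = 0 := by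
  unfold tpP
  refine sum_eq_zero fun s hs => ?_
  rw [if_neg (hj s (mem_range.1 hs))]

theorem tp_sum_aux (A : ℕ → ℤ) {k : ℕ} (hk : k < l) :
    ∑ s ∈ range l, ((if k < s then A s else 0) - (if k ≤ s then A (s + 1) else 0)) = - A l := by
  rw [sum_sub_distrib, ← sum_filter, ← sum_filter]
  have h1 : (range l).filter (fun s => k < s) = Ico (k + 1) l := by
    ext s
    simp only [mem_filter, mem_range, mem_Ico]
    omega
  have h2 : (range l).filter (fun s => k ≤ s) = Ico k l := by
    ext s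
    simp only [mem_filter, mem_range, mem_Ico]
    omega
  rw [h1, h2, sum_Ico_add' A k l 1, sum_Ico_succ_top (by omega : k + 1 ≤ l)]
  ring

theorem tpP_row {k : ℕ} (hk : k < l) (hl : a l = a 0) (i : Fin m) :
    rowSum (tpP l a b k) i = - (if i = a 0 then (1 : ℤ) else 0) := by
  unfold rowSum tpP
  rw [sum_comm]
  have h1 : ∀ s ∈ range l, ∑ j : Fin n, (if j = b s then
      ((if k < s ∧ i = a s then (1 : ℤ) else 0) - (if k ≤ s ∧ i = a (s + 1) then (1 : ℤ) else 0))
        else 0) =
      ((if k < s then (if i = a s then (1 : ℤ) else 0) else 0) -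
        (if k ≤ s then (if i = a (s + 1) then (1 : ℤ) else 0) else 0)) := by
    intro s _
    rw [sum_ite_eq' univ (b s)]
    simp only [mem_univ, if_true]
    by_cases h1 : k < s <;> by_cases h2 : k ≤ s <;> simp [h1, h2]
  rw [sum_congr rfl h1]
  rw [tp_sum_aux (fun s => if i = a s then (1 : ℤ) else 0) hk, hl]

theorem tpP_column (hb : ∀ s < l, ∀ t < l, b s = b t → s = t) {k : ℕ} (hk : k < l) (j : Fin n) :
    colSum (tpP l a b k) j = - (if j = b k then (1 : ℤ) else 0) := by
  unfold colSum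
  by_cases hj : ∃ s < l, j = b s
  · obtain ⟨s, hs, rfl⟩ := hj
    simp only [tpP_col hb k s hs]
    rw [sum_sub_distrib]
    have e1 : ∑ i : Fin m, (if k < s ∧ i = a s then (1 : ℤ) else 0) = if k < s then 1 else 0 := by
      by_cases h : k < s <;> simp [h]
    have e2 : ∑ i : Fin m, (if k ≤ s ∧ i = a (s + 1) then (1 : ℤ) else 0) = if k ≤ s then 1 else 0 := by
      by_cases h : k ≤ s <;> simp [h]
    rw [e1, e2]
    by_cases hsk : s = k
    · subst hsk
      simp
    · have : b s ≠ b k := fun h => hsk (hb s hs k hk h)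
      rw [if_neg this]
      by_cases h : k < s
      · rw [if_pos h, if_pos (by omega)]
        simp
      · rw [if_neg h, if_neg (by omega)]
        simp
  · have hj' : ∀ s < l, j ≠ b s := fun s hs h => hj ⟨s, hs, h⟩
    simp only [tpP_off _ _ _ hj', sum_const_zero]
    rw [if_neg (hj' k hk)]
    simp

theorem tp_rowSum_add (X Y : Mat m n) : rowSum (X + Y) = rowSum X + rowSum Y := by
  funext i
  simp [rowSum, sum_add_distrib]

theorem tp_colSum_add (X Y : Mat m n) : colSum (X + Y) = colSum X + colSum Y := by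
  funext j
  simp [colSum, sum_add_distrib]

theorem tp_eu_row (a0 : Fin m) (b0 : Fin n) (i : Fin m) :
    rowSum (eu a0 b0) i = if i = a0 then (1 : ℤ) else 0 := by
  unfold rowSum eu
  by_cases h : i = a0 <;> simp [h]

theorem tp_eu_col (a0 : Fin m) (b0 : Fin n) (j : Fin n) :
    colSum (eu a0 b0) j = if j = b0 then (1 : ℤ) else 0 := by
  unfold colSum eu
  by_cases h : j = b0 <;> simp [h]

end Seq

section Main

variable {lo hi : Mat m n} {r : Fin m → ℤ} {c : Fin n → ℤ} {Z Z' : Mat m n} {l : ℕ}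
  {a : ℕ → Fin m} {b : ℕ → Fin n}

theorem tp_mem_box {X : Mat m n} : X ∈ box lo hi ↔ ∀ i j, lo i j ≤ X i j ∧ X i j ≤ hi i j := by
  unfold box
  simp only [Fintype.mem_piFinset, mem_Icc]

/-- The hypotheses on the periodic sequence. -/
structure TpSeq (l : ℕ) (a : ℕ → Fin m) (b : ℕ → Fin n) (Z Z' : Mat m n) : Prop where
  two : 2 ≤ l
  ha : ∀ s < l, ∀ t < l, a s = a t → s = t
  hb : ∀ s < l, ∀ t < l, b s = b t → s = t
  hl : a l = a 0
  pos : ∀ s < l, Z (a s) (b s) < Z' (a s) (b s)
  neg : ∀ s < l, Z' (a (s + 1)) (b s) < Z (a (s + 1)) (b s)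

theorem tp_a_succ_ne (h : TpSeq l a b Z Z') {s : ℕ} (hs : s < l) : a s ≠ a (s + 1) := by
  intro he
  by_cases h1 : s + 1 < l
  · have := h.ha s hs (s + 1) h1 he
    omega
  · have hs1 : s + 1 = l := by omega
    rw [hs1, h.hl] at he
    have := h.ha s hs 0 (by have := h.two; omega) he
    have := h.two
    omega

theorem tp_V_box (h : TpSeq l a b Z Z') (hZ : Z ∈ box lo hi) (hZ' : Z' ∈ box lo hi) (k : ℕ) :
    Z + tpP l a b k ∈ box lo hi := by
  rw [tp_mem_box] at hZ hZ' ⊢
  intro i j
  by_cases hj : ∃ s < l, j = b s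
  · obtain ⟨s, hs, rfl⟩ := hj
    simp only [Pi.add_apply]
    rw [tpP_col h.hb k s hs]
    by_cases h1 : k < s ∧ i = a s
    · have h2 : ¬ (k ≤ s ∧ i = a (s + 1)) := by
        rintro ⟨_, h3⟩
        exact tp_a_succ_ne h hs (h1.2.symm.trans h3)
      rw [if_pos h1, if_neg h2]
      have h4 := h.pos s hs
      rw [← h1.2] at h4
      have h5 := hZ i (b s)
      have h6 := hZ' i (b s)
      constructor <;> omega
    · rw [if_neg h1]
      by_cases h2 : k ≤ s ∧ i = a (s + 1)
      · rw [if_pos h2]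
        have h4 := h.neg s hs
        rw [← h2.2] at h4
        have h5 := hZ i (b s)
        have h6 := hZ' i (b s)
        constructor <;> omega
      · rw [if_neg h2]
        have h5 := hZ i (b s)
        simpa using h5
  · have hj' : ∀ s < l, j ≠ b s := fun s hs he => hj ⟨s, hs, he⟩
    simp only [Pi.add_apply]
    rw [tpP_off _ _ _ hj', add_zero]
    exact hZ i j

theorem tp_V_mem (h : TpSeq l a b Z Z') (hZ : Z ∈ slc lo hi r c) (hZ' : Z' ∈ slc lo hi r c)
    {k : ℕ} (hk : k < l) : Z + tpP l a b k ∈ nearM lo hi r c (a 0) (b k) := by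
  unfold nearM slc at *
  rw [mem_filter] at hZ hZ' ⊢
  refine ⟨tp_V_box h hZ.1 hZ'.1 k, ?_, ?_⟩
  · funext i
    rw [tp_rowSum_add, hZ.2.1]
    simp only [Pi.add_apply, Pi.sub_apply]
    rw [tpP_row hk h.hl]
    by_cases hi' : i = a 0
    · subst hi'
      simp
      ring
    · simp [hi']
  · funext j
    rw [tp_colSum_add, hZ.2.2]
    simp only [Pi.add_apply, Pi.sub_apply]
    rw [tpP_column h.hb hk]
    by_cases hj' : j = b k
    · subst hj'
      simp
      ring
    · simp [hj']

/-- One step of the path. -/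
theorem tp_step (h : TpSeq l a b Z Z') {k : ℕ} (hk : k + 1 < l) :
    tpP l a b k = tpP l a b (k + 1) + eu (a (k + 1)) (b (k + 1)) - eu (a (k + 1)) (b k) := by
  funext i j
  simp only [Pi.add_apply, Pi.sub_apply]
  by_cases hj : ∃ s < l, j = b s
  · obtain ⟨s, hs, rfl⟩ := hj
    rw [tpP_col h.hb k s hs, tpP_col h.hb (k + 1) s hs]
    unfold eu
    by_cases h1 : s = k
    · subst h1
      have h2 : b s ≠ b (s + 1) := fun he => by
        have := h.hb s hs (s + 1) hk he
        omega
      by_cases h3 : i = a (s + 1)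
      · simp [h3, h2]
      · simp [h3, h2]
    · by_cases h2 : s = k + 1
      · subst h2
        have h4 : b (k + 1) ≠ b k := fun he => by
          have := h.hb (k + 1) hk k (by omega) he
          omega
        by_cases h3 : i = a (k + 1)
        · simp [h3, h4]
          ring
        · simp [h3, h4]
      · have h4 : b s ≠ b k := fun he => h1 (h.hb s hs k (by omega) he)
        have h5 : b s ≠ b (k + 1) := fun he => h2 (h.hb s hs (k + 1) hk he)
        have e1 : (k < s) ↔ (k + 1 < s) := by omega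
        have e2 : (k ≤ s) ↔ (k + 1 ≤ s) := by omega
        simp [h4, h5, e1, e2]
  · have hj' : ∀ s < l, j ≠ b s := fun s hs he => hj ⟨s, hs, he⟩
    rw [tpP_off _ _ _ hj', tpP_off _ _ _ hj']
    unfold eu
    have h4 : j ≠ b k := hj' k (by omega)
    have h5 : j ≠ b (k + 1) := hj' (k + 1) hk
    simp [h4, h5]

/-- The start of the path is `Z`. -/
theorem tp_end (h : TpSeq l a b Z Z') :
    Z + tpP l a b (l - 1) + eu (a 0) (b (l - 1)) = Z := by
  funext i j
  simp only [Pi.add_apply]
  have hl2 := h.two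
  have e : tpP l a b (l - 1) i j + eu (a 0) (b (l - 1)) i j = 0 := by
    by_cases hj : ∃ s < l, j = b s
    · obtain ⟨s, hs, rfl⟩ := hj
      rw [tpP_col h.hb _ s hs]
      unfold eu
      have h1 : ¬ (l - 1 < s ∧ i = a s) := fun h' => by omega
      rw [if_neg h1]
      by_cases hs1 : s = l - 1
      · subst hs1
        have e2 : l - 1 + 1 = l := by omega
        simp only [e2, h.hl]
        by_cases h3 : i = a 0 <;> simp [h3]
      · have h2 : ¬ (l - 1 ≤ s ∧ i = a (s + 1)) := fun h' => by omega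
        rw [if_neg h2]
        have h4 : b s ≠ b (l - 1) := fun he => hs1 (h.hb s hs _ (by omega) he)
        simp [h4]
    · have hj' : ∀ s < l, j ≠ b s := fun s hs he => hj ⟨s, hs, he⟩
      rw [tpP_off _ _ _ hj']
      unfold eu
      have h4 : j ≠ b (l - 1) := hj' _ (by omega)
      simp [h4]
  linarith

/-- The other end of the path is in the slice and different from `Z`. -/
theorem tp_start_mem (h : TpSeq l a b Z Z') (hZ : Z ∈ slc lo hi r c) (hZ' : Z' ∈ slc lo hi r c) :
    Z + tpP l a b 0 + eu (a 0) (b 0) ∈ slc lo hi r c := by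
  have hl2 := h.two
  have hV := tp_V_mem h hZ hZ' (k := 0) (by omega)
  unfold nearM slc at hV
  unfold slc at hZ hZ' ⊢
  rw [mem_filter] at hV hZ hZ' ⊢
  refine ⟨?_, ?_, ?_⟩
  · rw [tp_mem_box]
    have hb0 := hZ.1
    have hb1 := hZ'.1
    have hb2 := hV.1
    rw [tp_mem_box] at hb0 hb1 hb2
    intro i j
    simp only [Pi.add_apply]
    have h3 := hb2 i j
    simp only [Pi.add_apply] at h3
    by_cases h4 : i = a 0 ∧ j = b 0
    · obtain ⟨rfl, rfl⟩ := h4
      have h5 : tpP l a b 0 (a 0) (b 0) = 0 := by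
        rw [tpP_col h.hb 0 0 (by omega)]
        have h6 : a 0 ≠ a (0 + 1) := tp_a_succ_ne h (by omega)
        simp [h6]
      have h7 := h.pos 0 (by omega)
      have h8 := hb1 (a 0) (b 0)
      have h9 := hb0 (a 0) (b 0)
      unfold eu
      rw [h5]
      simp
      omega
    · unfold eu
      rw [if_neg h4]
      simpa using h3
  · funext i
    have := congrFun hV.2.1 i
    rw [tp_rowSum_add, Pi.add_apply, this, tp_eu_row]
    simp only [Pi.sub_apply, Pi.single_apply]
    ring
  · funext j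
    have := congrFun hV.2.2 j
    rw [tp_colSum_add, Pi.add_apply, this, tp_eu_col]
    simp only [Pi.sub_apply, Pi.single_apply]
    ring

theorem tp_start_ne (h : TpSeq l a b Z Z') : Z + tpP l a b 0 + eu (a 0) (b 0) ≠ Z := by
  intro he
  have hl2 := h.two
  have h1 := congrFun (congrFun he (a 0)) (b 0)
  simp only [Pi.add_apply] at h1
  have h5 : tpP l a b 0 (a 0) (b 0) = 0 := by
    rw [tpP_col h.hb 0 0 (by omega)]
    have h6 : a 0 ≠ a (0 + 1) := tp_a_succ_ne h (by omega)
    simp [h6]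
  rw [h5] at h1
  unfold eu at h1
  simp at h1

theorem tp_kap_nonneg (g : Mat m n → ℝ) (a0 : Fin m) (b0 : Fin n) (V : Mat m n) :
    0 ≤ kap g a0 b0 V := by
  unfold kap
  refine sum_nonneg fun i _ => sum_nonneg fun b' _ => ?_
  split_ifs
  · exact sq_nonneg _
  · exact le_refl _

/-- One squared step is a term in `kap`. -/
theorem tp_term_le (g : Mat m n → ℝ) (hlo : 0 ≤ lo) (hZ' : Z' ∈ box lo hi) (h : TpSeq l a b Z Z')
    {k : ℕ} (hk : k + 1 < l) :
    (g (Z + tpP l a b (k + 1) + eu (a 0) (b (k + 1))) - g (Z + tpP l a b k + eu (a 0) (b k))) ^ 2 ≤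
      kap g (a 0) (b (k + 1)) (Z + tpP l a b (k + 1)) := by
  set V := Z + tpP l a b (k + 1) with hV
  have hne1 : a (k + 1) ≠ a 0 := fun he => by
    have := h.ha (k + 1) hk 0 (by omega) he
    omega
  have hne2 : b k ≠ b (k + 1) := fun he => by
    have := h.hb k (by omega) (k + 1) hk he
    omega
  have hval : 1 ≤ V (a (k + 1)) (b k) := by
    have h1 : tpP l a b (k + 1) (a (k + 1)) (b k) = 0 := by
      rw [tpP_col h.hb (k + 1) k (by omega)]
      rw [if_neg (by omega), if_neg (by omega)]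
      simp
    simp only [hV, Pi.add_apply, h1, add_zero]
    have h2 := h.neg k (by omega)
    rw [tp_mem_box] at hZ'
    have h3 := (hZ' (a (k + 1)) (b k)).1
    have h4 : 0 ≤ lo (a (k + 1)) (b k) := hlo _ _
    omega
  have hY : Z + tpP l a b k + eu (a 0) (b k) =
      V + eu (a 0) (b k) + eu (a (k + 1)) (b (k + 1)) - eu (a (k + 1)) (b k) := by
    rw [tp_step h hk, hV]
    abel
  rw [hY]
  unfold kap
  refine le_trans ?_ (single_le_sum (f := fun i => ∑ b', if i ≠ a 0 ∧ b' ≠ b (k + 1) ∧ 1 ≤ V i b' then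
    (g (V + eu (a 0) (b (k + 1))) - g (V + eu (a 0) b' + eu i (b (k + 1)) - eu i b')) ^ 2 else 0)
    (fun i _ => sum_nonneg fun b' _ => ?_) (mem_univ (a (k + 1))))
  · refine le_trans ?_ (single_le_sum (f := fun b' => if a (k + 1) ≠ a 0 ∧ b' ≠ b (k + 1) ∧ 1 ≤ V (a (k + 1)) b' then
      (g (V + eu (a 0) (b (k + 1))) - g (V + eu (a 0) b' + eu (a (k + 1)) (b (k + 1)) - eu (a (k + 1)) b')) ^ 2 else 0)
      (fun b' _ => ?_) (mem_univ (b k)))
    · rw [if_pos ⟨hne1, hne2, hval⟩]
    · split_ifs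
      · exact sq_nonneg _
      · exact le_refl _
  · split_ifs
    · exact sq_nonneg _
    · exact le_refl _

/-- The main estimate given the periodic sequence. -/
theorem tp_main (g : Mat m n → ℝ) (hlo : 0 ≤ lo) (hZ : Z ∈ slc lo hi r c) (hZ' : Z' ∈ slc lo hi r c)
    (hF : slc lo hi r c = {Z, Z'}) (h : TpSeq l a b Z Z') (hlm : l ≤ m) :
    (g Z - g Z') ^ 2 ≤ (m : ℝ) * DD g lo hi r c := by
  classical
  have hl2 := h.two
  set Y : ℕ → Mat m n := fun k => Z + tpP l a b k + eu (a 0) (b k) with hY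
  have hY0 : Y 0 = Z' := by
    have h1 := tp_start_mem h hZ hZ'
    rw [hF, mem_insert, mem_singleton] at h1
    rcases h1 with h1 | h1
    · exact absurd h1 (tp_start_ne h)
    · exact h1
  have hYe : Y (l - 1) = Z := tp_end h
  have hZ'box : Z' ∈ box lo hi := (mem_filter.1 hZ').1
  -- telescoping
  have htel : g Z - g Z' = ∑ k ∈ range (l - 1), (g (Y (k + 1)) - g (Y k)) := by
    rw [sum_range_sub (fun k => g (Y k)), hYe, hY0]
  have hcs : (g Z - g Z') ^ 2 ≤ ((l - 1 : ℕ) : ℝ) * ∑ k ∈ range (l - 1), (g (Y (k + 1)) - g (Y k)) ^ 2 := by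
    rw [htel]
    have := sq_sum_le_card_mul_sum_sq (s := range (l - 1)) (f := fun k => g (Y (k + 1)) - g (Y k))
    simpa using this
  -- the near table terms
  have hterm : ∑ k ∈ range (l - 1), (g (Y (k + 1)) - g (Y k)) ^ 2 ≤ DD g lo hi r c := by
    have hG : ∀ β, 0 ≤ ∑ V ∈ nearM lo hi r c (a 0) β, kap g (a 0) β V :=
      fun β => sum_nonneg fun V _ => tp_kap_nonneg g _ _ _
    calc ∑ k ∈ range (l - 1), (g (Y (k + 1)) - g (Y k)) ^ 2
        ≤ ∑ k ∈ range (l - 1), ∑ V ∈ nearM lo hi r c (a 0) (b (k + 1)), kap g (a 0) (b (k + 1)) V := by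
          refine sum_le_sum fun k hk => ?_
          have hk' : k + 1 < l := by
            have := mem_range.1 hk
            omega
          refine le_trans (tp_term_le g hlo hZ'box h hk') ?_
          exact single_le_sum (f := fun V => kap g (a 0) (b (k + 1)) V)
            (fun V _ => tp_kap_nonneg g _ _ _) (tp_V_mem h hZ hZ' hk')
      _ = ∑ β ∈ (range (l - 1)).image (fun k => b (k + 1)),
            ∑ V ∈ nearM lo hi r c (a 0) β, kap g (a 0) β V := by
          rw [sum_image]
          intro x hx y hy hxy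
          have hx' := mem_range.1 (mem_coe.1 hx)
          have hy' := mem_range.1 (mem_coe.1 hy)
          have := h.hb (x + 1) (by omega) (y + 1) (by omega) hxy
          omega
      _ ≤ ∑ β, ∑ V ∈ nearM lo hi r c (a 0) β, kap g (a 0) β V :=
          sum_le_sum_of_subset_of_nonneg (subset_univ _) fun β _ _ => hG β
      _ ≤ DD g lo hi r c := by
          unfold DD
          exact single_le_sum (f := fun a' => ∑ β, ∑ V ∈ nearM lo hi r c a' β, kap g a' β V)
            (fun a' _ => sum_nonneg fun β _ => sum_nonneg fun V _ => tp_kap_nonneg g _ _ _)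
            (mem_univ (a 0))
  have hDD : 0 ≤ DD g lo hi r c := le_trans (sum_nonneg fun _ _ => sq_nonneg _) hterm
  have hlm' : ((l - 1 : ℕ) : ℝ) ≤ m := by
    exact_mod_cast (by omega : l - 1 ≤ m)
  have hs0 : 0 ≤ ∑ k ∈ range (l - 1), (g (Y (k + 1)) - g (Y k)) ^ 2 :=
    sum_nonneg fun _ _ => sq_nonneg _
  calc (g Z - g Z') ^ 2 ≤ _ := hcs
    _ ≤ (m : ℝ) * ∑ k ∈ range (l - 1), (g (Y (k + 1)) - g (Y k)) ^ 2 :=
        mul_le_mul_of_nonneg_right hlm' hs0
    _ ≤ _ := mul_le_mul_of_nonneg_left hterm (Nat.cast_nonneg m)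

end Main

theorem two_point (g : Mat m n → ℝ) {lo hi : Mat m n} {r : Fin m → ℤ} {c : Fin n → ℤ}
    (hlo : 0 ≤ lo) {Z Z' : Mat m n} (hne : Z ≠ Z') (hF : slc lo hi r c = {Z, Z'}) :
    (g Z - g Z') ^ 2 ≤ (m : ℝ) * DD g lo hi r c := by
  classical
  have hZ : Z ∈ slc lo hi r c := by rw [hF]; simp
  have hZ' : Z' ∈ slc lo hi r c := by rw [hF]; simp
  have hZ1 := (mem_filter.1 hZ).2
  have hZ2 := (mem_filter.1 hZ').2
  have hr : rowSum (Z' - Z) = 0 := by
    funext i
    have e1 := congrFun hZ1.1 i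
    have e2 := congrFun hZ2.1 i
    simp only [rowSum, Pi.sub_apply, sum_sub_distrib, Pi.zero_apply] at *
    omega
  have hc : colSum (Z' - Z) = 0 := by
    funext j
    have e1 := congrFun hZ1.2 j
    have e2 := congrFun hZ2.2 j
    simp only [colSum, Pi.sub_apply, sum_sub_distrib, Pi.zero_apply] at *
    omega
  have hΔ : Z' - Z ≠ 0 := fun h => hne (sub_eq_zero.1 h).symm
  obtain ⟨l, hl0, ρ, γ, hρ, hγ, hpos, hneg⟩ := Vale.Agent.Lib.P328U.exists_cycle hr hc hΔ
  have hl1 : 0 < l := Nat.pos_of_ne_zero hl0.out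
  have hcast : ∀ s < l, ∀ t < l, Fin.ofNat l s = Fin.ofNat l t → s = t := by
    intro s hs t ht h
    have := congrArg Fin.val h
    simp only [Fin.val_ofNat] at this
    rwa [Nat.mod_eq_of_lt hs, Nat.mod_eq_of_lt ht] at this
  have hsucc : ∀ s, Fin.ofNat l (s + 1) = Fin.ofNat l s + 1 := by
    intro s
    apply Fin.ext
    simp [Fin.val_add, Nat.add_mod]
  have hl2 : 2 ≤ l := by
    by_contra hlt
    have hl' : l = 1 := by omega
    subst hl'
    have e : (0 : Fin 1) + 1 = 0 := Subsingleton.elim _ _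
    have h1 := hpos 0
    have h2 := hneg 0
    rw [e] at h2
    exact absurd h1 (not_lt.2 h2.le)
  have hseq : TpSeq l (fun k => ρ (Fin.ofNat l k)) (fun k => γ (Fin.ofNat l k)) Z Z' := by
    refine ⟨hl2, ?_, ?_, ?_, ?_, ?_⟩
    · intro s hs t ht h
      exact hcast s hs t ht (hρ h)
    · intro s hs t ht h
      exact hcast s hs t ht (hγ h)
    · have : Fin.ofNat l l = Fin.ofNat l 0 := by
        apply Fin.ext
        simp
      simp only [this]
    · intro s _
      have := hpos (Fin.ofNat l s)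
      simp only [Pi.sub_apply] at this
      omega
    · intro s _
      have := hneg (Fin.ofNat l s)
      simp only [Pi.sub_apply] at this
      simp only [hsucc]
      omega
  have hlm : l ≤ m := by
    have := Fintype.card_le_of_injective ρ hρ
    simpa using this
  exact tp_main g hlo hZ hZ' hF hseq hlm

end

end Vale.Agent.Lib.P328Q
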