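import Vale.Agent.Lib.P328Q.Doubling
import Vale.Agent.Lib.P328Q.AlmostPeriod
import Vale.Agent.Lib.P328Q.Energy
import Vale.Agent.Lib.P328Q.Potential
import Vale.Agent.Lib.P328Q.BoxSlice
import Vale.Agent.Lib.P328Q.TwoPoint

/-!
The recursion: the Poincare inequality for central box slices, from a potential with the condition `Star`;
and the proof that the potential `phi` has this condition.
-/

namespace Vale.Agent.Lib.P328Q

open Finset
open scoped Pointwise

noncomputable section

variable {m n : ℕ}

theorem rec_kap_nonneg (g : Mat m n → ℝ) (a : Fin m) (b : Fin n) (V : Mat m n) :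
    0 ≤ kap g a b V := by
  unfold kap
  refine sum_nonneg fun i _ => sum_nonneg fun b' _ => ?_
  split_ifs
  · exact sq_nonneg _
  · exact le_refl _

theorem rec_DD_nonneg (g : Mat m n → ℝ) (lo hi : Mat m n) (r : Fin m → ℤ) (c : Fin n → ℤ) :
    0 ≤ DD g lo hi r c := by
  unfold DD
  exact sum_nonneg fun a _ => sum_nonneg fun b _ => sum_nonneg fun V _ => rec_kap_nonneg g a b V

theorem rec_wv_of_card_le_one {G : Type*} [AddCommGroup G] [DecidableEq G] (F : Finset G)
    (g : G → ℝ) (h : F.card ≤ 1) : wv F g = 0 := by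
  unfold wv
  rw [card_le_one] at h
  refine sum_eq_zero fun x hx => sum_eq_zero fun y hy => ?_
  rw [h x hx y hy]
  ring

theorem rec_wv_pair {G : Type*} [AddCommGroup G] [DecidableEq G] (Z Z' : G) (hne : Z ≠ Z')
    (g : G → ℝ) : wv ({Z, Z'} : Finset G) g = 2 * (g Z - g Z') ^ 2 := by
  unfold wv
  rw [sum_pair hne, sum_pair hne, sum_pair hne]
  ring

/-- The exchange of summation. -/
theorem rec_exchange (φ : ℕ → ℝ) (hpos : ∀ f, 0 ≤ φ f) (g : Mat m n → ℝ)
    (lo hi : Mat m n) (r : Fin m → ℤ) (c : Fin n → ℤ) :
    ∑ U ∈ (slc lo hi r c + slc lo hi r c).erase (lo + hi),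
        φ (fib (slc lo hi r c) U).card * DD g (loF lo hi U) (hiF lo hi U) r c ≤
      ∑ a, ∑ b, ∑ V ∈ nearM lo hi r c a b, kap g a b V *
        ∑ E ∈ (nearP lo hi r c a b).erase (lo + hi - V),
          φ (fib (slc lo hi r c) (V + E)).card := by
  classical
  set F := slc lo hi r c with hF
  set A := (F + F).erase (lo + hi) with hA
  have h1 : ∀ U ∈ A, DD g (loF lo hi U) (hiF lo hi U) r c =
      ∑ a, ∑ b, ∑ V ∈ nearM lo hi r c a b,
        if U - V ∈ nearP lo hi r c a b then kap g a b V else 0 := by
    intro U hU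
    have hU' : U ∈ F + F := mem_of_mem_erase hU
    have hm := margins_of_mem_add hU'
    unfold DD
    refine sum_congr rfl fun a _ => sum_congr rfl fun b _ => ?_
    rw [← sum_filter]
    refine sum_congr ?_ fun _ _ => rfl
    ext V
    rw [mem_nearM_fib hm, mem_filter]
  calc ∑ U ∈ A, φ (fib F U).card * DD g (loF lo hi U) (hiF lo hi U) r c
      = ∑ U ∈ A, ∑ a, ∑ b, ∑ V ∈ nearM lo hi r c a b,
          if U - V ∈ nearP lo hi r c a b then φ (fib F U).card * kap g a b V else 0 := by
        refine sum_congr rfl fun U hU => ?_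
        rw [h1 U hU, mul_sum]
        refine sum_congr rfl fun a _ => ?_
        rw [mul_sum]
        refine sum_congr rfl fun b _ => ?_
        rw [mul_sum]
        refine sum_congr rfl fun V _ => ?_
        split_ifs <;> ring
    _ = ∑ a, ∑ b, ∑ V ∈ nearM lo hi r c a b, ∑ U ∈ A,
          if U - V ∈ nearP lo hi r c a b then φ (fib F U).card * kap g a b V else 0 := by
        rw [sum_comm]
        refine sum_congr rfl fun a _ => ?_
        rw [sum_comm]
        refine sum_congr rfl fun b _ => ?_
        rw [sum_comm]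
    _ ≤ _ := by
        refine sum_le_sum fun a _ => sum_le_sum fun b _ => sum_le_sum fun V hV => ?_
        have hk := rec_kap_nonneg g a b V
        have h2 : ∑ U ∈ A, (if U - V ∈ nearP lo hi r c a b then φ (fib F U).card * kap g a b V else 0)
            = kap g a b V * ∑ U ∈ A.filter (fun U => U - V ∈ nearP lo hi r c a b),
                φ (fib F U).card := by
          rw [sum_filter, mul_sum]
          refine sum_congr rfl fun U _ => ?_
          split_ifs <;> ring
        rw [h2]
        refine mul_le_mul_of_nonneg_left ?_ hk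
        have h3 : ∑ U ∈ A.filter (fun U => U - V ∈ nearP lo hi r c a b), φ (fib F U).card =
            ∑ E ∈ (A.filter (fun U => U - V ∈ nearP lo hi r c a b)).image (fun U => U - V),
              φ (fib F (V + E)).card := by
          rw [sum_image]
          · refine sum_congr rfl fun U _ => ?_
            rw [add_sub_cancel]
          · intro x _ y _ hxy
            exact sub_left_injective hxy
        rw [h3]
        refine sum_le_sum_of_subset_of_nonneg ?_ fun _ _ _ => hpos _
        intro E hE
        rw [mem_image] at hE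
        obtain ⟨U, hU, rfl⟩ := hE
        rw [mem_filter] at hU
        refine mem_erase.2 ⟨?_, hU.2⟩
        intro h
        have : U = lo + hi := by
          have := congrArg (fun X => X + V) h
          simpa using this
        exact (mem_erase.1 hU.1).1 this

theorem poincare_central (φ : ℕ → ℝ) (hpos : ∀ f, 0 ≤ φ f) (h2 : 1 ≤ φ 2)
    (r : Fin m → ℤ) (c : Fin n → ℤ) (hS : Star φ r c) (g : Mat m n → ℝ)
    (lo hi : Mat m n) (hlo : 0 ≤ lo) (hC : Central lo hi r c) :
    wv (slc lo hi r c) g ≤
      ((slc lo hi r c).card : ℝ) * ((m : ℝ) * φ (slc lo hi r c).card) * DD g lo hi r c := by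
  classical
  induction hf : (slc lo hi r c).card using Nat.strong_induction_on generalizing lo hi with
  | _ f ih =>
    have hDD := rec_DD_nonneg g lo hi r c
    have hm0 : (0 : ℝ) ≤ m := Nat.cast_nonneg m
    rcases Nat.lt_or_ge f 2 with h | h
    · rw [rec_wv_of_card_le_one _ _ (by omega)]
      have := hpos f
      have hf0 : (0 : ℝ) ≤ f := Nat.cast_nonneg f
      positivity
    rcases Nat.lt_or_ge f 3 with h3 | h3
    · have hf2 : f = 2 := by omega
      subst hf2
      obtain ⟨Z, Z', hne, hZ⟩ := card_eq_two.1 hf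
      rw [hZ, rec_wv_pair Z Z' hne]
      have ht := two_point g hlo hne hZ
      have h5 : (m : ℝ) * DD g lo hi r c ≤ (m : ℝ) * φ 2 * DD g lo hi r c := by
        have : 0 ≤ (m : ℝ) * DD g lo hi r c := mul_nonneg hm0 hDD
        nlinarith [mul_le_mul_of_nonneg_right h2 this]
      have : ((2 : ℕ) : ℝ) = 2 := by norm_num
      rw [this]
      linarith
    -- the main case
    set F := slc lo hi r c with hF
    set T := lo + hi with hT
    have hTm : ∀ x ∈ F, T - x ∈ F := fun x hx => mirror_slc hC hx
    have hfpos : (0 : ℝ) < f := by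
      have : (3 : ℝ) ≤ f := by exact_mod_cast h3
      linarith
    have hfc : (F.card : ℝ) = f := by rw [hf]
    have hne : F.Nonempty := by
      rw [← card_pos, hf]
      omega
    have hgap : 0 < 1 - 2 / (f : ℝ) := by
      have : (3 : ℝ) ≤ f := by exact_mod_cast h3
      have : 2 / (f : ℝ) < 1 := by
        rw [div_lt_one hfpos]
        linarith
      linarith
    have h1 := wv_le_fib_central F T hTm g
    rw [hfc] at h1
    -- the inductive hypothesis on each fibre
    have h4 : ∀ U ∈ (F + F).erase T, wv (fib F U) g / ((fib F U).card : ℝ) ≤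
        (m : ℝ) * (φ (fib F U).card * DD g (loF lo hi U) (hiF lo hi U) r c) := by
      intro U hU
      have hU' : U ∈ F + F := mem_of_mem_erase hU
      have hUT : U ≠ T := ne_of_mem_erase hU
      have hmarg := margins_of_mem_add hU'
      have hfib : fib F U = slc (loF lo hi U) (hiF lo hi U) r c := fib_slc hmarg
      have hcen := central_fib (lo := lo) (hi := hi) hmarg
      have hlo' : 0 ≤ loF lo hi U := by
        intro i j
        exact le_trans (hlo i j) (le_max_left _ _)
      have hlt : (fib F U).card < f := by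
        have hle : (fib F U).card ≤ F.card := card_filter_le _ _
        rw [hf] at hle
        refine lt_of_le_of_ne hle ?_
        intro heq
        exact hUT (fib_card_eq F T hTm hne U (by rw [heq, hf]))
      have hI := ih (fib F U).card hlt (loF lo hi U) (hiF lo hi U) hlo' hcen (by rw [hfib])
      have hDD' := rec_DD_nonneg g (loF lo hi U) (hiF lo hi U) r c
      rw [← hfib] at hI
      have hcpos : (0 : ℝ) < ((fib F U).card : ℝ) := by
        have : (fib F U).Nonempty := by
          obtain ⟨x, hx, y, hy, rfl⟩ := mem_add.1 hU'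
          refine ⟨x, mem_filter.2 ⟨hx, ?_⟩⟩
          simpa using hy
        exact_mod_cast card_pos.2 this
      rw [div_le_iff₀' hcpos]
      calc wv (fib F U) g ≤ _ := hI
        _ = _ := by ring
    -- the Star condition, for each near table, with the stay term removed
    have h6 : ∀ a b, ∀ V ∈ nearM lo hi r c a b,
        2 * ∑ E ∈ (nearP lo hi r c a b).erase (T - V), φ (fib F (V + E)).card ≤
          (f : ℝ) * φ f * (1 - 2 / (f : ℝ)) := by
      intro a b V hV
      have hs := hS lo hi hlo hC (by rw [hf]; exact h3) a b V hV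
      rw [← hF, hf] at hs
      have hE0 : T - V ∈ nearP lo hi r c a b := mirror_nearM hC hV
      rw [← add_sum_erase _ _ hE0] at hs
      have hVT : V + (T - V) = T := by abel
      rw [hVT] at hs
      have hfibT : fib F T = F := by
        unfold fib
        exact filter_true_of_mem hTm
      rw [hfibT, hf] at hs
      set Sg := ∑ E ∈ (nearP lo hi r c a b).erase (T - V), φ (fib F (V + E)).card with hSg
      have hfne : (f : ℝ) ≠ 0 := ne_of_gt hfpos
      have : 2 / (f : ℝ) * (φ f + Sg) * f ≤ φ f * f := mul_le_mul_of_nonneg_right hs hfpos.le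
      have h7 : 2 / (f : ℝ) * (φ f + Sg) * f = 2 * (φ f + Sg) := by
        field_simp
      rw [h7] at this
      have h8 : (f : ℝ) * φ f * (1 - 2 / (f : ℝ)) = φ f * f - 2 * φ f := by
        field_simp
      rw [h8]
      linarith
    -- assembling
    have h9 : wv F g * (1 - 2 / (f : ℝ)) ≤
        ((f : ℝ) * ((m : ℝ) * φ f) * DD g lo hi r c) * (1 - 2 / (f : ℝ)) := by
      calc wv F g * (1 - 2 / (f : ℝ))
          ≤ 2 * ∑ U ∈ (F + F).erase T, wv (fib F U) g / ((fib F U).card : ℝ) := h1
        _ ≤ 2 * ∑ U ∈ (F + F).erase T,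
              (m : ℝ) * (φ (fib F U).card * DD g (loF lo hi U) (hiF lo hi U) r c) := by
            refine mul_le_mul_of_nonneg_left (sum_le_sum h4) (by norm_num)
        _ = 2 * (m : ℝ) * ∑ U ∈ (F + F).erase T,
              φ (fib F U).card * DD g (loF lo hi U) (hiF lo hi U) r c := by
            rw [← mul_sum]
            ring
        _ ≤ 2 * (m : ℝ) * ∑ a, ∑ b, ∑ V ∈ nearM lo hi r c a b, kap g a b V *
              ∑ E ∈ (nearP lo hi r c a b).erase (lo + hi - V),
                φ (fib F (V + E)).card := by
            refine mul_le_mul_of_nonneg_left ?_ (by positivity)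
            exact rec_exchange φ hpos g lo hi r c
        _ ≤ (m : ℝ) * ∑ a, ∑ b, ∑ V ∈ nearM lo hi r c a b, kap g a b V *
              ((f : ℝ) * φ f * (1 - 2 / (f : ℝ))) := by
            rw [mul_comm 2 (m : ℝ), mul_assoc]
            refine mul_le_mul_of_nonneg_left ?_ hm0
            rw [mul_sum]
            refine sum_le_sum fun a _ => ?_
            rw [mul_sum]
            refine sum_le_sum fun b _ => ?_
            rw [mul_sum]
            refine sum_le_sum fun V hV => ?_
            have := h6 a b V hV
            have hk := rec_kap_nonneg g a b V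
            calc 2 * (kap g a b V * ∑ E ∈ (nearP lo hi r c a b).erase (lo + hi - V),
                    φ (fib F (V + E)).card)
                = kap g a b V * (2 * ∑ E ∈ (nearP lo hi r c a b).erase (T - V),
                    φ (fib F (V + E)).card) := by rw [hT]; ring
              _ ≤ _ := mul_le_mul_of_nonneg_left this hk
        _ = _ := by
            unfold DD
            rw [mul_comm ((f : ℝ) * ((m : ℝ) * φ f)), mul_assoc, mul_assoc (∑ a, _)]
            simp only [← sum_mul]
            ring
    exact le_of_mul_le_mul_right h9 hgap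

theorem gam_pos (M : ℕ) (hM : 2 ≤ M) : 0 < gam M := by
  unfold gam
  have : 0 < Real.log M := Real.log_pos (by exact_mod_cast (by omega : 1 < M))
  positivity

theorem gam_le_one (M : ℕ) (hM : 2 ≤ M) : gam M ≤ 1 := by
  unfold gam
  have h : Real.log 2 ≤ Real.log M := Real.log_le_log (by norm_num) (by exact_mod_cast hM)
  have h2 := Real.log_two_gt_d9
  rw [div_le_one (by nlinarith)]
  nlinarith

/-- The energy bound for the tables of a nonnegative box. -/
theorem rec_en_le (M : ℕ) (hM : 2 ≤ M) (r : Fin m → ℤ) (c : Fin n → ℤ)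
    (hcell : ∀ i j, min (r i) (c j) + 1 ≤ (M : ℤ)) (lo hi : Mat m n) (hlo : 0 ≤ lo) :
    (en (slc lo hi r c) : ℝ) ≤ ((slc lo hi r c).card : ℝ) ^ (3 - gam M) := by
  classical
  refine energy_le (univ : Finset (Fin m × Fin n))
    (fun p => (Pi.evalAddMonoidHom (fun _ : Fin n => ℤ) p.2).comp
      (Pi.evalAddMonoidHom (fun _ : Fin m => Fin n → ℤ) p.1)) _ M hM ?_ ?_
  · intro x _ y _ h
    funext i j
    exact h (i, j) (mem_univ _)
  · rintro ⟨i, j⟩ _
    have hsub : (slc lo hi r c).image ((Pi.evalAddMonoidHom (fun _ : Fin n => ℤ) j).comp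
        (Pi.evalAddMonoidHom (fun _ : Fin m => Fin n → ℤ) i)) ⊆ Icc 0 (min (r i) (c j)) := by
      intro z hz
      obtain ⟨X, hX, rfl⟩ := mem_image.1 hz
      exact mem_Icc.2 (entry_bound hlo hX i j)
    refine le_trans (card_le_card hsub) ?_
    rw [Int.card_Icc]
    have := hcell i j
    omega

/-- The potential satisfies the condition. -/
theorem star_phi (M : ℕ) (hM : 2 ≤ M) (r : Fin m → ℤ) (c : Fin n → ℤ)
    (hcell : ∀ i j, min (r i) (c j) + 1 ≤ (M : ℤ)) : Star (phi (gam M)) r c := by
  classical
  intro lo hi hlo hC hf3 a b V hV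
  set F := slc lo hi r c with hF
  set T := lo + hi with hT
  set f := F.card with hf
  have hTm : ∀ x ∈ F, T - x ∈ F := fun x hx => mirror_slc hC hx
  have hne : F.Nonempty := card_pos.1 (by omega)
  have hfr : (3 : ℝ) ≤ f := by exact_mod_cast hf3
  have hfpos : (0 : ℝ) < f := by linarith
  have hnear : (nearP lo hi r c a b).card ≤ f := card_nearP_le hC a b
  have hfibT : fib F T = F := by
    unfold fib
    exact filter_true_of_mem hTm
  refine phi_step (gam M) (gam_pos M hM) (gam_le_one M hM) f hf3 (nearP lo hi r c a b)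
    (fun E => (fib F (V + E)).card) hnear ?_ ?_ ?_ ?_
  · intro E _
    exact card_filter_le _ _
  · rw [card_le_one]
    intro E hE E' hE'
    rw [mem_filter] at hE hE'
    have h1 := fib_card_eq F T hTm hne (V + E) hE.2
    have h2 := fib_card_eq F T hTm hne (V + E') hE'.2
    exact add_left_cancel (h1.trans h2.symm)
  · have hinj : Set.InjOn (fun E => V + E - T)
        (((nearP lo hi r c a b).filter fun E =>
          (fib F (V + E)).card ≠ f ∧ 31 / 32 * (f : ℝ) ≤ ((fib F (V + E)).card : ℝ)) : Set (Mat m n)) := by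
      intro x _ y _ h
      have : V + x = V + y := sub_left_injective h
      exact add_left_cancel this
    have := almost_period F hne (1 / 32) (by norm_num) (by norm_num)
      (((nearP lo hi r c a b).filter fun E =>
          (fib F (V + E)).card ≠ f ∧ 31 / 32 * (f : ℝ) ≤ ((fib F (V + E)).card : ℝ)).image
        (fun E => V + E - T)) ?_
    · rw [card_image_of_injOn hinj] at this
      calc _ ≤ 8 * (1 / 32) * (F.card : ℝ) := this
        _ = _ := by ring
    · intro w hw
      obtain ⟨E, hE, rfl⟩ := mem_image.1 hw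
      rw [mem_filter] at hE
      refine ⟨?_, ?_⟩
      · intro h0
        have h1 : V + E = T := sub_eq_zero.1 h0
        apply hE.2.1
        rw [h1, hfibT]
      · rw [← card_fib_eq_ov F T hTm]
        have h1 : T + (V + E - T) = V + E := by abel
        rw [h1]
        have := hE.2.2
        linarith
  · intro τ _
    set γ := gam M with hγ
    set Es := nearP lo hi r c a b with hEs
    set s' := Es.filter fun E => Real.exp (-τ) * (f : ℝ) ≤ ((fib F (V + E)).card : ℝ) with hs'
    set K := (f : ℝ) ^ (1 - γ / 2) with hK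
    have hKpos : 0 < K := Real.rpow_pos_of_pos hfpos _
    have h1 : (s'.card : ℝ) * (Real.exp (-τ) * (f : ℝ)) ≤ ∑ E ∈ Es, ((fib F (V + E)).card : ℝ) := by
      calc (s'.card : ℝ) * (Real.exp (-τ) * (f : ℝ)) = ∑ _E ∈ s', (Real.exp (-τ) * (f : ℝ)) := by
            rw [sum_const, nsmul_eq_mul]
        _ ≤ ∑ E ∈ s', ((fib F (V + E)).card : ℝ) := sum_le_sum fun E hE => (mem_filter.1 hE).2
        _ ≤ _ := sum_le_sum_of_subset_of_nonneg (filter_subset _ _) fun _ _ _ => Nat.cast_nonneg _
    have h2 := sum_fib_le F V Es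
    have h3 : Real.sqrt ((Es.card : ℝ) * (en F : ℝ)) ≤ (f : ℝ) * K := by
      rw [Real.sqrt_le_iff]
      refine ⟨by positivity, ?_⟩
      have hen := rec_en_le M hM r c hcell lo hi hlo
      rw [← hF] at hen
      have hE0 : (Es.card : ℝ) ≤ f := by exact_mod_cast hnear
      have hK2 : K ^ 2 = (f : ℝ) ^ (2 - γ) := by
        rw [hK, ← Real.rpow_natCast, ← Real.rpow_mul hfpos.le]
        congr 1
        push_cast
        ring
      have h4 : (f : ℝ) * (f : ℝ) ^ (3 - γ) = ((f : ℝ) * K) ^ 2 := by
        rw [mul_pow, hK2]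
        have e1 : (f : ℝ) ^ (3 - γ) = (f : ℝ) * (f : ℝ) ^ (2 - γ) := by
          have : (3 - γ) = 1 + (2 - γ) := by ring
          rw [this, Real.rpow_add hfpos, Real.rpow_one]
        rw [e1]
        ring
      calc (Es.card : ℝ) * (en F : ℝ) ≤ (f : ℝ) * (f : ℝ) ^ (3 - γ) :=
            mul_le_mul hE0 hen (Nat.cast_nonneg _) hfpos.le
        _ = _ := h4
    have h5 : (s'.card : ℝ) * Real.exp (-τ) ≤ K := by
      have : (s'.card : ℝ) * Real.exp (-τ) * f ≤ K * f := by
        calc (s'.card : ℝ) * Real.exp (-τ) * f = (s'.card : ℝ) * (Real.exp (-τ) * (f : ℝ)) := by ring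
          _ ≤ (f : ℝ) * K := by linarith
          _ = K * f := by ring
      exact le_of_mul_le_mul_right this hfpos
    have h6 : (s'.card : ℝ) = Real.exp τ * ((s'.card : ℝ) * Real.exp (-τ)) := by
      have : Real.exp τ * Real.exp (-τ) = 1 := by rw [← Real.exp_add]; simp
      calc (s'.card : ℝ) = (s'.card : ℝ) * (Real.exp τ * Real.exp (-τ)) := by rw [this, mul_one]
        _ = _ := by ring
    rw [h6]
    exact mul_le_mul_of_nonneg_left h5 (Real.exp_pos τ).le

end

end Vale.Agent.Lib.P328Q
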