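import Vale.Agent.Lib.P328Q.Basic

/-!
Stability of Young's inequality on the integers and Lemma W.
-/

namespace Vale.Agent.Lib.P328Q

open Finset
open scoped Pointwise

noncomputable section

/-- The sign of an integer, as a real number. -/
def yw_sg (x : ℤ) : ℝ := if 0 < x then 1 else if x < 0 then -1 else 0

lemma yw_sg_neg (x : ℤ) : yw_sg (-x) = - yw_sg x := by
  unfold yw_sg
  rcases lt_trichotomy x 0 with h | h | h
  · have h1 : 0 < -x := by omega
    have h2 : ¬ 0 < x := by omega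
    rw [if_pos h1, if_neg h2, if_pos h]; norm_num
  · subst h; simp
  · have h1 : ¬ 0 < -x := by omega
    have h2 : -x < 0 := by omega
    rw [if_neg h1, if_pos h2, if_pos h]

lemma yw_sg_sq_le (x : ℤ) : yw_sg x ^ 2 ≤ 1 := by
  unfold yw_sg
  split_ifs <;> norm_num

lemma yw_sg_triple (x y z : ℤ) :
    yw_sg (z - x) * yw_sg (z - y) + yw_sg (x - y) * yw_sg (x - z)
      + yw_sg (y - z) * yw_sg (y - x) = if x = y ∧ y = z then 0 else 1 := by
  rcases lt_trichotomy x y with h1 | h1 | h1 <;> rcases lt_trichotomy y z with h2 | h2 | h2 <;>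
    rcases lt_trichotomy x z with h3 | h3 | h3 <;>
    first
    | (exfalso; omega)
    | skip
  all_goals
    unfold yw_sg
    have e1 : (0 < z - x) = (x < z) := by simp
    have e2 : (z - x < 0) = (z < x) := by simp
    have e3 : (0 < z - y) = (y < z) := by simp
    have e4 : (z - y < 0) = (z < y) := by simp
    have e5 : (0 < x - y) = (y < x) := by simp
    have e6 : (x - y < 0) = (x < y) := by simp
    have e7 : (0 < x - z) = (z < x) := by simp
    have e8 : (x - z < 0) = (x < z) := by simp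
    have e9 : (0 < y - z) = (z < y) := by simp
    have e10 : (y - z < 0) = (y < z) := by simp
    have e11 : (0 < y - x) = (x < y) := by simp
    have e12 : (y - x < 0) = (y < x) := by simp
    simp only [e1, e2, e3, e4, e5, e6, e7, e8, e9, e10, e11, e12]
    first
    | (subst_vars; simp; done)
    | simp_all [ne_of_lt, ne_of_gt, lt_asymm]

/-- Convolution of a function with itself, over `S`. -/
def yw_conv (S : Finset ℤ) (f : ℤ → ℝ) (t : ℤ) : ℝ := ∑ s ∈ S, f s * f (t - s)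

lemma yw_sum_conv (S : Finset ℤ) (a : ℤ → ℝ) (h0 : ∀ s, s ∉ S → a s = 0) (g : ℤ → ℝ) :
    ∑ t ∈ S + S, yw_conv S a t * g t = ∑ z ∈ S, ∑ y ∈ S, a z * a y * g (z + y) := by
  unfold yw_conv
  simp only [Finset.sum_mul]
  rw [Finset.sum_comm]
  refine Finset.sum_congr rfl fun z hz => ?_
  have himg : ∑ y ∈ S, a z * a y * g (z + y)
      = ∑ t ∈ S.image (fun y => z + y), a z * a (t - z) * g t := by
    rw [Finset.sum_image (by intro x _ y _ h; simpa using h)]
    refine Finset.sum_congr rfl fun y _ => ?_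
    simp
  rw [himg]
  symm
  apply Finset.sum_subset
  · intro t ht
    obtain ⟨y, hy, rfl⟩ := Finset.mem_image.1 ht
    exact Finset.add_mem_add hz hy
  · intro t _ ht
    have : t - z ∉ S := fun h => ht (Finset.mem_image.2 ⟨t - z, h, by ring⟩)
    simp [h0 _ this]

lemma yw_inner (S : Finset ℤ) (a : ℤ → ℝ) (h0 : ∀ s, s ∉ S → a s = 0) (U : ℤ) :
    ∑ s₃ ∈ S, ∑ s₄ ∈ S, (if U = s₃ + s₄ then a s₃ * a s₄ else 0) = yw_conv S a U := by
  unfold yw_conv
  refine Finset.sum_congr rfl fun s _ => ?_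
  by_cases h : U - s ∈ S
  · rw [Finset.sum_eq_single (U - s)]
    · simp
    · intro b _ hb
      rw [if_neg]
      omega
    · intro h'
      exact absurd h h'
  · rw [h0 _ h, Finset.sum_eq_zero]
    · simp
    · intro b hb
      rw [if_neg]
      intro e
      exact h (by
        have : U - s = b := by omega
        rw [this]; exact hb)

lemma yw_wSum_eq (S : Finset ℤ) (a : ℤ → ℝ) (h0 : ∀ s, s ∉ S → a s = 0) :
    wSum S a = ∑ t ∈ S + S, yw_conv S a t ^ 2 := by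
  have := yw_sum_conv S a h0 (yw_conv S a)
  simp only [pow_two]
  rw [this]
  unfold wSum
  refine sum_congr rfl fun z _ => sum_congr rfl fun y _ => ?_
  rw [← yw_inner S a h0 (z + y), Finset.mul_sum]
  refine sum_congr rfl fun s3 _ => ?_
  rw [Finset.mul_sum]
  refine sum_congr rfl fun s4 _ => ?_
  split_ifs <;> ring

lemma yw_conv_sq_le (S : Finset ℤ) (p : ℤ → ℝ) (t : ℤ) :
    yw_conv S (fun s => p s ^ 3) t ^ 2 ≤
      yw_conv S (fun s => p s ^ 4) t * yw_conv S (fun s => p s ^ 2) t := by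
  have := Finset.sum_mul_sq_le_sq_mul_sq S (fun s => p s * p (t - s))
    (fun s => p s ^ 2 * p (t - s) ^ 2)
  unfold yw_conv
  calc (∑ s ∈ S, p s ^ 3 * p (t - s) ^ 3) ^ 2
      = (∑ s ∈ S, p s * p (t - s) * (p s ^ 2 * p (t - s) ^ 2)) ^ 2 := by
        congr 1
        exact sum_congr rfl fun s _ => by ring
    _ ≤ _ := this
    _ = (∑ s ∈ S, p s ^ 4 * p (t - s) ^ 4) * ∑ s ∈ S, p s ^ 2 * p (t - s) ^ 2 := by
        rw [mul_comm]
        congr 1
        · exact sum_congr rfl fun s _ => by ring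
        · exact sum_congr rfl fun s _ => by ring

/-- The Hellinger test: odd test functions bound the defect of the overlap. -/
lemma yw_test (S : Finset ℤ) (q : ℤ → ℝ) (hq : ∀ s, 0 ≤ q s) (h0 : ∀ s, s ∉ S → q s = 0)
    (t : ℤ) (τ : ℤ → ℝ) (hodd : ∀ s, τ (t - s) = - τ s) (hτ : ∀ s, τ s ^ 2 ≤ 1) :
    (∑ s ∈ S, q s ^ 2 * τ s) ^ 2 ≤
      2 * (∑ s ∈ S, q s ^ 2) * (∑ s ∈ S, q s ^ 2 - yw_conv S q t) := by
  classical
  set R : Finset ℤ := S ∪ S.image (fun s => t - s) with hRdef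
  have hSR : S ⊆ R := Finset.subset_union_left
  have hRmem : ∀ s ∈ R, t - s ∈ R := by
    intro s hs
    rcases Finset.mem_union.1 hs with h | h
    · exact Finset.mem_union_right _ (Finset.mem_image.2 ⟨s, h, rfl⟩)
    · obtain ⟨x, hx, rfl⟩ := Finset.mem_image.1 h
      have : t - (t - x) = x := by ring
      rw [this]
      exact hSR hx
  have hrefl : ∀ f : ℤ → ℝ, ∑ s ∈ R, f (t - s) = ∑ s ∈ R, f s := by
    intro f
    refine Finset.sum_nbij' (fun s => t - s) (fun s => t - s) hRmem hRmem ?_ ?_ ?_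
    · intro s _; ring
    · intro s _; ring
    · intro s _; rfl
  have hext : ∀ f : ℤ → ℝ, (∀ s, s ∉ S → f s = 0) → ∑ s ∈ R, f s = ∑ s ∈ S, f s := by
    intro f hf
    symm
    exact Finset.sum_subset hSR fun s _ hs => hf s hs
  set B := ∑ s ∈ S, q s ^ 2 with hB
  set A := ∑ s ∈ S, q s ^ 2 * τ s with hA
  set C := yw_conv S q t with hC
  have hB1 : ∑ s ∈ R, q s ^ 2 = B := hext _ fun s hs => by simp [h0 s hs]
  have hB2 : ∑ s ∈ R, q (t - s) ^ 2 = B := by
    rw [hrefl (fun s => q s ^ 2)]; exact hB1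
  have hC1 : ∑ s ∈ R, q s * q (t - s) = C := hext _ fun s hs => by simp [h0 s hs]
  have hA1 : ∑ s ∈ R, q s ^ 2 * τ s = A := hext _ fun s hs => by simp [h0 s hs]
  have hA2 : ∑ s ∈ R, q (t - s) ^ 2 * τ s = - A := by
    have := hrefl (fun s => q s ^ 2 * τ s)
    rw [hA1] at this
    rw [← this, ← Finset.sum_neg_distrib]
    refine Finset.sum_congr rfl fun s _ => ?_
    simp only [hodd]
    ring
  have h2A : 2 * A = ∑ s ∈ R, (q s - q (t - s)) * ((q s + q (t - s)) * τ s) := by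
    have : ∑ s ∈ R, (q s - q (t - s)) * ((q s + q (t - s)) * τ s)
        = ∑ s ∈ R, q s ^ 2 * τ s - ∑ s ∈ R, q (t - s) ^ 2 * τ s := by
      rw [← Finset.sum_sub_distrib]
      exact sum_congr rfl fun s _ => by ring
    rw [this, hA1, hA2]; ring
  have hCS := Finset.sum_mul_sq_le_sq_mul_sq R (fun s => q s - q (t - s))
    (fun s => (q s + q (t - s)) * τ s)
  have hD : ∑ s ∈ R, (q s - q (t - s)) ^ 2 = 2 * B - 2 * C := by
    have : ∑ s ∈ R, (q s - q (t - s)) ^ 2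
        = ∑ s ∈ R, q s ^ 2 + ∑ s ∈ R, q (t - s) ^ 2 - 2 * ∑ s ∈ R, q s * q (t - s) := by
      rw [Finset.mul_sum, ← Finset.sum_add_distrib, ← Finset.sum_sub_distrib]
      exact sum_congr rfl fun s _ => by ring
    rw [this, hB1, hB2, hC1]; ring
  have hE : ∑ s ∈ R, ((q s + q (t - s)) * τ s) ^ 2 ≤ 2 * B + 2 * C := by
    have h1 : ∑ s ∈ R, (q s + q (t - s)) ^ 2 = 2 * B + 2 * C := by
      have : ∑ s ∈ R, (q s + q (t - s)) ^ 2
          = ∑ s ∈ R, q s ^ 2 + ∑ s ∈ R, q (t - s) ^ 2 + 2 * ∑ s ∈ R, q s * q (t - s) := by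
        rw [Finset.mul_sum, ← Finset.sum_add_distrib, ← Finset.sum_add_distrib]
        exact sum_congr rfl fun s _ => by ring
      rw [this, hB1, hB2, hC1]; ring
    rw [← h1]
    refine Finset.sum_le_sum fun s _ => ?_
    rw [mul_pow]
    have := hτ s
    have h3 : 0 ≤ (q s + q (t - s)) ^ 2 := sq_nonneg _
    nlinarith
  have hD0 : 0 ≤ 2 * B - 2 * C := by
    rw [← hD]
    exact Finset.sum_nonneg fun s _ => sq_nonneg _
  have hC0 : 0 ≤ C := Finset.sum_nonneg fun s _ => mul_nonneg (hq _) (hq _)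
  have hmain : (2 * A) ^ 2 ≤ (2 * B - 2 * C) * (2 * B + 2 * C) := by
    rw [h2A]
    calc _ ≤ _ := hCS
      _ ≤ _ := by
        rw [hD]
        exact mul_le_mul_of_nonneg_left hE hD0
  have hB0 : 0 ≤ B := Finset.sum_nonneg fun s _ => sq_nonneg _
  nlinarith

/-- The mid-rank functional of `b`, centred. -/
def yw_G (S : Finset ℤ) (b : ℤ → ℝ) (z : ℤ) : ℝ := 1 / 2 * ∑ s ∈ S, b s * yw_sg (z - s)

lemma yw_rot {α : Type*} (S : Finset α) (f : α → α → α → ℝ) :
    ∑ x ∈ S, ∑ y ∈ S, ∑ z ∈ S, f y z x = ∑ x ∈ S, ∑ y ∈ S, ∑ z ∈ S, f x y z := by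
  calc ∑ x ∈ S, ∑ y ∈ S, ∑ z ∈ S, f y z x
      = ∑ y ∈ S, ∑ x ∈ S, ∑ z ∈ S, f y z x := Finset.sum_comm
    _ = ∑ y ∈ S, ∑ z ∈ S, ∑ x ∈ S, f y z x :=
        Finset.sum_congr rfl fun _ _ => Finset.sum_comm

lemma yw_G_identity (S : Finset ℤ) (b : ℤ → ℝ) :
    ∑ z ∈ S, b z * yw_G S b z ^ 2 =
      ((∑ s ∈ S, b s) ^ 3 - ∑ s ∈ S, b s ^ 3) / 12 := by
  classical
  set f : ℤ → ℤ → ℤ → ℝ := fun x y z => b x * b y * b z * (yw_sg (z - x) * yw_sg (z - y)) with hf
  have hL : ∑ z ∈ S, b z * yw_G S b z ^ 2 = 1 / 4 * ∑ x ∈ S, ∑ y ∈ S, ∑ z ∈ S, f x y z := by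
    have h1 : ∑ x ∈ S, ∑ y ∈ S, ∑ z ∈ S, f x y z = ∑ z ∈ S, ∑ x ∈ S, ∑ y ∈ S, f x y z := by
      calc ∑ x ∈ S, ∑ y ∈ S, ∑ z ∈ S, f x y z
          = ∑ x ∈ S, ∑ z ∈ S, ∑ y ∈ S, f x y z :=
            Finset.sum_congr rfl fun _ _ => Finset.sum_comm
        _ = ∑ z ∈ S, ∑ x ∈ S, ∑ y ∈ S, f x y z := Finset.sum_comm
    rw [h1, Finset.mul_sum]
    refine Finset.sum_congr rfl fun z _ => ?_
    unfold yw_G
    rw [mul_pow, pow_two (∑ s ∈ S, b s * yw_sg (z - s)), Finset.sum_mul_sum]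
    simp only [Finset.mul_sum]
    refine Finset.sum_congr rfl fun x _ => Finset.sum_congr rfl fun y _ => ?_
    simp only [hf]
    ring
  have h2 := yw_rot S f
  have h3 := yw_rot S (fun x y z => f y z x)
  have hsum : ∑ x ∈ S, ∑ y ∈ S, ∑ z ∈ S, (f x y z + f y z x + f z x y)
      = (∑ s ∈ S, b s) ^ 3 - ∑ s ∈ S, b s ^ 3 := by
    have hpt : ∀ x y z, f x y z + f y z x + f z x y
        = b x * b y * b z - (if x = y ∧ y = z then b x * b y * b z else 0) := by
      intro x y z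
      have := yw_sg_triple x y z
      simp only [hf]
      have e : b x * b y * b z * (yw_sg (z - x) * yw_sg (z - y))
          + b y * b z * b x * (yw_sg (x - y) * yw_sg (x - z))
          + b z * b x * b y * (yw_sg (y - z) * yw_sg (y - x))
          = b x * b y * b z * (yw_sg (z - x) * yw_sg (z - y) + yw_sg (x - y) * yw_sg (x - z)
            + yw_sg (y - z) * yw_sg (y - x)) := by ring
      rw [e, this]
      split_ifs <;> ring
    simp only [hpt, Finset.sum_sub_distrib]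
    congr 1
    · rw [pow_succ, pow_two, Finset.sum_mul_sum, Finset.sum_mul]
      refine Finset.sum_congr rfl fun x _ => ?_
      rw [Finset.sum_mul]
      refine Finset.sum_congr rfl fun y _ => ?_
      rw [Finset.mul_sum]
    · refine Finset.sum_congr rfl fun x hx => ?_
      rw [Finset.sum_eq_single x]
      · rw [Finset.sum_eq_single x]
        · simp; ring
        · intro z _ hz
          rw [if_neg]
          rintro ⟨_, h⟩
          exact hz h.symm
        · intro h; exact absurd hx h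
      · intro y _ hy
        refine Finset.sum_eq_zero fun z _ => ?_
        rw [if_neg]
        rintro ⟨h, _⟩
        exact hy h.symm
      · intro h; exact absurd hx h
  have hsplit : ∑ x ∈ S, ∑ y ∈ S, ∑ z ∈ S, (f x y z + f y z x + f z x y)
      = 3 * ∑ x ∈ S, ∑ y ∈ S, ∑ z ∈ S, f x y z := by
    simp only [Finset.sum_add_distrib]
    rw [h2]
    have h4 : ∑ x ∈ S, ∑ y ∈ S, ∑ z ∈ S, f z x y = ∑ x ∈ S, ∑ y ∈ S, ∑ z ∈ S, f x y z := by
      rw [h3, h2]
    rw [h4]; ring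
  rw [hL]
  rw [hsplit] at hsum
  linarith

lemma yw_G_test (S : Finset ℤ) (p : ℤ → ℝ) (_hp : ∀ s, 0 ≤ p s) (h0 : ∀ s, s ∉ S → p s = 0)
    (z y : ℤ) :
    (yw_G S (fun s => p s ^ 4) z + yw_G S (fun s => p s ^ 4) y) ^ 2 ≤
      2 * (∑ s ∈ S, p s ^ 4) * (∑ s ∈ S, p s ^ 4 - yw_conv S (fun s => p s ^ 2) (z + y)) := by
  have h := yw_test S (fun s => p s ^ 2) (fun s => sq_nonneg _)
    (fun s hs => by simp [h0 s hs]) (z + y)
    (fun s => 1 / 2 * (yw_sg (z - s) + yw_sg (y - s)))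
    (fun s => by
      have e1 : z - (z + y - s) = -(y - s) := by ring
      have e2 : y - (z + y - s) = -(z - s) := by ring
      simp only [e1, e2, yw_sg_neg]
      ring)
    (fun s => by
      have h1 := yw_sg_sq_le (z - s)
      have h2 := yw_sg_sq_le (y - s)
      have h3 := sq_nonneg (yw_sg (z - s) - yw_sg (y - s))
      nlinarith)
  have e1 : ∀ s, (p s ^ 2) ^ 2 = p s ^ 4 := fun s => by ring
  simp only [e1] at h
  have e2 : ∑ s ∈ S, p s ^ 4 * (1 / 2 * (yw_sg (z - s) + yw_sg (y - s)))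
      = yw_G S (fun s => p s ^ 4) z + yw_G S (fun s => p s ^ 4) y := by
    unfold yw_G
    rw [← mul_add, ← Finset.sum_add_distrib, Finset.mul_sum]
    exact Finset.sum_congr rfl fun s _ => by ring
  rw [e2] at h
  exact h

lemma yw_sum_aux (S : Finset ℤ) (b : ℤ → ℝ) (c : ℤ → ℝ) (α β : ℝ) :
    ∑ z ∈ S, ∑ y ∈ S, b z * b y * (α * (β - c (z + y)))
      = α * β * (∑ z ∈ S, ∑ y ∈ S, b z * b y) - α * ∑ z ∈ S, ∑ y ∈ S, b z * b y * c (z + y) := by
  rw [Finset.mul_sum, Finset.mul_sum, ← Finset.sum_sub_distrib]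
  refine Finset.sum_congr rfl fun z _ => ?_
  rw [Finset.mul_sum, Finset.mul_sum, ← Finset.sum_sub_distrib]
  refine Finset.sum_congr rfl fun y _ => ?_
  ring

lemma yw_sum_aux2 (S : Finset ℤ) (b G : ℤ → ℝ) :
    ∑ z ∈ S, ∑ y ∈ S, b z * b y * (G z + G y) ^ 2
      = 2 * (∑ z ∈ S, b z) * (∑ z ∈ S, b z * G z ^ 2) + 2 * (∑ z ∈ S, b z * G z) ^ 2 := by
  have e1 := Finset.sum_mul_sum S S (fun z => b z * G z ^ 2) b
  have e2 := Finset.sum_mul_sum S S b (fun z => b z * G z ^ 2)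
  have e3 := Finset.sum_mul_sum S S (fun z => b z * G z) (fun z => b z * G z)
  have e : 2 * (∑ z ∈ S, b z) * (∑ z ∈ S, b z * G z ^ 2) + 2 * (∑ z ∈ S, b z * G z) ^ 2
      = (∑ z ∈ S, b z * G z ^ 2) * (∑ z ∈ S, b z)
        + (∑ z ∈ S, b z) * (∑ z ∈ S, b z * G z ^ 2)
        + 2 * ((∑ z ∈ S, b z * G z) * (∑ z ∈ S, b z * G z)) := by ring
  rw [e, e1, e2, e3, Finset.mul_sum, ← Finset.sum_add_distrib, ← Finset.sum_add_distrib]
  refine Finset.sum_congr rfl fun z _ => ?_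
  rw [Finset.mul_sum, ← Finset.sum_add_distrib, ← Finset.sum_add_distrib]
  refine Finset.sum_congr rfl fun y _ => ?_
  ring

/-- Young's inequality with stability, for functions vanishing off `S`. -/
lemma yw_stable_aux (S : Finset ℤ) (p : ℤ → ℝ) (hp : ∀ s, 0 ≤ p s) (h0 : ∀ s, s ∉ S → p s = 0) :
    wSum S (fun s => p s ^ 3) ≤
      11 / 12 * (∑ s ∈ S, p s ^ 4) ^ 3 + 1 / 12 * ∑ s ∈ S, p s ^ 12 := by
  classical
  set b : ℤ → ℝ := fun s => p s ^ 4 with hb
  set B := ∑ s ∈ S, b s with hB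
  have hb0 : ∀ s, 0 ≤ b s := fun s => by positivity
  have hb00 : ∀ s, s ∉ S → b s = 0 := fun s hs => by simp [hb, h0 s hs]
  have hB0 : 0 ≤ B := Finset.sum_nonneg fun s _ => hb0 s
  have ha0 : ∀ s, s ∉ S → (fun s => p s ^ 3) s = 0 := fun s hs => by simp [h0 s hs]
  have hcube : ∑ s ∈ S, p s ^ 12 = ∑ s ∈ S, b s ^ 3 :=
    Finset.sum_congr rfl fun s _ => by simp only [hb]; ring
  rw [hcube]
  set X := ∑ z ∈ S, ∑ y ∈ S, b z * b y * yw_conv S (fun s => p s ^ 2) (z + y) with hX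
  have hW : wSum S (fun s => p s ^ 3) ≤ X := by
    rw [yw_wSum_eq S _ ha0, hX, ← yw_sum_conv S b hb00]
    refine Finset.sum_le_sum fun t _ => yw_conv_sq_le S p t
  have hid := yw_G_identity S b
  set GG := ∑ z ∈ S, b z * yw_G S b z ^ 2 with hGG
  rcases hB0.eq_or_lt with hB1 | hB1
  · -- all of `b` vanishes
    have hall : ∀ s ∈ S, b s = 0 := by
      intro s hs
      have := (Finset.sum_eq_zero_iff_of_nonneg fun s _ => hb0 s).1 hB1.symm
      exact this s hs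
    have hX0 : X = 0 := by
      refine Finset.sum_eq_zero fun z hz => Finset.sum_eq_zero fun y _ => ?_
      simp [hall z hz]
    have hS3 : ∑ s ∈ S, b s ^ 3 = 0 := Finset.sum_eq_zero fun s hs => by simp [hall s hs]
    rw [hS3, ← hB1]
    simpa [hX0] using hW
  · have hkey : ∀ z y, (yw_G S b z + yw_G S b y) ^ 2 ≤
        2 * B * (B - yw_conv S (fun s => p s ^ 2) (z + y)) := fun z y => yw_G_test S p hp h0 z y
    have hsum1 : ∑ z ∈ S, ∑ y ∈ S, b z * b y * (yw_G S b z + yw_G S b y) ^ 2 ≤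
        ∑ z ∈ S, ∑ y ∈ S, b z * b y * (2 * B * (B - yw_conv S (fun s => p s ^ 2) (z + y))) := by
      refine Finset.sum_le_sum fun z _ => Finset.sum_le_sum fun y _ => ?_
      exact mul_le_mul_of_nonneg_left (hkey z y) (mul_nonneg (hb0 z) (hb0 y))
    have hR : ∑ z ∈ S, ∑ y ∈ S, b z * b y * (2 * B * (B - yw_conv S (fun s => p s ^ 2) (z + y)))
        = 2 * B * (B ^ 3 - X) := by
      have h2 : ∑ z ∈ S, ∑ y ∈ S, b z * b y = B * B := by
        rw [hB, Finset.sum_mul_sum]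
      have e : 2 * B * (B ^ 3 - X) = 2 * B * B * (B * B) - 2 * B * X := by ring
      rw [e, ← h2, hX]
      exact yw_sum_aux S b _ _ _
    have hL : ∑ z ∈ S, ∑ y ∈ S, b z * b y * (yw_G S b z + yw_G S b y) ^ 2
        = 2 * B * GG + 2 * (∑ z ∈ S, b z * yw_G S b z) ^ 2 := by
      exact yw_sum_aux2 S b (yw_G S b)
    have hfin : GG ≤ B ^ 3 - X := by
      have h5 : 2 * B * GG ≤ 2 * B * (B ^ 3 - X) := by
        have h6 := sq_nonneg (∑ z ∈ S, b z * yw_G S b z)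
        rw [hL, hR] at hsum1
        linarith
      exact le_of_mul_le_mul_left h5 (by positivity)
    rw [hid] at hfin
    linarith

/-- Young's inequality with stability. -/
theorem young_stable (S : Finset ℤ) (p : ℤ → ℝ) (hp : ∀ s, 0 ≤ p s) :
    wSum S (fun s => p s ^ 3) ≤
      11 / 12 * (∑ s ∈ S, p s ^ 4) ^ 3 + 1 / 12 * ∑ s ∈ S, p s ^ 12 := by
  classical
  set p' : ℤ → ℝ := fun s => if s ∈ S then p s else 0 with hp'
  have h := yw_stable_aux S p' (fun s => by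
    simp only [hp']; split_ifs
    · exact hp s
    · exact le_rfl) (fun s hs => by simp [hp', hs])
  have e : ∀ s ∈ S, p' s = p s := fun s hs => by simp [hp', hs]
  have e1 : wSum S (fun s => p' s ^ 3) = wSum S (fun s => p s ^ 3) := by
    unfold wSum
    refine Finset.sum_congr rfl fun a ha => Finset.sum_congr rfl fun b hb =>
      Finset.sum_congr rfl fun c hc => Finset.sum_congr rfl fun d hd => ?_
    simp only [e a ha, e b hb, e c hc, e d hd]
  have e2 : ∑ s ∈ S, p' s ^ 4 = ∑ s ∈ S, p s ^ 4 :=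
    Finset.sum_congr rfl fun s hs => by rw [e s hs]
  have e3 : ∑ s ∈ S, p' s ^ 12 = ∑ s ∈ S, p s ^ 12 :=
    Finset.sum_congr rfl fun s hs => by rw [e s hs]
  rwa [e1, e2, e3] at h

/-- Plain Young. -/
lemma yw_young (S : Finset ℤ) (p : ℤ → ℝ) (hp : ∀ s, 0 ≤ p s) :
    wSum S (fun s => p s ^ 3) ≤ (∑ s ∈ S, p s ^ 4) ^ 3 := by
  have h := young_stable S p hp
  set B := ∑ s ∈ S, p s ^ 4 with hB
  have hB0 : 0 ≤ B := Finset.sum_nonneg fun s _ => by positivity
  have h2 : ∑ s ∈ S, p s ^ 12 ≤ B ^ 3 := by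
    have : ∑ s ∈ S, p s ^ 12 ≤ ∑ s ∈ S, p s ^ 4 * B ^ 2 := by
      refine Finset.sum_le_sum fun s hs => ?_
      have h1 : p s ^ 4 ≤ B := Finset.single_le_sum (f := fun s => p s ^ 4)
        (fun s _ => by positivity) hs
      have h0 : 0 ≤ p s ^ 4 := by positivity
      have h3 : (p s ^ 4) ^ 2 ≤ B ^ 2 := pow_le_pow_left₀ h0 h1 2
      calc p s ^ 12 = p s ^ 4 * (p s ^ 4) ^ 2 := by ring
        _ ≤ _ := mul_le_mul_of_nonneg_left h3 h0
    rw [← Finset.sum_mul, ← hB] at this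
    calc _ ≤ _ := this
      _ = B ^ 3 := by ring
  linarith

lemma yw_shift (S : Finset ℤ) (f : ℤ → ℝ) (hf : ∀ s, s ∉ S → f s = 0) (s0 : ℤ) (hs0 : s0 ∈ S) :
    ∑ t ∈ S + S, f (t - s0) = ∑ s ∈ S, f s := by
  have himg : ∑ s ∈ S, f s = ∑ t ∈ S.image (fun y => s0 + y), f (t - s0) := by
    rw [Finset.sum_image (by intro x _ y _ h; simpa using h)]
    refine Finset.sum_congr rfl fun y _ => ?_
    simp
  rw [himg]
  symm
  apply Finset.sum_subset
  · intro t ht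
    obtain ⟨y, hy, rfl⟩ := Finset.mem_image.1 ht
    exact Finset.add_mem_add hs0 hy
  · intro t _ ht
    have : t - s0 ∉ S := fun h => ht (Finset.mem_image.2 ⟨t - s0, h, by ring⟩)
    exact hf _ this

/-- The square root form of the sum of sixth powers. -/
lemma yw_sixth (S : Finset ℤ) (p : ℤ → ℝ) :
    ∑ s ∈ S, p s ^ 6 ≤ (∑ s ∈ S, p s ^ 4) * Real.sqrt (∑ s ∈ S, p s ^ 4) := by
  set y := ∑ s ∈ S, p s ^ 4 with hy
  rw [Finset.sum_mul]
  refine Finset.sum_le_sum fun s hs => ?_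
  have h1 : p s ^ 4 ≤ y := Finset.single_le_sum (f := fun s => p s ^ 4)
    (fun s _ => by positivity) hs
  have h2 : p s ^ 2 ≤ Real.sqrt y := by
    apply Real.le_sqrt_of_sq_le
    calc (p s ^ 2) ^ 2 = p s ^ 4 := by ring
      _ ≤ y := h1
  calc p s ^ 6 = p s ^ 4 * p s ^ 2 := by ring
    _ ≤ _ := mul_le_mul_of_nonneg_left h2 (by positivity)

/-- Near a point mass. -/
lemma yw_near_aux (S : Finset ℤ) (s0 : ℤ) (hs0 : s0 ∈ S) (p : ℤ → ℝ) (hp : ∀ s, 0 ≤ p s)
    (h0 : ∀ s, s ∉ S → p s = 0) (h1 : p s0 = 1) (Y : ℝ)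
    (hY : Y = (∑ s ∈ S.erase s0, p s ^ 4) * Real.sqrt (∑ s ∈ S.erase s0, p s ^ 4)) :
    wSum S (fun s => p s ^ 3) ≤ (1 + 3 * Y) ^ 2 := by
  classical
  set S' := S.erase s0 with hS'
  set y := ∑ s ∈ S', p s ^ 4 with hy
  have hy0 : 0 ≤ y := Finset.sum_nonneg fun s _ => by positivity
  have hY0 : 0 ≤ Y := by rw [hY]; positivity
  have hY2 : Y ^ 2 = y ^ 3 := by
    rw [hY, mul_pow, Real.sq_sqrt hy0]; ring
  set p' : ℤ → ℝ := fun s => if s = s0 then 0 else p s with hp'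
  have hp'0 : ∀ s, 0 ≤ p' s := fun s => by
    simp only [hp']; split_ifs
    · exact le_rfl
    · exact hp s
  have hp'S : ∀ s, s ∉ S' → p' s = 0 := fun s hs => by
    simp only [hp']
    split_ifs with h
    · rfl
    · apply h0
      intro hsS
      exact hs (Finset.mem_erase.2 ⟨h, hsS⟩)
  have hp'eq : ∀ s ∈ S', p' s = p s := fun s hs => by
    simp only [hp']
    rw [if_neg (Finset.ne_of_mem_erase hs)]
  set x : ℤ → ℝ := fun s => p' s ^ 3 with hx
  have hx0 : ∀ s, s ∉ S' → x s = 0 := fun s hs => by simp [hx, hp'S s hs]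
  have hxs0 : x s0 = 0 := by simp [hx, hp']
  set e : ℤ → ℝ := fun s => if s = s0 then 1 else 0 with he
  have ha : ∀ s, p s ^ 3 = x s + e s := by
    intro s
    simp only [hx, he, hp']
    by_cases h : s = s0
    · subst h; simp [h1]
    · simp [h]
  have ha0 : ∀ s, s ∉ S → (fun s => p s ^ 3) s = 0 := fun s hs => by simp [h0 s hs]
  -- the convolution
  have hv : ∀ t, ∑ s ∈ S, x s * x (t - s) = yw_conv S' x t := by
    intro t
    unfold yw_conv
    rw [← Finset.add_sum_erase S _ hs0, hxs0, zero_mul, zero_add]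
  have hex : ∀ t, ∑ s ∈ S, e s * x (t - s) = x (t - s0) := by
    intro t
    simp only [he]
    rw [Finset.sum_eq_single s0]
    · simp
    · intro b _ hb; simp [hb]
    · intro h; exact absurd hs0 h
  have hxe : ∀ t, ∑ s ∈ S, x s * e (t - s) = x (t - s0) := by
    intro t
    by_cases ht : t - s0 ∈ S
    · rw [Finset.sum_eq_single (t - s0)]
      · simp [he]
      · intro b _ hb
        have : t - b ≠ s0 := fun h => hb (by omega)
        simp [he, this]
      · intro h; exact absurd ht h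
    · have hz : x (t - s0) = 0 := hx0 _ fun h => ht (Finset.mem_of_mem_erase h)
      rw [hz]
      refine Finset.sum_eq_zero fun b hb => ?_
      have : t - b ≠ s0 := fun h => ht (by
        have : t - s0 = b := by omega
        rw [this]; exact hb)
      simp [he, this]
  have hee : ∀ t, ∑ s ∈ S, e s * e (t - s) = e (t - s0) := by
    intro t
    simp only [he]
    rw [Finset.sum_eq_single s0]
    · simp
    · intro b _ hb; simp [hb]
    · intro h; exact absurd hs0 h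
  set h : ℤ → ℝ := fun s => e s + 2 * x s with hh
  have hconv : ∀ t, yw_conv S (fun s => p s ^ 3) t = h (t - s0) + yw_conv S' x t := by
    intro t
    unfold yw_conv
    have : ∀ s, p s ^ 3 * p (t - s) ^ 3
        = x s * x (t - s) + x s * e (t - s) + e s * x (t - s) + e s * e (t - s) := by
      intro s
      rw [ha s, ha (t - s)]; ring
    simp only [this, Finset.sum_add_distrib]
    rw [hv, hex, hxe, hee]
    simp only [hh]
    unfold yw_conv
    ring
  have hhS : ∀ s, s ∉ S → h s ^ 2 = 0 := by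
    intro s hs
    have h2 : s ≠ s0 := fun hs' => hs (hs' ▸ hs0)
    have h3 : x s = 0 := hx0 s fun h' => hs (Finset.mem_of_mem_erase h')
    simp [hh, he, h2, h3]
  have hx2 : ∑ s ∈ S', x s ^ 2 ≤ Y := by
    have : ∑ s ∈ S', x s ^ 2 = ∑ s ∈ S', p s ^ 6 :=
      Finset.sum_congr rfl fun s hs => by
        simp only [hx]
        rw [hp'eq s hs]; ring
    rw [this, hY]
    exact yw_sixth S' p
  have hA : ∑ t ∈ S + S, h (t - s0) ^ 2 ≤ 1 + 4 * Y := by
    rw [yw_shift S (fun s => h s ^ 2) hhS s0 hs0, ← Finset.add_sum_erase S _ hs0]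
    have e1 : h s0 = 1 := by simp [hh, he, hxs0]
    have e2 : ∑ s ∈ S', h s ^ 2 = 4 * ∑ s ∈ S', x s ^ 2 := by
      rw [Finset.mul_sum]
      refine Finset.sum_congr rfl fun s hs => ?_
      have : s ≠ s0 := Finset.ne_of_mem_erase hs
      simp only [hh, he, this, if_false]
      ring
    rw [e1, e2]
    linarith
  have hSS : S' + S' ⊆ S + S := Finset.add_subset_add (Finset.erase_subset _ _)
    (Finset.erase_subset _ _)
  have hC : ∑ t ∈ S + S, yw_conv S' x t ^ 2 ≤ Y ^ 2 := by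
    have hvan : ∀ t, t ∉ S' + S' → yw_conv S' x t ^ 2 = 0 := by
      intro t ht
      have : yw_conv S' x t = 0 := by
        refine Finset.sum_eq_zero fun s hs => ?_
        have : t - s ∉ S' := fun h' => ht (by
          have := Finset.add_mem_add hs h'
          simpa using this)
        simp [hx0 _ this]
      simp [this]
    rw [← Finset.sum_subset hSS (fun t _ ht => hvan t ht), ← yw_wSum_eq S' x hx0, hY2]
    have hy' : ∑ s ∈ S', p' s ^ 4 = y :=
      Finset.sum_congr rfl fun s hs => by rw [hp'eq s hs]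
    rw [← hy']
    exact yw_young S' p' hp'0
  rw [yw_wSum_eq S _ ha0]
  simp only [hconv]
  set A := ∑ t ∈ S + S, h (t - s0) ^ 2 with hAdef
  set C := ∑ t ∈ S + S, yw_conv S' x t ^ 2 with hCdef
  set D := ∑ t ∈ S + S, h (t - s0) * yw_conv S' x t with hDdef
  have hexp : ∑ t ∈ S + S, (h (t - s0) + yw_conv S' x t) ^ 2 = A + 2 * D + C := by
    rw [hAdef, hCdef, hDdef, Finset.mul_sum, ← Finset.sum_add_distrib, ← Finset.sum_add_distrib]
    exact Finset.sum_congr rfl fun t _ => by ring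
  rw [hexp]
  have hCS : D ^ 2 ≤ A * C := Finset.sum_mul_sq_le_sq_mul_sq _ _ _
  have hA0 : 0 ≤ A := Finset.sum_nonneg fun t _ => sq_nonneg _
  have hC0 : 0 ≤ C := Finset.sum_nonneg fun t _ => sq_nonneg _
  have hD : D ≤ (1 + 2 * Y) * Y := by
    have h5 : A * C ≤ (1 + 4 * Y) * Y ^ 2 := mul_le_mul hA hC hC0 (by positivity)
    have h6 : D ^ 2 ≤ ((1 + 2 * Y) * Y) ^ 2 := by nlinarith [sq_nonneg Y, sq_nonneg (Y ^ 2)]
    exact (abs_le_of_sq_le_sq' h6 (by positivity)).2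
  nlinarith [sq_nonneg Y]

lemma yw_gam (M : ℕ) (hM : 2 ≤ M) :
    0 < gam M ∧ gam M ≤ 1 / 55 ∧ gam M * Real.log M = 1 / 80 := by
  have h2 : (2 : ℝ) ≤ M := by exact_mod_cast hM
  have hlog : Real.log 2 ≤ Real.log M := Real.log_le_log (by norm_num) h2
  have hl2 := Real.log_two_gt_d9
  have hpos : 0 < Real.log M := by linarith
  unfold gam
  refine ⟨by positivity, ?_, ?_⟩
  · rw [div_le_div_iff₀ (by positivity) (by norm_num)]
    linarith
  · field_simp

lemma yw_holder (T : Finset ℤ) (b : ℤ → ℝ) (hb : ∀ s, 0 ≤ b s) (κ : ℝ) (hκ : 1 ≤ κ) (M : ℕ)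
    (hT : T.card ≤ M) : (∑ s ∈ T, b s) ^ κ ≤ (M : ℝ) ^ (κ - 1) * ∑ s ∈ T, b s ^ κ := by
  have h := Real.rpow_sum_le_const_mul_sum_rpow_of_nonneg T (f := b) hκ (fun s _ => hb s)
  refine h.trans ?_
  apply mul_le_mul_of_nonneg_right
  · apply Real.rpow_le_rpow (by positivity) (by exact_mod_cast hT) (by linarith)
  · exact Finset.sum_nonneg fun s _ => Real.rpow_nonneg (hb s) _

lemma yw_wSum_congr (S : Finset ℤ) (f g : ℤ → ℝ) (h : ∀ s ∈ S, f s = g s) :
    wSum S f = wSum S g := by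
  unfold wSum
  refine Finset.sum_congr rfl fun a ha => Finset.sum_congr rfl fun b hb =>
    Finset.sum_congr rfl fun c hc => Finset.sum_congr rfl fun d hd => ?_
  simp only [h a ha, h b hb, h c hc, h d hd]

lemma yw_wSum_smul (S : Finset ℤ) (a : ℤ → ℝ) (c : ℝ) :
    wSum S (fun s => c * a s) = c ^ 4 * wSum S a := by
  unfold wSum
  simp only [Finset.mul_sum]
  refine Finset.sum_congr rfl fun a ha => Finset.sum_congr rfl fun b hb =>
    Finset.sum_congr rfl fun c hc => Finset.sum_congr rfl fun d hd => ?_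
  split_ifs <;> ring

/-- The exponent arithmetic in the power mean step. -/
lemma yw_cube_le (S : Finset ℤ) (M : ℕ) (hM : 2 ≤ M) (hS : S.card ≤ M) (b : ℤ → ℝ)
    (hb : ∀ s, 0 ≤ b s) (κ : ℝ) (hκ : κ = 3 / (3 - gam M)) :
    (∑ s ∈ S, b s) ^ 3 ≤ Real.exp (1 / 80) * (∑ s ∈ S, b s ^ κ) ^ (3 - gam M) := by
  obtain ⟨h0, h1, h2⟩ := yw_gam M hM
  set γ := gam M with hγ
  have h3 : 0 < 3 - γ := by linarith
  have hκ3 : κ * (3 - γ) = 3 := by rw [hκ]; field_simp
  have hκ1 : 1 ≤ κ := by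
    rw [hκ, le_div_iff₀ h3]; linarith
  have hsum : 0 ≤ ∑ s ∈ S, b s := Finset.sum_nonneg fun s _ => hb s
  have hsumκ : 0 ≤ ∑ s ∈ S, b s ^ κ := Finset.sum_nonneg fun s _ => Real.rpow_nonneg (hb s) _
  have hH := yw_holder S b hb κ hκ1 M hS
  have hM0 : (0 : ℝ) < M := by
    have : (2 : ℝ) ≤ M := by exact_mod_cast hM
    linarith
  have hr := Real.rpow_le_rpow (Real.rpow_nonneg hsum _) hH h3.le
  rw [← Real.rpow_mul hsum, hκ3, Real.mul_rpow (Real.rpow_nonneg hM0.le _) hsumκ,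
    ← Real.rpow_mul hM0.le] at hr
  have e1 : (κ - 1) * (3 - γ) = γ := by
    have : (κ - 1) * (3 - γ) = κ * (3 - γ) - (3 - γ) := by ring
    rw [this, hκ3]; ring
  have e2 : (M : ℝ) ^ γ = Real.exp (1 / 80) := by
    rw [Real.rpow_def_of_pos hM0, mul_comm, h2]
  rw [e1, e2] at hr
  have e3 : (∑ s ∈ S, b s) ^ (3 : ℝ) = (∑ s ∈ S, b s) ^ 3 := by
    exact_mod_cast Real.rpow_natCast (∑ s ∈ S, b s) 3
  rw [e3] at hr
  exact hr

lemma yw_exp_bound (x : ℝ) (hx : x < 1) : Real.exp x ≤ 1 / (1 - x) := by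
  have h := Real.add_one_le_exp (-x)
  have h1 : 0 < 1 - x := by linarith
  rw [le_div_iff₀ h1]
  have h2 : Real.exp x * Real.exp (-x) = 1 := by rw [← Real.exp_add]; simp
  have h3 := Real.exp_pos x
  nlinarith

/-- The case far from a point mass. -/
lemma yw_far (S : Finset ℤ) (M : ℕ) (hM : 2 ≤ M) (hS : S.card ≤ M) (p : ℤ → ℝ)
    (hp : ∀ s, 0 ≤ p s) (κ : ℝ) (hκ : κ = 3 / (3 - gam M)) (b0 : ℝ) (hb0 : 0 ≤ b0)
    (hmax : ∀ s ∈ S, p s ^ 4 ≤ b0) (hfar : 11 / 10 * b0 ≤ ∑ s ∈ S, p s ^ 4) :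
    wSum S (fun s => p s ^ 3) ≤ (∑ s ∈ S, (p s ^ 4) ^ κ) ^ (3 - gam M) := by
  set B := ∑ s ∈ S, p s ^ 4 with hB
  have hB0 : 0 ≤ B := Finset.sum_nonneg fun s _ => by positivity
  have h1 := young_stable S p hp
  rw [← hB] at h1
  have h2 : ∑ s ∈ S, p s ^ 12 ≤ b0 ^ 2 * B := by
    rw [hB, Finset.mul_sum]
    refine Finset.sum_le_sum fun s hs => ?_
    have h3 : (p s ^ 4) ^ 2 ≤ b0 ^ 2 := pow_le_pow_left₀ (by positivity) (hmax s hs) 2
    have h4 : 0 ≤ p s ^ 4 := by positivity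
    calc p s ^ 12 = (p s ^ 4) ^ 2 * p s ^ 4 := by ring
      _ ≤ b0 ^ 2 * p s ^ 4 := mul_le_mul_of_nonneg_right h3 h4
  have h3 : b0 ^ 2 ≤ (10 / 11 * B) ^ 2 := pow_le_pow_left₀ hb0 (by linarith) 2
  have h4 : ∑ s ∈ S, p s ^ 12 ≤ 100 / 121 * B ^ 3 := by
    calc _ ≤ b0 ^ 2 * B := h2
      _ ≤ (10 / 11 * B) ^ 2 * B := mul_le_mul_of_nonneg_right h3 hB0
      _ = _ := by ring
  have h5 : wSum S (fun s => p s ^ 3) ≤ (11 / 12 + 1 / 12 * (100 / 121)) * B ^ 3 := by
    nlinarith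
  have h6 := yw_cube_le S M hM hS (fun s => p s ^ 4) (fun s => by positivity) κ hκ
  rw [← hB] at h6
  have h7 : Real.exp (1 / 80) ≤ 80 / 79 := by
    have := yw_exp_bound (1 / 80) (by norm_num)
    calc _ ≤ _ := this
      _ = 80 / 79 := by norm_num
  set R := (∑ s ∈ S, (p s ^ 4) ^ κ) ^ (3 - gam M) with hR
  have hR0 : 0 ≤ R := Real.rpow_nonneg (Finset.sum_nonneg fun s _ =>
    Real.rpow_nonneg (by positivity) _) _
  have h8 : B ^ 3 ≤ 80 / 79 * R := h6.trans (mul_le_mul_of_nonneg_right h7 hR0)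
  have hB3 : 0 ≤ B ^ 3 := by positivity
  nlinarith

lemma yw_pow_bound : ((1 : ℝ) / 10) ^ ((49 : ℝ) / 100) ≤ 33 / 100 := by
  have h0 : (0 : ℝ) ≤ 1 / 10 := by norm_num
  have h1 : (((1 : ℝ) / 10) ^ ((49 : ℝ) / 100)) ^ (100 : ℕ) = ((1 : ℝ) / 10) ^ (49 : ℕ) := by
    rw [← Real.rpow_natCast, ← Real.rpow_mul h0, ← Real.rpow_natCast]
    norm_num
  have h2 : ((1 : ℝ) / 10) ^ (49 : ℕ) ≤ (33 / 100 : ℝ) ^ (100 : ℕ) := by norm_num
  rw [← h1] at h2
  exact le_of_pow_le_pow_left₀ (by norm_num) (by norm_num) h2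

/-- The case near a point mass, normalised. -/
lemma yw_near (S : Finset ℤ) (M : ℕ) (hM : 2 ≤ M) (hS : S.card ≤ M) (s0 : ℤ) (hs0 : s0 ∈ S)
    (p : ℤ → ℝ) (hp : ∀ s, 0 ≤ p s) (h0 : ∀ s, s ∉ S → p s = 0) (h1 : p s0 = 1)
    (κ : ℝ) (hκ : κ = 3 / (3 - gam M))
    (hnear : ∑ s ∈ S.erase s0, p s ^ 4 ≤ 1 / 10) :
    wSum S (fun s => p s ^ 3) ≤ (∑ s ∈ S, (p s ^ 4) ^ κ) ^ (3 - gam M) := by
  obtain ⟨g0, g1, g2⟩ := yw_gam M hM
  set γ := gam M with hγ
  set S' := S.erase s0 with hS'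
  set y := ∑ s ∈ S', p s ^ 4 with hy
  have hy0 : 0 ≤ y := Finset.sum_nonneg fun s _ => by positivity
  set Y := y * Real.sqrt y with hY
  have hY0 : 0 ≤ Y := by positivity
  have hW := yw_near_aux S s0 hs0 p hp h0 h1 Y hY
  set w := ∑ s ∈ S', (p s ^ 4) ^ κ with hw
  have hw0 : 0 ≤ w := Finset.sum_nonneg fun s _ => Real.rpow_nonneg (by positivity) _
  have hS1 : ∑ s ∈ S, (p s ^ 4) ^ κ = 1 + w := by
    rw [← Finset.add_sum_erase S _ hs0, h1]; simp [hw, hS']
  rw [hS1]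
  have h3 : 0 < 3 - γ := by linarith
  have hκ3 : κ * (3 - γ) = 3 := by rw [hκ]; field_simp
  have hκ1 : 1 ≤ κ := by rw [hκ, le_div_iff₀ h3]; linarith
  have hκ2 : κ ≤ 101 / 100 := by
    rw [hκ, div_le_iff₀ h3]; linarith
  have hpow : (1 + w) ^ 2 ≤ (1 + w) ^ (3 - γ) := by
    have := Real.rpow_le_rpow_of_exponent_le (x := 1 + w) (y := 2) (z := 3 - γ)
      (by linarith) (by linarith)
    rwa [show (2 : ℝ) = ((2 : ℕ) : ℝ) by norm_num, Real.rpow_natCast] at this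
  refine hW.trans (le_trans ?_ hpow)
  apply pow_le_pow_left₀ (by positivity)
  suffices h : 3 * Y ≤ w by linarith
  -- the core numerical inequality
  rcases hy0.eq_or_lt with hy1 | hy1
  · have : Y = 0 := by rw [hY, ← hy1]; simp
    rw [this]; linarith
  have hH := yw_holder S' (fun s => p s ^ 4) (fun s => by positivity) κ hκ1 M
    ((Finset.card_le_card (Finset.erase_subset _ _)).trans hS)
  rw [← hy, ← hw] at hH
  have hM0 : (0 : ℝ) < M := by
    have : (2 : ℝ) ≤ M := by exact_mod_cast hM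
    linarith
  have hMe : (M : ℝ) ^ (κ - 1) ≤ Real.exp (1 / 160) := by
    rw [Real.rpow_def_of_pos hM0]
    apply Real.exp_le_exp.2
    have e1 : κ - 1 = γ / (3 - γ) := by rw [hκ]; field_simp; ring
    rw [e1]
    have e2 : Real.log M * (γ / (3 - γ)) = (γ * Real.log M) / (3 - γ) := by ring
    rw [e2, g2, div_le_iff₀ h3]
    linarith
  have hexp : Real.exp (1 / 160) ≤ 160 / 159 := by
    have := yw_exp_bound (1 / 160) (by norm_num)
    calc _ ≤ _ := this
      _ = 160 / 159 := by norm_num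
  have hyκ : y ^ κ ≤ 160 / 159 * w :=
    hH.trans (mul_le_mul_of_nonneg_right (hMe.trans hexp) hw0)
  -- `Y = y ^ (3/2) = y ^ κ * y ^ (3/2 - κ)`
  have hYe : Y = y ^ κ * y ^ ((3 : ℝ) / 2 - κ) := by
    rw [← Real.rpow_add hy1]
    have : κ + (3 / 2 - κ) = 1 + 1 / 2 := by ring
    rw [this, Real.rpow_add hy1, Real.rpow_one, ← Real.sqrt_eq_rpow]
  have hsmall : y ^ ((3 : ℝ) / 2 - κ) ≤ 33 / 100 := by
    have e1 : y ^ ((3 : ℝ) / 2 - κ) ≤ (1 / 10 : ℝ) ^ ((3 : ℝ) / 2 - κ) :=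
      Real.rpow_le_rpow hy0 hnear (by linarith)
    have e2 : (1 / 10 : ℝ) ^ ((3 : ℝ) / 2 - κ) ≤ (1 / 10 : ℝ) ^ ((49 : ℝ) / 100) :=
      Real.rpow_le_rpow_of_exponent_ge (by norm_num) (by norm_num) (by linarith)
    exact e1.trans (e2.trans yw_pow_bound)
  have hyκ0 : 0 ≤ y ^ κ := Real.rpow_nonneg hy0 _
  have : Y ≤ y ^ κ * (33 / 100) := by
    rw [hYe]
    exact mul_le_mul_of_nonneg_left hsmall hyκ0
  nlinarith

/-- The core of Lemma W, for cubes. -/
lemma yw_core (S : Finset ℤ) (M : ℕ) (hM : 2 ≤ M) (hS : S.card ≤ M) (p : ℤ → ℝ)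
    (hp : ∀ s, 0 ≤ p s) (κ : ℝ) (hκ : κ = 3 / (3 - gam M)) :
    wSum S (fun s => p s ^ 3) ≤ (∑ s ∈ S, (p s ^ 4) ^ κ) ^ (3 - gam M) := by
  classical
  obtain ⟨g0, g1, g2⟩ := yw_gam M hM
  rcases S.eq_empty_or_nonempty with rfl | hne
  · simp only [wSum, Finset.sum_empty]
    exact Real.rpow_nonneg le_rfl _
  obtain ⟨s0, hs0, hmax⟩ := Finset.exists_max_image S p hne
  set P := p s0 with hP
  have hP0 : 0 ≤ P := hp s0
  have hmax4 : ∀ s ∈ S, p s ^ 4 ≤ P ^ 4 := fun s hs => pow_le_pow_left₀ (hp s) (hmax s hs) 4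
  by_cases hfar : 11 / 10 * P ^ 4 ≤ ∑ s ∈ S, p s ^ 4
  · exact yw_far S M hM hS p hp κ hκ (P ^ 4) (by positivity) hmax4 hfar
  push Not at hfar
  rcases hP0.eq_or_lt with hP1 | hP1
  · -- everything vanishes: then `hfar` fails
    exfalso
    rw [← hP1] at hfar
    have : 0 ≤ ∑ s ∈ S, p s ^ 4 := Finset.sum_nonneg fun s _ => by positivity
    norm_num at hfar
    linarith
  -- normalise
  set p' : ℤ → ℝ := fun s => if s ∈ S then p s / P else 0 with hp'
  have hp'0 : ∀ s, 0 ≤ p' s := fun s => by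
    simp only [hp']; split_ifs
    · exact div_nonneg (hp s) hP0
    · exact le_rfl
  have hp'S : ∀ s, s ∉ S → p' s = 0 := fun s hs => by simp [hp', hs]
  have hp'eq : ∀ s ∈ S, p s = P * p' s := fun s hs => by
    simp only [hp']
    rw [if_pos hs]; field_simp
  have hp's0 : p' s0 = 1 := by
    simp only [hp']
    rw [if_pos hs0, ← hP]; field_simp
  have hnear : ∑ s ∈ S.erase s0, p' s ^ 4 ≤ 1 / 10 := by
    have e : ∑ s ∈ S, p s ^ 4 = P ^ 4 * (1 + ∑ s ∈ S.erase s0, p' s ^ 4) := by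
      rw [← Finset.add_sum_erase S _ hs0, mul_add, mul_one, Finset.mul_sum]
      congr 1
      refine Finset.sum_congr rfl fun s hs => ?_
      rw [hp'eq s (Finset.mem_of_mem_erase hs)]
      ring
    rw [e] at hfar
    have hP4 : 0 < P ^ 4 := by positivity
    have : P ^ 4 * (1 + ∑ s ∈ S.erase s0, p' s ^ 4) ≤ P ^ 4 * (11 / 10) := by linarith
    have := le_of_mul_le_mul_left this hP4
    linarith
  have hN := yw_near S M hM hS s0 hs0 p' hp'0 hp'S hp's0 κ hκ hnear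
  have e1 : wSum S (fun s => p s ^ 3) = (P ^ 3) ^ 4 * wSum S (fun s => p' s ^ 3) := by
    rw [← yw_wSum_smul]
    apply yw_wSum_congr
    intro s hs
    rw [hp'eq s hs]; ring
  set γ := gam M with hγ
  have h3 : 0 < 3 - γ := by linarith
  have hκ3 : κ * (3 - γ) = 3 := by rw [hκ]; field_simp
  have e2 : (∑ s ∈ S, (p s ^ 4) ^ κ) ^ (3 - γ)
      = (P ^ 3) ^ 4 * (∑ s ∈ S, (p' s ^ 4) ^ κ) ^ (3 - γ) := by
    have e3 : ∑ s ∈ S, (p s ^ 4) ^ κ = (P ^ 4) ^ κ * ∑ s ∈ S, (p' s ^ 4) ^ κ := by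
      rw [Finset.mul_sum]
      refine Finset.sum_congr rfl fun s hs => ?_
      rw [← Real.mul_rpow (by positivity) (by have := hp'0 s; positivity), hp'eq s hs]
      congr 1
      ring
    rw [e3, Real.mul_rpow (Real.rpow_nonneg (by positivity) _)
      (Finset.sum_nonneg fun s _ => Real.rpow_nonneg (by have := hp'0 s; positivity) _),
      ← Real.rpow_mul (by positivity), hκ3]
    congr 1
    rw [show (3 : ℝ) = ((3 : ℕ) : ℝ) by norm_num, Real.rpow_natCast]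
    ring
  rw [e1, e2]
  exact mul_le_mul_of_nonneg_left hN (by positivity)

/-- Lemma W. -/
theorem lemmaW (S : Finset ℤ) (M : ℕ) (hM : 2 ≤ M) (hS : S.card ≤ M) (a : ℤ → ℝ)
    (ha : ∀ s, 0 ≤ a s) :
    wSum S a ≤ (∑ s ∈ S, a s ^ (4 / (3 - gam M))) ^ (3 - gam M) := by
  obtain ⟨g0, g1, g2⟩ := yw_gam M hM
  set γ := gam M with hγ
  have h3 : 0 < 3 - γ := by linarith
  set p : ℤ → ℝ := fun s => a s ^ ((1 : ℝ) / 3) with hp
  have hp0 : ∀ s, 0 ≤ p s := fun s => Real.rpow_nonneg (ha s) _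
  have hpa : ∀ s, p s ^ 3 = a s := by
    intro s
    simp only [hp]
    rw [← Real.rpow_natCast, ← Real.rpow_mul (ha s)]
    norm_num
  have hC := yw_core S M hM hS p hp0 (3 / (3 - γ)) rfl
  simp only [hpa] at hC
  have e : ∀ s, (p s ^ 4) ^ (3 / (3 - γ)) = a s ^ (4 / (3 - γ)) := by
    intro s
    simp only [hp]
    rw [← Real.rpow_natCast, ← Real.rpow_mul (ha s), ← Real.rpow_mul (ha s)]
    congr 1
    push_cast
    field_simp
  simp only [e] at hC
  exact hC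

end

end Vale.Agent.Lib.P328Q
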